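import Vale.Agent.P074.Four

open MeasureTheory
open scoped ENNReal NNReal RealInnerProductSpace

namespace P074

variable {d : ℕ}

/-- conjugate of `φ` over `K` -/
noncomputable def conj (K : Set (EuclideanSpace ℝ (Fin d))) (φ : EuclideanSpace ℝ (Fin d) → ℝ)
    (y : EuclideanSpace ℝ (Fin d)) : ℝ := ⨆ x : K, (⟪(x : EuclideanSpace ℝ (Fin d)), y⟫ - φ x)

section Conj

variable {K : Set (EuclideanSpace ℝ (Fin d))} {φ : EuclideanSpace ℝ (Fin d) → ℝ}

lemma conj_bdd (hK : IsCompact K) (hφ : Continuous φ) (y : EuclideanSpace ℝ (Fin d)) :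
    BddAbove (Set.range fun x : K => (⟪(x : EuclideanSpace ℝ (Fin d)), y⟫ - φ x)) := by
  have hc : Continuous fun x : EuclideanSpace ℝ (Fin d) => ⟪x, y⟫ - φ x := by fun_prop
  obtain ⟨B, hB⟩ := (hK.image hc).bddAbove
  refine ⟨B, ?_⟩
  rintro _ ⟨x, rfl⟩
  exact hB (Set.mem_image_of_mem _ x.2)

lemma le_conj (hK : IsCompact K) (hφ : Continuous φ) {x : EuclideanSpace ℝ (Fin d)} (hx : x ∈ K)
    (y : EuclideanSpace ℝ (Fin d)) : ⟪x, y⟫ - φ x ≤ conj K φ y :=
  le_ciSup (conj_bdd hK hφ y) (⟨x, hx⟩ : K)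

lemma conj_le (hne : K.Nonempty) {y : EuclideanSpace ℝ (Fin d)} {c : ℝ}
    (h : ∀ x ∈ K, ⟪x, y⟫ - φ x ≤ c) : conj K φ y ≤ c := by
  have : Nonempty K := hne.to_subtype
  exact ciSup_le fun x => h x x.2

lemma conj_lip (hK : IsCompact K) (hne : K.Nonempty) (hφ : Continuous φ) {R : ℝ}
    (hKR : K ⊆ Metric.closedBall 0 R) (y y' : EuclideanSpace ℝ (Fin d)) :
    conj K φ y ≤ conj K φ y' + R * ‖y - y'‖ := by
  refine conj_le hne fun x hx => ?_
  have h1 := le_conj hK hφ hx y'
  have h2 : ⟪x, y - y'⟫ ≤ R * ‖y - y'‖ :=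
    (real_inner_le_norm _ _).trans (mul_le_mul_of_nonneg_right (by simpa using hKR hx)
      (norm_nonneg _))
  rw [inner_sub_right] at h2
  linarith

lemma conj_continuous (hK : IsCompact K) (hne : K.Nonempty) (hφ : Continuous φ) :
    Continuous (conj K φ) := by
  obtain ⟨R, hR0, hR⟩ := hK.isBounded.subset_closedBall_lt 0 0
  have : LipschitzWith (Real.toNNReal R) (conj K φ) := by
    refine LipschitzWith.of_dist_le_mul fun y y' => ?_
    rw [Real.dist_eq, dist_eq_norm, Real.coe_toNNReal _ hR0.le, abs_le]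
    have h1 := conj_lip hK hne hφ hR y y'
    have h2 := conj_lip hK hne hφ hR y' y
    rw [norm_sub_rev] at h2
    constructor <;> linarith
  exact this.continuous

end Conj

/-- uniform discretisation of a compact set of pairs -/
lemma exists_disc (Z : Set (EuclideanSpace ℝ (Fin d) × EuclideanSpace ℝ (Fin d)))
    (hZ : IsCompact Z) (hne : Z.Nonempty) {ε : ℝ} (hε : 0 < ε) :
    ∃ (n : ℕ) (F : EuclideanSpace ℝ (Fin d) × EuclideanSpace ℝ (Fin d) → Fin (n + 1))
      (rep : Fin (n + 1) → EuclideanSpace ℝ (Fin d) × EuclideanSpace ℝ (Fin d)),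
      Measurable F ∧ ∀ w ∈ Z, ‖rep (F w) - w‖ ≤ ε := by
  classical
  obtain ⟨t, htZ, htf, hcov⟩ := hZ.finite_cover_balls hε
  obtain ⟨z₀, hz₀⟩ := hne
  set l : List (EuclideanSpace ℝ (Fin d) × EuclideanSpace ℝ (Fin d)) := htf.toFinset.toList with hl
  set e : ℕ → EuclideanSpace ℝ (Fin d) × EuclideanSpace ℝ (Fin d) := fun k => l.getD k z₀ with he
  refine ⟨l.length, fun w => ⟨SimpleFunc.nearestPtInd e l.length w,
    Nat.lt_succ_of_le (SimpleFunc.nearestPtInd_le e _ w)⟩, fun k => e k, ?_, ?_⟩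
  · refine measurable_to_countable' fun k => ?_
    have : (fun w => (⟨SimpleFunc.nearestPtInd e l.length w,
        Nat.lt_succ_of_le (SimpleFunc.nearestPtInd_le e _ w)⟩ : Fin (l.length + 1))) ⁻¹' {k}
        = SimpleFunc.nearestPtInd e l.length ⁻¹' {(k : ℕ)} := by
      ext w; simp [Fin.ext_iff]
    rw [this]
    exact (SimpleFunc.nearestPtInd e l.length).measurableSet_preimage _
  · intro w hw
    have := hcov hw
    simp only [Set.mem_iUnion, Metric.mem_ball] at this
    obtain ⟨z, hz, hzw⟩ := this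
    have hzl : z ∈ l := by rw [hl, Finset.mem_toList]; exact htf.mem_toFinset.mpr hz
    obtain ⟨k, hk, hkz⟩ := List.getElem_of_mem hzl
    have hek : e k = z := by
      simp only [he, List.getD_eq_getElem _ _ hk, hkz]
    have h1 : edist (SimpleFunc.nearestPt e l.length w) w ≤ edist (e k) w :=
      SimpleFunc.edist_nearestPt_le e w hk.le
    have h2 : dist (SimpleFunc.nearestPt e l.length w) w ≤ dist (e k) w := by
      rw [edist_dist, edist_dist] at h1
      exact (ENNReal.ofReal_le_ofReal_iff dist_nonneg).mp h1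
    rw [hek, dist_comm z w] at h2
    rw [← dist_eq_norm]
    exact h2.trans hzw.le


section Disc

variable {κ : Type} [Fintype κ] [MeasurableSpace κ] [MeasurableSingletonClass κ]

/-- labels with positive mass -/
def Pos (π : Measure (EuclideanSpace ℝ (Fin d) × EuclideanSpace ℝ (Fin d)))
    (F : EuclideanSpace ℝ (Fin d) × EuclideanSpace ℝ (Fin d) → κ) : Type :=
  {k : κ // 0 < π.real (F ⁻¹' {k})}

noncomputable instance (π : Measure (EuclideanSpace ℝ (Fin d) × EuclideanSpace ℝ (Fin d)))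
    (F : EuclideanSpace ℝ (Fin d) × EuclideanSpace ℝ (Fin d) → κ) : Fintype (Pos π F) := by
  classical
  unfold Pos; infer_instance

lemma sum_pos (π : Measure (EuclideanSpace ℝ (Fin d) × EuclideanSpace ℝ (Fin d)))
    [IsFiniteMeasure π] (F : EuclideanSpace ℝ (Fin d) × EuclideanSpace ℝ (Fin d) → κ)
    (hF : Measurable F) (V : ℝ) (g : κ → ℝ) :
    ∑ k : Pos π F, (V * π.real (F ⁻¹' {k.1})) * g k.1 = V * ∫ w, g (F w) ∂π := by
  classical
  have h1 : ∫ w, g (F w) ∂π = ∑ k, π.real (F ⁻¹' {k}) * g k := by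
    have hint : Integrable g (Measure.map F π) := Integrable.of_finite
    rw [← integral_map hF.aemeasurable hint.aestronglyMeasurable, integral_fintype hint]
    refine Finset.sum_congr rfl fun k _ => ?_
    rw [smul_eq_mul, Measure.real, Measure.real, Measure.map_apply hF (measurableSet_singleton k)]
  rw [h1, Finset.mul_sum]
  have h2 : ∑ k, V * (π.real (F ⁻¹' {k}) * g k) =
      ∑ k ∈ Finset.univ.filter (fun k => 0 < π.real (F ⁻¹' {k})), V * (π.real (F ⁻¹' {k}) * g k) := by
    rw [Finset.sum_filter]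
    refine Finset.sum_congr rfl fun k _ => ?_
    by_cases h : 0 < π.real (F ⁻¹' {k})
    · rw [if_pos h]
    · rw [if_neg h, le_antisymm (not_lt.mp h) measureReal_nonneg]; ring
  rw [h2, Finset.sum_subtype (Finset.univ.filter (fun k => 0 < π.real (F ⁻¹' {k})))
    (p := fun k => 0 < π.real (F ⁻¹' {k})) (fun k => by simp)]
  refine Finset.sum_congr rfl fun k _ => ?_
  ring

/-- comparison of integrals of a Lipschitz function under discretisation -/
lemma disc_le (π : Measure (EuclideanSpace ℝ (Fin d) × EuclideanSpace ℝ (Fin d)))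
    [IsProbabilityMeasure π] (Z : Set (EuclideanSpace ℝ (Fin d) × EuclideanSpace ℝ (Fin d)))
    (hZ : IsCompact Z) (hπZ : ∀ᵐ w ∂π, w ∈ Z)
    (F : EuclideanSpace ℝ (Fin d) × EuclideanSpace ℝ (Fin d) → κ) (hF : Measurable F)
    (rep : κ → EuclideanSpace ℝ (Fin d) × EuclideanSpace ℝ (Fin d)) (ε R : ℝ) (hR : 0 ≤ R)
    (hrep : ∀ w ∈ Z, ‖rep (F w) - w‖ ≤ ε)
    (pr : EuclideanSpace ℝ (Fin d) × EuclideanSpace ℝ (Fin d) → EuclideanSpace ℝ (Fin d))
    (hpr : Continuous pr) (hpr1 : ∀ z w, ‖pr z - pr w‖ ≤ ‖z - w‖)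
    (f : EuclideanSpace ℝ (Fin d) → ℝ) (hf : Continuous f)
    (hlip : ∀ y y', f y ≤ f y' + R * ‖y - y'‖) :
    |∫ w, f (pr (rep (F w))) ∂π - ∫ w, f (pr w) ∂π| ≤ R * ε := by
  have hi1 : Integrable (fun w => f (pr (rep (F w)))) π := by
    have : Measurable fun w => f (pr (rep (F w))) := by
      have h : Measurable fun k => f (pr (rep k)) := measurable_of_finite _
      exact h.comp hF
    obtain ⟨B, hB⟩ := (Set.finite_range fun k => f (pr (rep k))).isBounded.exists_norm_le
    exact Integrable.of_bound this.aestronglyMeasurable B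
      (Filter.Eventually.of_forall fun w => hB _ ⟨F w, rfl⟩)
  have hi2 : Integrable (fun w => f (pr w)) π := by
    obtain ⟨B, hB⟩ := (hZ.image (hf.comp hpr)).isBounded.exists_norm_le
    refine Integrable.of_bound (hf.comp hpr).aestronglyMeasurable B ?_
    filter_upwards [hπZ] with w hw using hB _ (Set.mem_image_of_mem _ hw)
  rw [← integral_sub hi1 hi2]
  have hb : ∀ᵐ w ∂π, ‖f (pr (rep (F w))) - f (pr w)‖ ≤ R * ε := by
    filter_upwards [hπZ] with w hw
    have h1 := hlip (pr (rep (F w))) (pr w)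
    have h2 := hlip (pr w) (pr (rep (F w)))
    rw [norm_sub_rev] at h2
    have h3 : ‖pr (rep (F w)) - pr w‖ ≤ ε := (hpr1 _ _).trans (hrep w hw)
    have h4 : R * ‖pr (rep (F w)) - pr w‖ ≤ R * ε := mul_le_mul_of_nonneg_left h3 hR
    rw [Real.norm_eq_abs, abs_le]
    constructor <;> linarith
  have := norm_integral_le_of_norm_le_const hb
  simpa using this

variable (K : Set (EuclideanSpace ℝ (Fin d))) (hK : IsCompact K) (hne : K.Nonempty)
  (hvol : 0 < volume.real K) {R : ℝ} (hR0 : 0 < R) (hKR : K ⊆ Metric.closedBall 0 R)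

include hK hvol in
lemma integral_unif (f : EuclideanSpace ℝ (Fin d) → ℝ) :
    volume.real K * ∫ x, f x ∂(unif K) = ∫ x in K, f x := by
  have h1 : volume K ≠ ∞ := hK.measure_lt_top.ne
  unfold unif
  rw [integral_smul_measure, ENNReal.toReal_inv, smul_eq_mul, ← mul_assoc]
  rw [show (volume K).toReal = volume.real K from rfl, mul_inv_cancel₀ hvol.ne', one_mul]

include hK hne hvol hR0 hKR in
/-- upper bound for the discretised value -/
lemma val_upper (r : Measure (EuclideanSpace ℝ (Fin d))) [IsFiniteMeasure r]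
    (hr : r Kᶜ = 0) (hrV : r.real Set.univ = volume.real K)
    (π : Measure (EuclideanSpace ℝ (Fin d) × EuclideanSpace ℝ (Fin d)))
    [IsProbabilityMeasure π] (Z : Set (EuclideanSpace ℝ (Fin d) × EuclideanSpace ℝ (Fin d)))
    (hZ : IsCompact Z) (hπZ : ∀ᵐ w ∂π, w ∈ Z)
    (F : EuclideanSpace ℝ (Fin d) × EuclideanSpace ℝ (Fin d) → κ) (hF : Measurable F)
    (rep : κ → EuclideanSpace ℝ (Fin d) × EuclideanSpace ℝ (Fin d)) (ε : ℝ)
    (hrep : ∀ w ∈ Z, ‖rep (F w) - w‖ ≤ ε)
    (pr : EuclideanSpace ℝ (Fin d) × EuclideanSpace ℝ (Fin d) → EuclideanSpace ℝ (Fin d))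
    (hpr : Continuous pr) (hpr1 : ∀ z w, ‖pr z - pr w‖ ≤ ‖z - w‖)
    (U : EuclideanSpace ℝ (Fin d) → EuclideanSpace ℝ (Fin d)) (hU : Measurable U)
    (hmap : Measure.map pr π = Measure.map U (unif K))
    (φ : EuclideanSpace ℝ (Fin d) → ℝ) (hφ : Continuous φ) [Nonempty (Pos π F)] :
    val r (fun k : Pos π F => volume.real K * π.real (F ⁻¹' {k.1})) (fun k => pr (rep k.1)) ≤
      ∫ x, φ x ∂r + (∫ x in K, conj K φ (U x)) + R * volume.real K * ε := by
  have hrR : r (Metric.closedBall 0 R)ᶜ = 0 :=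
    le_antisymm ((measure_mono (Set.compl_subset_compl.mpr hKR)).trans hr.le) bot_le
  have hraeK : ∀ᵐ x ∂r, x ∈ K := by rw [ae_iff]; exact hr
  have hm0 : ∀ k : Pos π F, 0 ≤ volume.real K * π.real (F ⁻¹' {k.1}) := fun k =>
    mul_nonneg hvol.le measureReal_nonneg
  have hsum : ∑ k : Pos π F, volume.real K * π.real (F ⁻¹' {k.1}) = r.real Set.univ := by
    have := sum_pos π F hF (volume.real K) (fun _ => 1)
    simp only [mul_one, integral_const, smul_eq_mul, probReal_univ] at this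
    rw [this, hrV]
  refine (ciInf_le (bddBelow_J r R hrR (fun k : Pos π F => pr (rep k.1)) _ hm0 hsum)
    (fun k => conj K φ (pr (rep k.1)))).trans ?_
  unfold J
  have h1 : ∫ x, pot (fun k : Pos π F => pr (rep k.1)) (fun k => conj K φ (pr (rep k.1))) x ∂r
      ≤ ∫ x, φ x ∂r := by
    refine integral_mono_ae (integrable_pot r R hrR _ _) ?_ ?_
    · obtain ⟨B, hB⟩ := hK.exists_bound_of_continuousOn hφ.continuousOn
      refine Integrable.of_bound hφ.aestronglyMeasurable B ?_
      filter_upwards [hraeK] with x hx using hB x hx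
    · filter_upwards [hraeK] with x hx
      refine ciSup_le fun k => ?_
      have := le_conj hK hφ hx (pr (rep k.1))
      unfold sc; linarith
  have h2 : ∑ k : Pos π F, volume.real K * π.real (F ⁻¹' {k.1}) * conj K φ (pr (rep k.1))
      = volume.real K * ∫ w, conj K φ (pr (rep (F w))) ∂π :=
    sum_pos π F hF (volume.real K) (fun k => conj K φ (pr (rep k)))
  have h3 := disc_le π Z hZ hπZ F hF rep ε R hR0.le hrep pr hpr hpr1 (conj K φ)
    (conj_continuous hK hne hφ) (conj_lip hK hne hφ hKR)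
  have h4 : ∫ w, conj K φ (pr w) ∂π = ∫ x, conj K φ (U x) ∂(unif K) := by
    rw [← integral_map hpr.aemeasurable (conj_continuous hK hne hφ).aestronglyMeasurable, hmap,
      integral_map hU.aemeasurable (conj_continuous hK hne hφ).aestronglyMeasurable]
  have h5 : volume.real K * ∫ x, conj K φ (U x) ∂(unif K) = ∫ x in K, conj K φ (U x) :=
    integral_unif K hK hvol _
  rw [h4] at h3
  have h6 := (abs_le.mp h3).2
  have h7 : volume.real K * ∫ w, conj K φ (pr (rep (F w))) ∂π ≤
      volume.real K * (∫ x, conj K φ (U x) ∂(unif K) + R * ε) :=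
    mul_le_mul_of_nonneg_left (by linarith) hvol.le
  rw [h2]
  have h8 : volume.real K * (∫ x, conj K φ (U x) ∂(unif K) + R * ε)
      = (∫ x in K, conj K φ (U x)) + R * volume.real K * ε := by rw [mul_add, h5]; ring
  linarith

include hK hne hvol hR0 hKR in
/-- lower bound for the discretised value -/
lemma val_lower (σ : EuclideanSpace ℝ (Fin d) → EuclideanSpace ℝ (Fin d)) (hσ : Measurable σ)
    (hσK : ∀ x ∈ K, σ x ∈ K)
    (π : Measure (EuclideanSpace ℝ (Fin d) × EuclideanSpace ℝ (Fin d)))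
    [IsProbabilityMeasure π] (Z : Set (EuclideanSpace ℝ (Fin d) × EuclideanSpace ℝ (Fin d)))
    (hZ : IsCompact Z) (hπZ : ∀ᵐ w ∂π, w ∈ Z)
    (F : EuclideanSpace ℝ (Fin d) × EuclideanSpace ℝ (Fin d) → κ) (hF : Measurable F)
    (rep : κ → EuclideanSpace ℝ (Fin d) × EuclideanSpace ℝ (Fin d)) (ε : ℝ)
    (hrep : ∀ w ∈ Z, ‖rep (F w) - w‖ ≤ ε)
    (pr : EuclideanSpace ℝ (Fin d) × EuclideanSpace ℝ (Fin d) → EuclideanSpace ℝ (Fin d))
    (hpr : Continuous pr) (hpr1 : ∀ z w, ‖pr z - pr w‖ ≤ ‖z - w‖)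
    (U : EuclideanSpace ℝ (Fin d) → EuclideanSpace ℝ (Fin d)) (hU : Measurable U) (L : ℝ)
    (hUL : ∀ᵐ x ∂(volume.restrict K), ‖U x‖ ≤ L)
    (hmap : Measure.map pr π = Measure.map U (unif K)) [Nonempty (Pos π F)] :
    (∫ x in K, ⟪σ x, U x⟫) - R * volume.real K * ε ≤
      val (Measure.map σ (volume.restrict K))
        (fun k : Pos π F => volume.real K * π.real (F ⁻¹' {k.1})) (fun k => pr (rep k.1)) := by
  have hfin : IsFiniteMeasure (volume.restrict K) := ⟨by
    rw [Measure.restrict_apply_univ]; exact hK.measure_lt_top⟩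
  refine le_ciInf fun ψ => ?_
  set y : Pos π F → EuclideanSpace ℝ (Fin d) := fun k => pr (rep k.1) with hy
  have hpc : Continuous (pot y ψ) := by
    have : pot y ψ = fun x => Finset.univ.sup' Finset.univ_nonempty (fun i => sc y ψ i x) := by
      ext x
      rw [Finset.sup'_univ_eq_ciSup]; rfl
    rw [this]
    exact Continuous.finset_sup'_apply _ fun i _ => continuous_sc y ψ i
  have hcc := conj_continuous hK hne hpc
  have hxK : ∀ᵐ x ∂(volume.restrict K), x ∈ K := ae_restrict_mem hK.measurableSet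
  have hi1 : IntegrableOn (fun x => pot y ψ (σ x)) K := by
    obtain ⟨B, hB⟩ := hK.exists_bound_of_continuousOn hpc.continuousOn
    refine Integrable.of_bound (hpc.measurable.comp hσ).aestronglyMeasurable B ?_
    filter_upwards [hxK] with x hx using hB _ (hσK x hx)
  have hi2 : IntegrableOn (fun x => conj K (pot y ψ) (U x)) K := by
    obtain ⟨B, hB⟩ := (isCompact_closedBall (0 : EuclideanSpace ℝ (Fin d)) L).exists_bound_of_continuousOn
      hcc.continuousOn
    refine Integrable.of_bound (hcc.measurable.comp hU).aestronglyMeasurable B ?_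
    filter_upwards [hUL] with x hx using hB _ (by simpa using hx)
  have hi3 : IntegrableOn (fun x => ⟪σ x, U x⟫) K := by
    refine Integrable.of_bound (hσ.inner hU).aestronglyMeasurable (R * L) ?_
    filter_upwards [hUL, hxK] with x hx hx'
    have h1 : ‖σ x‖ ≤ R := by simpa using hKR (hσK x hx')
    exact (norm_inner_le_norm _ _).trans (mul_le_mul h1 hx (norm_nonneg _) hR0.le)
  have h1 : ∫ x, pot y ψ x ∂(Measure.map σ (volume.restrict K)) = ∫ x in K, pot y ψ (σ x) :=
    integral_map hσ.aemeasurable hpc.aestronglyMeasurable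
  have h2 : ∑ k : Pos π F, volume.real K * π.real (F ⁻¹' {k.1}) * conj K (pot y ψ) (pr (rep k.1))
      = volume.real K * ∫ w, conj K (pot y ψ) (pr (rep (F w))) ∂π :=
    sum_pos π F hF (volume.real K) (fun k => conj K (pot y ψ) (pr (rep k)))
  have h2' : ∑ k : Pos π F, volume.real K * π.real (F ⁻¹' {k.1}) * conj K (pot y ψ) (pr (rep k.1))
      ≤ ∑ k : Pos π F, volume.real K * π.real (F ⁻¹' {k.1}) * ψ k := by
    refine Finset.sum_le_sum fun k _ => mul_le_mul_of_nonneg_left ?_
      (mul_nonneg hvol.le measureReal_nonneg)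
    refine conj_le hne fun x _ => ?_
    have := sc_le_pot y ψ k x
    unfold sc at this
    linarith
  have h3 := disc_le π Z hZ hπZ F hF rep ε R hR0.le hrep pr hpr hpr1 (conj K (pot y ψ))
    hcc (conj_lip hK hne hpc hKR)
  have h4 : ∫ w, conj K (pot y ψ) (pr w) ∂π = ∫ x, conj K (pot y ψ) (U x) ∂(unif K) := by
    rw [← integral_map hpr.aemeasurable hcc.aestronglyMeasurable, hmap,
      integral_map hU.aemeasurable hcc.aestronglyMeasurable]
  have h5 : volume.real K * ∫ x, conj K (pot y ψ) (U x) ∂(unif K)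
      = ∫ x in K, conj K (pot y ψ) (U x) := integral_unif K hK hvol _
  rw [h4] at h3
  have h6 := (abs_le.mp h3).1
  have h7 : volume.real K * (∫ x, conj K (pot y ψ) (U x) ∂(unif K) - R * ε) ≤
      volume.real K * ∫ w, conj K (pot y ψ) (pr (rep (F w))) ∂π :=
    mul_le_mul_of_nonneg_left (by linarith) hvol.le
  have h8 : volume.real K * (∫ x, conj K (pot y ψ) (U x) ∂(unif K) - R * ε)
      = (∫ x in K, conj K (pot y ψ) (U x)) - R * volume.real K * ε := by rw [mul_sub, h5]; ring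
  have h9 : ∫ x in K, ⟪σ x, U x⟫ ≤ (∫ x in K, pot y ψ (σ x)) + ∫ x in K, conj K (pot y ψ) (U x) := by
    rw [← integral_add hi1 hi2]
    refine integral_mono_ae hi3 (hi1.add hi2) ?_
    filter_upwards [hxK] with x hx
    have := le_conj hK hpc (hσK x hx) (U x)
    linarith
  unfold J
  rw [h1]
  linarith

end Disc


/-- The conjugate at the transported point is attained. -/
lemma conj_eq {K : Set (EuclideanSpace ℝ (Fin d))} (hK : IsCompact K)
    {φ : EuclideanSpace ℝ (Fin d) → ℝ} (hφ : Continuous φ)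
    {T : EuclideanSpace ℝ (Fin d) → EuclideanSpace ℝ (Fin d)}
    {x : EuclideanSpace ℝ (Fin d)} (hx : x ∈ K) (h : ∀ z, φ x + ⟪T x, z - x⟫ ≤ φ z) :
    conj K φ (T x) = ⟪x, T x⟫ - φ x := by
  refine le_antisymm (conj_le ⟨x, hx⟩ fun z _ => ?_) (le_conj hK hφ hx _)
  have := h z
  rw [inner_sub_right, real_inner_comm, real_inner_comm x] at this
  linarith

/-- Continuous version of the four-point inequality. -/
theorem cont_four (d : ℕ) (R : ℝ) (hR : 0 < R) : ∃ C : ℝ, 0 ≤ C ∧
    ∀ K : Set (EuclideanSpace ℝ (Fin d)), IsCompact K → Convex ℝ K →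
    K ⊆ Metric.closedBall 0 R → 0 < volume.real K →
    ∀ q : EuclideanSpace ℝ (Fin d) → ℝ, Measurable q → (∀ x, |q x| ≤ 1) →
    ∫ x in K, q x = 0 →
    ∀ (L : ℝ) (T S σ : EuclideanSpace ℝ (Fin d) → EuclideanSpace ℝ (Fin d))
      (φ₀ φ₁ : EuclideanSpace ℝ (Fin d) → ℝ)
      (π : Measure (EuclideanSpace ℝ (Fin d) × EuclideanSpace ℝ (Fin d))),
      0 ≤ L → Measurable T → Measurable S → Measurable σ → Continuous φ₀ → Continuous φ₁ →
      (∀ᵐ x ∂(volume.restrict K), ‖T x‖ ≤ L) → (∀ᵐ x ∂(volume.restrict K), ‖S x‖ ≤ L) →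
      (∀ᵐ x ∂(volume.restrict K), ∀ z, φ₀ x + ⟪T x, z - x⟫ ≤ φ₀ z) →
      (∀ᵐ x ∂(volume.restrict K), ∀ z, φ₁ x + ⟪S x, z - x⟫ ≤ φ₁ z) →
      π.fst = Measure.map T (unif K) → π.snd = Measure.map S (unif K) →
      (∀ x ∈ K, σ x ∈ K) → Measure.map σ (volume.restrict K) = pert K q →
      ((∫ x in K, ⟪σ x, S x⟫) - ∫ x in K, ⟪x, S x⟫)
        - ((∫ x in K, φ₀ (σ x)) - ∫ x in K, φ₀ x) ≤
      C * Real.sqrt (∫ x in K, q x ^ 2) *
        Real.sqrt (volume.real K * ∫ z, ‖z.1 - z.2‖ ^ 2 ∂π) := by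
  classical
  obtain ⟨C, hC, hfour⟩ := fourpoint d R hR
  refine ⟨C, hC, ?_⟩
  intro K hK hconv hKR hvol q hq hq1 hq0 L T S σ φ₀ φ₁ π hL hT hS hσ hφ₀ hφ₁ hTL hSL hpT hpS
    hfst hsnd hσK hσq
  have hne : K.Nonempty := by
    by_contra h
    rw [Set.not_nonempty_iff_eq_empty] at h
    rw [h] at hvol; simp at hvol
  have hfin : IsFiniteMeasure (volume.restrict K) := ⟨by
    rw [Measure.restrict_apply_univ]; exact hK.measure_lt_top⟩
  have hfin' : IsFiniteMeasure (pert K q) := pert_finite K hK q hq1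
  have hprobU : IsProbabilityMeasure (unif K) := by
    constructor
    have h0 : volume K ≠ 0 := by
      intro h; rw [Measure.real, h] at hvol; simp at hvol
    simp only [unif, Measure.smul_apply, Measure.restrict_apply MeasurableSet.univ, Set.univ_inter,
      smul_eq_mul]
    exact ENNReal.inv_mul_cancel h0 hK.measure_lt_top.ne
  have hπ : IsProbabilityMeasure π := by
    constructor
    have h1 : π.fst Set.univ = 1 := by
      rw [hfst]
      have := Measure.isProbabilityMeasure_map (μ := unif K) hT.aemeasurable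
      exact measure_univ
    rw [Measure.fst_univ] at h1
    exact h1
  set V : ℝ := volume.real K with hV
  -- support of the coupling
  set Bl : Set (EuclideanSpace ℝ (Fin d)) := Metric.closedBall 0 L with hBl
  have hBlm : MeasurableSet Bl := Metric.isClosed_closedBall.measurableSet
  have hsupp : ∀ U : EuclideanSpace ℝ (Fin d) → EuclideanSpace ℝ (Fin d), Measurable U →
      (∀ᵐ x ∂(volume.restrict K), ‖U x‖ ≤ L) → Measure.map U (unif K) Blᶜ = 0 := by
    intro U hU hUL
    rw [Measure.map_apply hU hBlm.compl]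
    have h1 : ∀ᵐ x ∂(unif K), ‖U x‖ ≤ L := by
      unfold unif; exact Measure.ae_smul_measure hUL _
    rw [ae_iff] at h1
    refine le_antisymm ((measure_mono ?_).trans h1.le) bot_le
    intro x hx
    simpa [hBl] using hx
  set Z : Set (EuclideanSpace ℝ (Fin d) × EuclideanSpace ℝ (Fin d)) := Bl ×ˢ Bl with hZdef
  have hZ : IsCompact Z := (isCompact_closedBall _ _).prod (isCompact_closedBall _ _)
  have hZne : Z.Nonempty := ⟨(0, 0), by simp [hZdef, hBl, hL]⟩
  have hπZ : ∀ᵐ w ∂π, w ∈ Z := by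
    have h1 : ∀ᵐ w ∂π, w.1 ∈ Bl := by
      rw [ae_iff]
      have : {a : EuclideanSpace ℝ (Fin d) × EuclideanSpace ℝ (Fin d) | ¬ a.1 ∈ Bl}
          = Prod.fst ⁻¹' Blᶜ := rfl
      rw [this, ← Measure.fst_apply hBlm.compl, hfst]
      exact hsupp T hT hTL
    have h2 : ∀ᵐ w ∂π, w.2 ∈ Bl := by
      rw [ae_iff]
      have : {a : EuclideanSpace ℝ (Fin d) × EuclideanSpace ℝ (Fin d) | ¬ a.2 ∈ Bl}
          = Prod.snd ⁻¹' Blᶜ := rfl
      rw [this, ← Measure.snd_apply hBlm.compl, hsnd]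
      exact hsupp S hS hSL
    filter_upwards [h1, h2] with w hw1 hw2 using ⟨hw1, hw2⟩
  set w2 : ℝ := ∫ z, ‖z.1 - z.2‖ ^ 2 ∂π with hw2
  have hw20 : 0 ≤ w2 := integral_nonneg fun z => sq_nonneg _
  set X : ℝ := ((∫ x in K, ⟪σ x, S x⟫) - ∫ x in K, ⟪x, S x⟫)
        - ((∫ x in K, φ₀ (σ x)) - ∫ x in K, φ₀ x) with hX
  -- the approximate inequality
  have happ : ∀ ε : ℝ, 0 < ε → ε ≤ 1 →
      X ≤ C * Real.sqrt (∫ x in K, q x ^ 2) * Real.sqrt (V * (w2 + (8 * L + 4) * ε))
        + 4 * (R * V * ε) := by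
    intro ε hε hε1
    obtain ⟨n, F, rep, hF, hrep⟩ := exists_disc Z hZ hZne hε
    set mm : Pos π F → ℝ := fun k => V * π.real (F ⁻¹' {k.1}) with hmm
    have hmpos : ∀ k, 0 < mm k := fun k => mul_pos hvol k.2
    have hsum1 := sum_pos π F hF V (fun _ => 1)
    simp only [mul_one, integral_const, smul_eq_mul, probReal_univ] at hsum1
    have hne' : Nonempty (Pos π F) := by
      by_contra h
      rw [not_nonempty_iff] at h
      rw [Fintype.sum_empty] at hsum1
      linarith
    have hf := hfour K hK hconv hKR q hq hq1 hq0 (Pos π F) mm (fun k => (rep k.1).1)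
      (fun k => (rep k.1).2) hmpos hsum1
    have hpr1 : ∀ z w : EuclideanSpace ℝ (Fin d) × EuclideanSpace ℝ (Fin d),
        ‖z.1 - w.1‖ ≤ ‖z - w‖ := fun z w => norm_fst_le (z - w)
    have hpr2 : ∀ z w : EuclideanSpace ℝ (Fin d) × EuclideanSpace ℝ (Fin d),
        ‖z.2 - w.2‖ ≤ ‖z - w‖ := fun z w => norm_snd_le (z - w)
    have hr1 : (pert K q) Kᶜ = 0 := by
      rw [pert_apply K q hK.measurableSet.compl, Set.inter_compl_self]; simp
    have hr2 : (volume.restrict K) Kᶜ = 0 := by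
      rw [Measure.restrict_apply hK.measurableSet.compl, Set.compl_inter_self]; simp
    have hV1 := pert_real_univ K hK q hq hq1 hq0
    have hV2 : (volume.restrict K).real Set.univ = volume.real K := by
      rw [Measure.real, Measure.restrict_apply_univ, Measure.real]
    have u1 := val_upper K hK hne hvol hR hKR (pert K q) hr1 hV1 π Z hZ hπZ F hF rep ε hrep
      Prod.fst continuous_fst hpr1 T hT hfst φ₀ hφ₀
    have u2 := val_upper K hK hne hvol hR hKR (volume.restrict K) hr2 hV2 π Z hZ hπZ F hF rep ε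
      hrep Prod.snd continuous_snd hpr2 S hS hsnd φ₁ hφ₁
    have l1 := val_lower K hK hne hvol hR hKR σ hσ hσK π Z hZ hπZ F hF rep ε hrep Prod.snd
      continuous_snd hpr2 S hS L hSL hsnd
    have l2 := val_lower K hK hne hvol hR hKR id measurable_id (fun x hx => hx) π Z hZ hπZ F hF
      rep ε hrep Prod.fst continuous_fst hpr1 T hT L hTL hfst
    rw [hσq] at l1
    rw [Measure.map_id] at l2
    -- the conjugates
    have hφint : ∀ φ : EuclideanSpace ℝ (Fin d) → ℝ, Continuous φ → IntegrableOn φ K :=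
      fun φ hφ => hφ.continuousOn.integrableOn_compact hK
    have hinner : ∀ U : EuclideanSpace ℝ (Fin d) → EuclideanSpace ℝ (Fin d), Measurable U →
        (∀ᵐ x ∂(volume.restrict K), ‖U x‖ ≤ L) → IntegrableOn (fun x => ⟪x, U x⟫) K := by
      intro U hU hUL
      refine Integrable.of_bound (measurable_id.inner hU).aestronglyMeasurable (R * L) ?_
      filter_upwards [hUL, ae_restrict_mem hK.measurableSet] with x hx hx'
      have h1 : ‖x‖ ≤ R := by simpa using hKR hx'
      exact (norm_inner_le_norm _ _).trans (mul_le_mul h1 hx (norm_nonneg _) hR.le)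
    have c0 : (∫ x in K, conj K φ₀ (T x)) = (∫ x in K, ⟪x, T x⟫) - ∫ x in K, φ₀ x := by
      rw [← integral_sub (hinner T hT hTL) (hφint φ₀ hφ₀)]
      refine integral_congr_ae ?_
      filter_upwards [hpT, ae_restrict_mem hK.measurableSet] with x hx hxK
      exact conj_eq hK hφ₀ hxK hx
    have c1 : (∫ x in K, conj K φ₁ (S x)) = (∫ x in K, ⟪x, S x⟫) - ∫ x in K, φ₁ x := by
      rw [← integral_sub (hinner S hS hSL) (hφint φ₁ hφ₁)]
      refine integral_congr_ae ?_
      filter_upwards [hpS, ae_restrict_mem hK.measurableSet] with x hx hxK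
      exact conj_eq hK hφ₁ hxK hx
    have c2 : ∫ x, φ₀ x ∂(pert K q) = ∫ x in K, φ₀ (σ x) := by
      rw [← hσq, integral_map hσ.aemeasurable hφ₀.aestronglyMeasurable]
    rw [c2, c0] at u1
    rw [c1] at u2
    simp only [id] at l2
    -- the discretised distance
    have hdist : ∑ k : Pos π F, mm k * ‖(rep k.1).1 - (rep k.1).2‖ ^ 2 ≤
        V * (w2 + (8 * L + 4) * ε) := by
      have e1 := sum_pos π F hF V (fun k => ‖(rep k).1 - (rep k).2‖ ^ 2)
      rw [hmm, e1]
      refine mul_le_mul_of_nonneg_left ?_ hvol.le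
      have hi : Integrable (fun z : EuclideanSpace ℝ (Fin d) × EuclideanSpace ℝ (Fin d) =>
          ‖z.1 - z.2‖ ^ 2) π := by
        refine Integrable.of_bound (by fun_prop) ((2 * L) ^ 2) ?_
        filter_upwards [hπZ] with z hz
        rw [Real.norm_of_nonneg (by positivity)]
        have h1 : ‖z.1‖ ≤ L := by simpa [hBl] using hz.1
        have h2 : ‖z.2‖ ≤ L := by simpa [hBl] using hz.2
        have := norm_sub_le z.1 z.2
        gcongr; linarith
      have e2 : w2 + (8 * L + 4) * ε = ∫ z, (‖z.1 - z.2‖ ^ 2 + (8 * L + 4) * ε) ∂π := by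
        rw [integral_add hi (integrable_const _)]; simp [hw2]
      rw [e2]
      have hmf : Measurable fun w => ‖(rep (F w)).1 - (rep (F w)).2‖ ^ 2 := by
        have h : Measurable fun k => ‖(rep k).1 - (rep k).2‖ ^ 2 := measurable_of_finite _
        exact h.comp hF
      have hb : ∀ᵐ z ∂π, ‖(rep (F z)).1 - (rep (F z)).2‖ ^ 2 ≤
          ‖z.1 - z.2‖ ^ 2 + (8 * L + 4) * ε := by
        filter_upwards [hπZ] with z hz
        have h1 : ‖z.1‖ ≤ L := by simpa [hBl] using hz.1
        have h2 : ‖z.2‖ ≤ L := by simpa [hBl] using hz.2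
        have h3 := (hpr1 (rep (F z)) z).trans (hrep z hz)
        have h4 := (hpr2 (rep (F z)) z).trans (hrep z hz)
        have h5 : ‖(rep (F z)).1 - (rep (F z)).2‖ ≤ ‖z.1 - z.2‖ + 2 * ε := by
          have : (rep (F z)).1 - (rep (F z)).2 =
              (z.1 - z.2) + ((rep (F z)).1 - z.1) - ((rep (F z)).2 - z.2) := by abel
          rw [this]
          refine (norm_sub_le _ _).trans ?_
          have := norm_add_le (z.1 - z.2) ((rep (F z)).1 - z.1)
          linarith
        have h6 : ‖z.1 - z.2‖ ≤ 2 * L := (norm_sub_le _ _).trans (by linarith)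
        have h7 := norm_nonneg (z.1 - z.2)
        calc ‖(rep (F z)).1 - (rep (F z)).2‖ ^ 2 ≤ (‖z.1 - z.2‖ + 2 * ε) ^ 2 := by gcongr
          _ = ‖z.1 - z.2‖ ^ 2 + 4 * ε * ‖z.1 - z.2‖ + 4 * ε * ε := by ring
          _ ≤ ‖z.1 - z.2‖ ^ 2 + (8 * L + 4) * ε := by nlinarith
      refine integral_mono_ae ?_ (hi.add (integrable_const _)) hb
      refine Integrable.mono' (hi.add (integrable_const ((8 * L + 4) * ε)))
        hmf.aestronglyMeasurable ?_
      filter_upwards [hb] with z hz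
      rw [Real.norm_of_nonneg (by positivity)]
      exact hz
    have hf2 := hf.trans (mul_le_mul_of_nonneg_left (Real.sqrt_le_sqrt hdist)
      (mul_nonneg hC (Real.sqrt_nonneg _)))
    rw [hX]
    linarith
  -- passage to the limit
  have hlim : Filter.Tendsto (fun ε : ℝ => C * Real.sqrt (∫ x in K, q x ^ 2) *
      Real.sqrt (V * (w2 + (8 * L + 4) * ε)) + 4 * (R * V * ε)) (nhdsWithin 0 (Set.Ioi 0))
      (nhds (C * Real.sqrt (∫ x in K, q x ^ 2) * Real.sqrt (V * w2))) := by
    have hcont : Continuous (fun ε : ℝ => C * Real.sqrt (∫ x in K, q x ^ 2) *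
      Real.sqrt (V * (w2 + (8 * L + 4) * ε)) + 4 * (R * V * ε)) := by fun_prop
    have := hcont.tendsto 0
    simp only [mul_zero, add_zero] at this
    exact this.mono_left nhdsWithin_le_nhds
  refine ge_of_tendsto hlim ?_
  have hev : ∀ᶠ ε : ℝ in nhdsWithin 0 (Set.Ioi 0), ε ∈ Set.Ioo (0 : ℝ) 1 :=
    Ioo_mem_nhdsGT one_pos
  filter_upwards [hev] with ε hε
  exact happ ε hε.1 hε.2.le

end P074
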