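import Mathlib

open MeasureTheory
open scoped ENNReal NNReal RealInnerProductSpace

namespace P074

/-- The uniform probability measure on `K`. -/
noncomputable def unif {d : ℕ} (K : Set (EuclideanSpace ℝ (Fin d))) :
    Measure (EuclideanSpace ℝ (Fin d)) :=
  (volume K)⁻¹ • volume.restrict K

/-- `T` is a quadratic optimal transport map from the uniform measure on `K` to `μ`. -/
structure IsOTMap {d : ℕ} (K : Set (EuclideanSpace ℝ (Fin d)))
    (μ : Measure (EuclideanSpace ℝ (Fin d)))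
    (T : EuclideanSpace ℝ (Fin d) → EuclideanSpace ℝ (Fin d)) : Prop where
  measurable : Measurable T
  map_eq : Measure.map T (unif K) = μ
  minimal : ∀ S : EuclideanSpace ℝ (Fin d) → EuclideanSpace ℝ (Fin d), Measurable S →
    Measure.map S (unif K) = μ →
    ∫⁻ x, ‖x - T x‖ₑ ^ 2 ∂(unif K) ≤ ∫⁻ x, ‖x - S x‖ₑ ^ 2 ∂(unif K)

/-- The quadratic Wasserstein distance. -/
noncomputable def W2 {d : ℕ} (μ ν : Measure (EuclideanSpace ℝ (Fin d))) : ℝ≥0∞ :=
  (⨅ π : {π : Measure (EuclideanSpace ℝ (Fin d) × EuclideanSpace ℝ (Fin d)) //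
      π.fst = μ ∧ π.snd = ν}, ∫⁻ z, ‖z.1 - z.2‖ₑ ^ 2 ∂π.1) ^ (1 / 2 : ℝ)

/-- The exponent `α` is admissible in dimension `d`. -/
def Admissible (d : ℕ) (α : ℝ) : Prop :=
  ∀ K : Set (EuclideanSpace ℝ (Fin d)), IsCompact K → Convex ℝ K → (interior K).Nonempty →
  ∀ Y : Set (EuclideanSpace ℝ (Fin d)), IsCompact Y → Y.Nonempty →
  ∃ C : ℝ≥0, ∀ μ ν : Measure (EuclideanSpace ℝ (Fin d)),
    IsProbabilityMeasure μ → IsProbabilityMeasure ν → μ Yᶜ = 0 → ν Yᶜ = 0 →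
    ∀ T S : EuclideanSpace ℝ (Fin d) → EuclideanSpace ℝ (Fin d),
      IsOTMap K μ T → IsOTMap K ν S →
      eLpNorm (fun x => T x - S x) 2 (unif K) ≤ C * W2 μ ν ^ α

section Semi

variable {d : ℕ} {ι : Type}

/-- affine score of the site `i` at `x` -/
noncomputable def sc (y : ι → EuclideanSpace ℝ (Fin d)) (ψ : ι → ℝ) (i : ι)
    (x : EuclideanSpace ℝ (Fin d)) : ℝ := ⟪x, y i⟫ - ψ i

/-- strict Laguerre cell -/
def cell (y : ι → EuclideanSpace ℝ (Fin d)) (ψ : ι → ℝ) (i : ι) :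
    Set (EuclideanSpace ℝ (Fin d)) := {x | ∀ j, j ≠ i → sc y ψ j x < sc y ψ i x}

/-- semidiscrete potential -/
noncomputable def pot (y : ι → EuclideanSpace ℝ (Fin d)) (ψ : ι → ℝ)
    (x : EuclideanSpace ℝ (Fin d)) : ℝ := ⨆ i, sc y ψ i x

/-- semidiscrete dual functional -/
noncomputable def J [Fintype ι] (r : Measure (EuclideanSpace ℝ (Fin d))) (m : ι → ℝ)
    (y : ι → EuclideanSpace ℝ (Fin d)) (ψ : ι → ℝ) : ℝ :=
  ∫ x, pot y ψ x ∂r + ∑ i, m i * ψ i

/-- semidiscrete value -/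
noncomputable def val [Fintype ι] (r : Measure (EuclideanSpace ℝ (Fin d))) (m : ι → ℝ)
    (y : ι → EuclideanSpace ℝ (Fin d)) : ℝ := ⨅ ψ : ι → ℝ, J r m y ψ

/-- the perturbed source measure `(1+q) dx` on `K` -/
noncomputable def pert (K : Set (EuclideanSpace ℝ (Fin d)))
    (q : EuclideanSpace ℝ (Fin d) → ℝ) : Measure (EuclideanSpace ℝ (Fin d)) :=
  (volume.restrict K).withDensity fun x => ENNReal.ofReal (1 + q x)

end Semi

end P074
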