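import Vale.Agent.P074.Defs

open MeasureTheory
open scoped ENNReal NNReal RealInnerProductSpace

namespace P074

section Cube

variable {d : ℕ}

/-- the cube -/
def cube (d : ℕ) : Set (EuclideanSpace ℝ (Fin d)) := {x | ∀ i, -1 ≤ x i ∧ x i ≤ 1}

/-- general box -/
def box (a b : Fin d → ℝ) : Set (EuclideanSpace ℝ (Fin d)) := {x | ∀ i, a i ≤ x i ∧ x i ≤ b i}

lemma box_eq (a b : Fin d → ℝ) :
    box a b = (WithLp.ofLp (p := 2) : EuclideanSpace ℝ (Fin d) → (Fin d → ℝ)) ⁻¹' (Set.Icc a b) := by
  ext x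
  simp only [box, Set.mem_ofPred_eq, Set.mem_preimage, Set.mem_Icc, Pi.le_def]
  exact ⟨fun h => ⟨fun i => (h i).1, fun i => (h i).2⟩, fun h i => ⟨h.1 i, h.2 i⟩⟩

lemma volume_box (a b : Fin d → ℝ) :
    volume (box a b) = ∏ i, ENNReal.ofReal (b i - a i) := by
  rw [box_eq, (PiLp.volume_preserving_ofLp (Fin d)).measure_preimage
    measurableSet_Icc.nullMeasurableSet, Real.volume_Icc_pi]

lemma cube_eq : cube d = box (fun _ => -1) (fun _ => 1) := rfl

lemma volume_cube : volume (cube d) = ENNReal.ofReal 2 ^ d := by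
  rw [cube_eq, volume_box]
  norm_num

lemma measurable_coord (i : Fin d) : Measurable fun x : EuclideanSpace ℝ (Fin d) => x i :=
  (measurable_pi_apply i).comp (WithLp.measurable_ofLp 2 _)

lemma isCompact_box (a b : Fin d → ℝ) : IsCompact (box a b) := by
  have h : box a b = (EuclideanSpace.equiv (Fin d) ℝ).symm '' (Set.Icc a b) := by
    rw [box_eq]
    ext x
    simp only [Set.mem_preimage, Set.mem_image]
    constructor
    · intro h
      exact ⟨_, h, rfl⟩
    · rintro ⟨y, hy, rfl⟩
      exact hy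
  rw [h]
  exact isCompact_Icc.image (EuclideanSpace.equiv (Fin d) ℝ).symm.continuous

lemma convex_box (a b : Fin d → ℝ) : Convex ℝ (box a b) := by
  intro x hx y hy s t hs ht hst i
  simp only [box, Set.mem_ofPred_eq] at hx hy
  have h1 := hx i
  have h2 := hy i
  simp only [PiLp.add_apply, PiLp.smul_apply, smul_eq_mul]
  constructor
  · calc a i = s * a i + t * a i := by rw [← add_mul, hst, one_mul]
      _ ≤ s * x i + t * y i := by gcongr <;> linarith
  · calc s * x i + t * y i ≤ s * b i + t * b i := by gcongr <;> linarith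
      _ = b i := by rw [← add_mul, hst, one_mul]

lemma interior_cube : (interior (cube d)).Nonempty := by
  refine ⟨0, ?_⟩
  rw [mem_interior_iff_mem_nhds]
  have hopen : IsOpen {x : EuclideanSpace ℝ (Fin d) | ∀ i, -1 < x i ∧ x i < 1} := by
    simp only [Set.ofPred_forall]
    refine isOpen_iInter_of_finite fun i => ?_
    have hc : Continuous fun x : EuclideanSpace ℝ (Fin d) => x i := by fun_prop
    exact (isOpen_lt continuous_const hc).inter (isOpen_lt hc continuous_const)
  refine Filter.mem_of_superset (hopen.mem_nhds ?_) ?_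
  · intro i; simp
  · intro x hx i
    exact ⟨(hx i).1.le, (hx i).2.le⟩

end Cube

section HalfSpace

variable {d : ℕ} (i0 i1 : Fin d)

/-- the reflection `(x₀,x₁) ↦ (2c - x₀, -x₁)` -/
noncomputable def refl (c : ℝ) (x : EuclideanSpace ℝ (Fin d)) : EuclideanSpace ℝ (Fin d) :=
  WithLp.toLp 2 fun i => (if i = i0 then fun t => 2 * c - t else if i = i1 then fun t => -t
    else fun t : ℝ => t) (x i)

lemma refl_preserving (c : ℝ) : MeasurePreserving (refl i0 i1 c) := by
  have h1 : MeasurePreserving (fun (a : Fin d → ℝ) i => (if i = i0 then fun t => 2 * c - t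
      else if i = i1 then fun t => -t else fun t : ℝ => t) (a i)) := by
    refine volume_preserving_pi fun i => ?_
    split_ifs
    · exact Measure.measurePreserving_sub_left volume (2 * c)
    · exact Measure.measurePreserving_neg volume
    · exact MeasurePreserving.id volume
  exact (PiLp.volume_preserving_toLp (Fin d)).comp
    (h1.comp (PiLp.volume_preserving_ofLp (Fin d)))

end HalfSpace


lemma null_level {d : ℕ} (f : EuclideanSpace ℝ (Fin d) →ₗ[ℝ] ℝ) (hf : f ≠ 0) (c : ℝ) :
    volume {x | f x = c} = 0 := by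
  by_cases h : ∃ x, f x = c
  · obtain ⟨x₀, hx₀⟩ := h
    have hk : volume ((LinearMap.ker f : Submodule ℝ (EuclideanSpace ℝ (Fin d))) :
        Set (EuclideanSpace ℝ (Fin d))) = 0 := by
      refine Measure.addHaar_submodule volume _ ?_
      intro ht
      exact hf (LinearMap.ker_eq_top.mp ht)
    have : {x | f x = c} = (fun x => -x₀ + x) ⁻¹'
        ((LinearMap.ker f : Submodule ℝ (EuclideanSpace ℝ (Fin d))) :
        Set (EuclideanSpace ℝ (Fin d))) := by
      ext x
      simp only [Set.mem_ofPred_eq, Set.mem_preimage, SetLike.mem_coe, LinearMap.mem_ker, map_add,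
        map_neg, hx₀]
      constructor
      · intro h; rw [h]; ring
      · intro h; linarith
    rw [this, measure_preimage_add, hk]
  · have : {x | f x = c} = ∅ := by
      ext x; simp only [Set.mem_ofPred_eq, Set.mem_empty_iff_false, iff_false]
      exact fun hx => h ⟨x, hx⟩
    rw [this]; simp

section HalfSpace2

variable {d : ℕ} (i0 i1 : Fin d)

/-- the linear functional `x₀ - s x₁` -/
noncomputable def lf (s : ℝ) : EuclideanSpace ℝ (Fin d) →ₗ[ℝ] ℝ where
  toFun x := x i0 - s * x i1
  map_add' x y := by simp only [PiLp.add_apply]; ring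
  map_smul' a x := by simp only [PiLp.smul_apply, smul_eq_mul, RingHom.id_apply]; ring

lemma lf_ne (h : i0 ≠ i1) (s : ℝ) : lf i0 i1 s ≠ 0 := by
  intro h0
  have := congrArg (fun f : EuclideanSpace ℝ (Fin d) →ₗ[ℝ] ℝ => f (EuclideanSpace.single i0 1)) h0
  simp [lf, h.symm] at this

lemma null_line (h : i0 ≠ i1) (c s : ℝ) :
    volume {x : EuclideanSpace ℝ (Fin d) | x i0 = c + s * x i1} = 0 := by
  have := null_level (lf i0 i1 s) (lf_ne i0 i1 h s) c
  have e : {x : EuclideanSpace ℝ (Fin d) | x i0 = c + s * x i1} = {x | lf i0 i1 s x = c} := by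
    ext x
    simp only [Set.mem_ofPred_eq, lf, LinearMap.coe_mk, AddHom.coe_mk]
    constructor <;> intro h <;> linarith
  rw [e, this]

lemma meas_lt (c s : ℝ) :
    MeasurableSet {x : EuclideanSpace ℝ (Fin d) | x i0 < c + s * x i1} :=
  measurableSet_lt (measurable_coord i0) (((measurable_coord i1).const_mul s).const_add c)

lemma meas_cube : MeasurableSet (cube d) := by
  rw [cube_eq]; exact (isCompact_box _ _).measurableSet

lemma half (h01 : i0 ≠ i1) (c s : ℝ) (hcs : |c| + |s| ≤ 1) :
    volume (cube d ∩ {x | x i0 < c + s * x i1}) = volume (cube d ∩ {x | x i0 < c}) := by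
  set A := cube d ∩ {x | x i0 < c + s * x i1} with hA
  set A0 := cube d ∩ {x | x i0 < c} with hA0
  have mA : MeasurableSet A := meas_cube.inter (meas_lt i0 i1 c s)
  have mA0 : MeasurableSet A0 :=
    meas_cube.inter (measurableSet_lt (measurable_coord i0) measurable_const)
  set P : Set (EuclideanSpace ℝ (Fin d)) := cube d ∩ {x | c < x i0 ∧ x i0 < c + s * x i1} with hP
  set Q : Set (EuclideanSpace ℝ (Fin d)) := cube d ∩ {x | x i0 < c ∧ c + s * x i1 < x i0} with hQ
  have mP : MeasurableSet P := meas_cube.inter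
    ((measurableSet_lt measurable_const (measurable_coord i0)).inter (meas_lt i0 i1 c s))
  have hPQ : volume Q = volume P := by
    have : refl i0 i1 c ⁻¹' P = Q := by
      ext x
      have e0 : refl i0 i1 c x i0 = 2 * c - x i0 := by simp [refl]
      have e1 : refl i0 i1 c x i1 = - x i1 := by simp [refl, h01.symm]
      have e2 : ∀ j, j ≠ i0 → j ≠ i1 → refl i0 i1 c x j = x j := by
        intro j h0 h1; simp [refl, h0, h1]
      have key : (|x i1| ≤ 1) → (x i0 < c ∧ c + s * x i1 < x i0) →
          ((-1 ≤ x i0 ∧ x i0 ≤ 1) ∧ (-1 ≤ 2 * c - x i0 ∧ 2 * c - x i0 ≤ 1)) := by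
        intro h1 h2
        have h3 : |s * x i1| ≤ |s| := by
          rw [abs_mul]; nlinarith [abs_nonneg s, abs_nonneg (x i1)]
        have h4 := abs_le.mp h3
        have h5 := abs_le.mp (le_refl |c|)
        refine ⟨⟨?_, ?_⟩, ⟨?_, ?_⟩⟩ <;> linarith [abs_nonneg s, abs_nonneg c]
      simp only [hP, hQ, cube, Set.mem_preimage, Set.mem_inter_iff, Set.mem_ofPred_eq, e0, e1]
      constructor
      · rintro ⟨hc, h1, h2⟩
        have g : x i0 < c ∧ c + s * x i1 < x i0 := ⟨by linarith, by linarith⟩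
        have hb1 := hc i1
        rw [e1] at hb1
        have g1 : |x i1| ≤ 1 := abs_le.mpr ⟨by linarith, by linarith⟩
        refine ⟨fun j => ?_, g⟩
        by_cases j0 : j = i0
        · subst j0; exact (key g1 g).1
        · by_cases j1 : j = i1
          · subst j1; exact ⟨by linarith, by linarith⟩
          · have := hc j; rwa [e2 j j0 j1] at this
      · rintro ⟨hc, g⟩
        have g1 : |x i1| ≤ 1 := abs_le.mpr (hc i1)
        refine ⟨fun j => ?_, by linarith [g.1], by linarith [g.2]⟩
        by_cases j0 : j = i0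
        · subst j0; rw [e0]; exact (key g1 g).2
        · by_cases j1 : j = i1
          · subst j1; rw [e1]; have := hc j; exact ⟨by linarith, by linarith⟩
          · rw [e2 j j0 j1]; exact hc j
    rw [← this, (refl_preserving i0 i1 c).measure_preimage mP.nullMeasurableSet]
  have h1 : volume (A \ A0) = volume P := by
    refine measure_congr ?_
    have hn := null_line i0 i1 h01 c 0
    have : ∀ᵐ x : EuclideanSpace ℝ (Fin d), ¬ (x i0 = c + 0 * x i1) := by
      rw [ae_iff]; simpa using hn
    filter_upwards [this] with x hx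
    rw [zero_mul, add_zero] at hx
    apply propext
    change x ∈ A \ A0 ↔ x ∈ P
    simp only [hA, hA0, hP, Set.mem_sdiff, Set.mem_inter_iff, Set.mem_ofPred_eq, not_and, not_lt]
    constructor
    · rintro ⟨⟨h1, h2⟩, h3⟩
      exact ⟨h1, lt_of_le_of_ne (h3 h1) (Ne.symm hx), h2⟩
    · rintro ⟨h1, h2, h3⟩
      exact ⟨⟨h1, h3⟩, fun _ => h2.le⟩
  have h2 : volume (A0 \ A) = volume Q := by
    refine measure_congr ?_
    have hn := null_line i0 i1 h01 c s
    have : ∀ᵐ x : EuclideanSpace ℝ (Fin d), ¬ (x i0 = c + s * x i1) := by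
      rw [ae_iff]; simpa using hn
    filter_upwards [this] with x hx
    apply propext
    change x ∈ A0 \ A ↔ x ∈ Q
    simp only [hA, hA0, hQ, Set.mem_sdiff, Set.mem_inter_iff, Set.mem_ofPred_eq, not_and, not_lt]
    constructor
    · rintro ⟨⟨h1, h2⟩, h3⟩
      exact ⟨h1, h2, lt_of_le_of_ne (h3 h1) (Ne.symm hx)⟩
    · rintro ⟨h1, h2, h3⟩
      exact ⟨⟨h1, h2⟩, fun _ => h3.le⟩
  rw [← measure_inter_add_sdiff A mA0, ← measure_inter_add_sdiff A0 mA, h1, h2, hPQ,
    Set.inter_comm A A0]

end HalfSpace2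

theorem unif_isProb {d : ℕ} (K : Set (EuclideanSpace ℝ (Fin d))) (hK : IsCompact K)
    (hint : (interior K).Nonempty) : IsProbabilityMeasure (unif K) := by
  constructor
  have h0 : volume K ≠ 0 := by
    have := isOpen_interior.measure_pos (volume : Measure (EuclideanSpace ℝ (Fin d))) hint
    exact (lt_of_lt_of_le this (measure_mono interior_subset)).ne'
  have h1 : volume K ≠ ∞ := hK.measure_lt_top.ne
  simp only [unif, Measure.smul_apply, Measure.restrict_apply MeasurableSet.univ, Set.univ_inter,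
    smul_eq_mul]
  exact ENNReal.inv_mul_cancel h0 h1

theorem unif_ae_mem {d : ℕ} (K : Set (EuclideanSpace ℝ (Fin d))) (hK : MeasurableSet K) :
    ∀ᵐ x ∂(unif K), x ∈ K := by
  unfold unif
  exact Measure.ae_smul_measure (ae_restrict_mem hK) _

/-- Optimality from a pair of potentials (weak duality). -/
theorem isOTMap_of_potential {d : ℕ} (K : Set (EuclideanSpace ℝ (Fin d))) (hK : IsCompact K)
    (hint : (interior K).Nonempty) (μ : Measure (EuclideanSpace ℝ (Fin d)))
    (Y : Set (EuclideanSpace ℝ (Fin d))) (hY : Y.Finite) (hμ : μ Yᶜ = 0)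
    (T : EuclideanSpace ℝ (Fin d) → EuclideanSpace ℝ (Fin d)) (hT : Measurable T)
    (hmap : Measure.map T (unif K) = μ) (φ φs : EuclideanSpace ℝ (Fin d) → ℝ)
    (hφ : Continuous φ) (hφs : Measurable φs)
    (h1 : ∀ x ∈ K, ∀ y ∈ Y, ⟪x, y⟫ ≤ φ x + φs y)
    (h2 : ∀ᵐ x ∂(unif K), ⟪x, T x⟫ = φ x + φs (T x)) : IsOTMap K μ T := by
  have := unif_isProb K hK hint
  refine ⟨hT, hmap, fun S hS hSmap => ?_⟩
  have hmem := unif_ae_mem K hK.measurableSet
  -- both maps take values in `Y`
  have hval : ∀ U : EuclideanSpace ℝ (Fin d) → EuclideanSpace ℝ (Fin d), Measurable U →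
      Measure.map U (unif K) = μ → ∀ᵐ x ∂(unif K), U x ∈ Y := by
    intro U hU hUm
    have : (Measure.map U (unif K)) Yᶜ = 0 := by rw [hUm]; exact hμ
    rw [Measure.map_apply hU hY.measurableSet.compl] at this
    exact this
  obtain ⟨M, hM⟩ : ∃ M : ℝ, ∀ y ∈ Y, ‖y‖ ≤ M := by
    obtain ⟨M, hM⟩ := hY.isBounded.exists_norm_le
    exact ⟨M, hM⟩
  obtain ⟨R, hR⟩ := hK.isBounded.exists_norm_le
  set g : EuclideanSpace ℝ (Fin d) → ℝ := fun x => ‖x‖ ^ 2 - 2 * φ x with hg
  set h : EuclideanSpace ℝ (Fin d) → ℝ := fun y => ‖y‖ ^ 2 - 2 * φs y with hh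
  have hcost : ∀ x y : EuclideanSpace ℝ (Fin d), ‖x - y‖ ^ 2 = ‖x‖ ^ 2 + ‖y‖ ^ 2 - 2 * ⟪x, y⟫ := by
    intro x y
    rw [norm_sub_sq_real]; ring
  have hgc : Continuous g := by fun_prop
  have hgint : Integrable g (unif K) := by
    obtain ⟨B, hB⟩ := hK.exists_bound_of_continuousOn hgc.continuousOn
    refine Integrable.of_bound hgc.aestronglyMeasurable B ?_
    filter_upwards [hmem] with x hx using hB x hx
  obtain ⟨B', hB'⟩ : ∃ B' : ℝ, ∀ y ∈ Y, ‖h y‖ ≤ B' := by
    obtain ⟨B', hB'⟩ := (hY.image h).isBounded.exists_norm_le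
    exact ⟨B', fun y hy => hB' _ (Set.mem_image_of_mem _ hy)⟩
  have hhm : Measurable h := by
    refine (measurable_norm.pow_const 2).sub (hφs.const_mul 2)
  have hhint : ∀ U : EuclideanSpace ℝ (Fin d) → EuclideanSpace ℝ (Fin d), Measurable U →
      Measure.map U (unif K) = μ → Integrable (fun x => h (U x)) (unif K) := by
    intro U hU hUm
    refine Integrable.of_bound (hhm.comp hU).aestronglyMeasurable B' ?_
    filter_upwards [hval U hU hUm] with x hx using hB' _ hx
  have hhI : ∀ U : EuclideanSpace ℝ (Fin d) → EuclideanSpace ℝ (Fin d), Measurable U →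
      Measure.map U (unif K) = μ → ∫ x, h (U x) ∂(unif K) = ∫ y, h y ∂μ := by
    intro U hU hUm
    rw [← hUm, integral_map hU.aemeasurable hhm.aestronglyMeasurable]
  have hlin : ∀ U : EuclideanSpace ℝ (Fin d) → EuclideanSpace ℝ (Fin d), Measurable U →
      Measure.map U (unif K) = μ →
      ∫⁻ x, ‖x - U x‖ₑ ^ 2 ∂(unif K) = ENNReal.ofReal (∫ x, ‖x - U x‖ ^ 2 ∂(unif K)) ∧
      Integrable (fun x => ‖x - U x‖ ^ 2) (unif K) := by
    intro U hU hUm
    have hm : Measurable fun x => ‖x - U x‖ ^ 2 :=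
      ((measurable_id.sub hU).norm).pow_const 2
    have hi : Integrable (fun x => ‖x - U x‖ ^ 2) (unif K) := by
      refine Integrable.of_bound hm.aestronglyMeasurable ((R + M) ^ 2) ?_
      filter_upwards [hmem, hval U hU hUm] with x hx hUx
      rw [Real.norm_of_nonneg (by positivity)]
      have := norm_sub_le x (U x)
      have h3 := hR x hx
      have h4 := hM _ hUx
      gcongr
      linarith
    refine ⟨?_, hi⟩
    rw [ofReal_integral_eq_lintegral_ofReal hi (Filter.Eventually.of_forall fun x => by positivity)]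
    refine lintegral_congr fun x => ?_
    rw [← ofReal_norm, ENNReal.ofReal_pow (norm_nonneg _)]
  rw [(hlin T hT hmap).1, (hlin S hS hSmap).1]
  refine ENNReal.ofReal_le_ofReal ?_
  have e1 : ∫ x, ‖x - T x‖ ^ 2 ∂(unif K) = ∫ x, (g x + h (T x)) ∂(unif K) := by
    refine integral_congr_ae ?_
    filter_upwards [h2] with x hx
    rw [hcost, hx]; simp only [hg, hh]; ring
  have e2 : ∫ x, (g x + h (S x)) ∂(unif K) ≤ ∫ x, ‖x - S x‖ ^ 2 ∂(unif K) := by
    refine integral_mono_ae (hgint.add (hhint S hS hSmap)) (hlin S hS hSmap).2 ?_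
    filter_upwards [hmem, hval S hS hSmap] with x hx hSx
    have := h1 x hx (S x) hSx
    rw [hcost]; simp only [hg, hh]; linarith
  rw [e1]
  refine le_trans (le_of_eq ?_) e2
  rw [integral_add hgint (hhint T hT hmap), integral_add hgint (hhint S hS hSmap),
    hhI T hT hmap, hhI S hS hSmap]


section Maps

variable {d : ℕ} (i0 i1 : Fin d)

/-- index of the cell containing `x` -/
noncomputable def lab (dl u : ℝ) (x : EuclideanSpace ℝ (Fin d)) : Fin 4 :=
  if x i0 < -dl + (u / 2) * x i1 then 0
  else if x i0 < 0 + (-(u / 2)) * x i1 then 1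
  else if x i0 < dl + (u / 2) * x i1 then 2 else 3

/-- the four sites -/
noncomputable def site (u : ℝ) (j : Fin 4) : EuclideanSpace ℝ (Fin d) :=
  if j = 0 then EuclideanSpace.single i0 (-2)
  else if j = 1 then EuclideanSpace.single i0 (-1) + EuclideanSpace.single i1 (-(u / 2))
  else if j = 2 then EuclideanSpace.single i0 1 + EuclideanSpace.single i1 (u / 2)
  else EuclideanSpace.single i0 2

/-- the transport map -/
noncomputable def mp (dl u : ℝ) (x : EuclideanSpace ℝ (Fin d)) : EuclideanSpace ℝ (Fin d) :=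
  site i0 i1 u (lab i0 i1 dl u x)

lemma measurable_lab (dl u : ℝ) : Measurable (lab i0 i1 dl u) := by
  unfold lab
  exact Measurable.ite (meas_lt i0 i1 _ _) measurable_const
    (Measurable.ite (meas_lt i0 i1 _ _) measurable_const
      (Measurable.ite (meas_lt i0 i1 _ _) measurable_const measurable_const))

lemma measurable_mp (dl u : ℝ) : Measurable (mp i0 i1 dl u) :=
  (measurable_of_finite (site i0 i1 u)).comp (measurable_lab i0 i1 dl u)

lemma lab_zero {dl u : ℝ} {x : EuclideanSpace ℝ (Fin d)} :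
    lab i0 i1 dl u x = 0 ↔ x i0 < -dl + (u / 2) * x i1 := by
  unfold lab
  split_ifs with h1 h2 h3 <;> simp [h1]

lemma meas_cells (h01 : i0 ≠ i1) {dl u : ℝ} (hu : 0 ≤ u) (hud : u ≤ dl) (hdl : dl ≤ 1 / 2)
    (j : Fin 4) :
    volume (cube d ∩ lab i0 i1 dl u ⁻¹' {j}) = volume (cube d ∩ lab i0 i1 dl 0 ⁻¹' {j}) := by
  -- nested half spaces
  have key : ∀ v : ℝ, 0 ≤ v → v ≤ dl →
      volume (cube d ∩ {x | x i0 < -dl + (v / 2) * x i1})
        = volume (cube d ∩ lab i0 i1 dl v ⁻¹' {0}) ∧
      volume (cube d ∩ {x | x i0 < 0 + (-(v / 2)) * x i1})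
        = volume (cube d ∩ lab i0 i1 dl v ⁻¹' {0}) + volume (cube d ∩ lab i0 i1 dl v ⁻¹' {1}) ∧
      volume (cube d ∩ {x | x i0 < dl + (v / 2) * x i1})
        = volume (cube d ∩ lab i0 i1 dl v ⁻¹' {0}) + volume (cube d ∩ lab i0 i1 dl v ⁻¹' {1})
          + volume (cube d ∩ lab i0 i1 dl v ⁻¹' {2}) ∧
      volume (cube d)
        = volume (cube d ∩ lab i0 i1 dl v ⁻¹' {0}) + volume (cube d ∩ lab i0 i1 dl v ⁻¹' {1})
          + volume (cube d ∩ lab i0 i1 dl v ⁻¹' {2}) + volume (cube d ∩ lab i0 i1 dl v ⁻¹' {3}) := by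
    intro v hv hvd
    set B1 : Set (EuclideanSpace ℝ (Fin d)) := {x | x i0 < -dl + (v / 2) * x i1} with hB1
    set B2 : Set (EuclideanSpace ℝ (Fin d)) := {x | x i0 < 0 + (-(v / 2)) * x i1} with hB2
    set B3 : Set (EuclideanSpace ℝ (Fin d)) := {x | x i0 < dl + (v / 2) * x i1} with hB3
    have m1 : MeasurableSet B1 := meas_lt i0 i1 _ _
    have m2 : MeasurableSet B2 := meas_lt i0 i1 _ _
    have m3 : MeasurableSet B3 := meas_lt i0 i1 _ _
    have n12 : ∀ x ∈ cube d, x ∈ B1 → x ∈ B2 := by
      intro x hx h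
      have hx1 := hx i1
      simp only [hB1, hB2, Set.mem_ofPred_eq] at h ⊢
      nlinarith
    have n23 : ∀ x ∈ cube d, x ∈ B2 → x ∈ B3 := by
      intro x hx h
      have hx1 := hx i1
      simp only [hB3, hB2, Set.mem_ofPred_eq] at h ⊢
      nlinarith
    have c0 : cube d ∩ lab i0 i1 dl v ⁻¹' {0} = cube d ∩ B1 := by
      ext x
      simp only [Set.mem_inter_iff, Set.mem_preimage, Set.mem_singleton_iff, lab_zero, hB1,
        Set.mem_ofPred_eq]
    have c1 : cube d ∩ lab i0 i1 dl v ⁻¹' {1} = (cube d ∩ B2) \ B1 := by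
      ext x
      constructor
      · rintro ⟨hx, h⟩
        simp only [Set.mem_preimage, Set.mem_singleton_iff, lab] at h
        split_ifs at h with h1 h2 h3
        · exact absurd h (by decide)
        · exact ⟨⟨hx, h2⟩, h1⟩
        · exact absurd h (by decide)
        · exact absurd h (by decide)
      · rintro ⟨⟨hx, h2⟩, h1⟩
        refine ⟨hx, ?_⟩
        simp only [hB1, hB2, Set.mem_ofPred_eq] at h1 h2
        simp only [Set.mem_preimage, Set.mem_singleton_iff, lab, h1, h2, if_false, if_true]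
    have c2 : cube d ∩ lab i0 i1 dl v ⁻¹' {2} = (cube d ∩ B3) \ B2 := by
      ext x
      constructor
      · rintro ⟨hx, h⟩
        simp only [Set.mem_preimage, Set.mem_singleton_iff, lab] at h
        split_ifs at h with h1 h2 h3
        · exact absurd h (by decide)
        · exact absurd h (by decide)
        · exact ⟨⟨hx, h3⟩, h2⟩
        · exact absurd h (by decide)
      · rintro ⟨⟨hx, h3⟩, h2⟩
        refine ⟨hx, ?_⟩
        have h1 : ¬ x ∈ B1 := fun h => h2 (n12 x hx h)
        simp only [hB1, hB2, hB3, Set.mem_ofPred_eq] at h1 h2 h3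
        simp only [Set.mem_preimage, Set.mem_singleton_iff, lab, h1, h2, h3, if_false, if_true]
    have c3 : cube d ∩ lab i0 i1 dl v ⁻¹' {3} = cube d \ B3 := by
      ext x
      constructor
      · rintro ⟨hx, h⟩
        simp only [Set.mem_preimage, Set.mem_singleton_iff, lab] at h
        split_ifs at h with h1 h2 h3
        · exact absurd h (by decide)
        · exact absurd h (by decide)
        · exact absurd h (by decide)
        · exact ⟨hx, h3⟩
      · rintro ⟨hx, h3⟩
        refine ⟨hx, ?_⟩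
        have h2 : ¬ x ∈ B2 := fun h => h3 (n23 x hx h)
        have h1 : ¬ x ∈ B1 := fun h => h2 (n12 x hx h)
        simp only [hB1, hB2, hB3, Set.mem_ofPred_eq] at h1 h2 h3
        simp only [Set.mem_preimage, Set.mem_singleton_iff, lab, h1, h2, h3, if_false]
    have e2 : volume (cube d ∩ B2) = volume (cube d ∩ B1) + volume ((cube d ∩ B2) \ B1) := by
      rw [← measure_inter_add_sdiff (cube d ∩ B2) m1]
      congr 2
      ext x; simp only [Set.mem_inter_iff]
      exact ⟨fun h => ⟨h.1.1, h.2⟩, fun h => ⟨⟨h.1, n12 x h.1 h.2⟩, h.2⟩⟩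
    have e3 : volume (cube d ∩ B3) = volume (cube d ∩ B2) + volume ((cube d ∩ B3) \ B2) := by
      rw [← measure_inter_add_sdiff (cube d ∩ B3) m2]
      congr 2
      ext x; simp only [Set.mem_inter_iff]
      exact ⟨fun h => ⟨h.1.1, h.2⟩, fun h => ⟨⟨h.1, n23 x h.1 h.2⟩, h.2⟩⟩
    have e4 : volume (cube d) = volume (cube d ∩ B3) + volume (cube d \ B3) :=
      (measure_inter_add_sdiff (cube d) m3).symm
    rw [c0, c1, c2, c3]
    refine ⟨rfl, e2, ?_, ?_⟩
    · rw [e3, e2]
    · rw [e4, e3, e2]
  obtain ⟨a1, a2, a3, a4⟩ := key u hu hud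
  obtain ⟨b1, b2, b3, b4⟩ := key 0 le_rfl (hu.trans hud)
  have hfin : ∀ s : Set (EuclideanSpace ℝ (Fin d)), volume (cube d ∩ s) ≠ ∞ := fun s =>
    ((measure_mono Set.inter_subset_left).trans_lt (isCompact_box _ _).measure_lt_top).ne
  have hdl0 : 0 ≤ dl := hu.trans hud
  have hu2 : |u / 2| ≤ 1 / 4 := by rw [abs_of_nonneg (by linarith)]; linarith
  have f1 := half i0 i1 h01 (-dl) (u / 2) (by rw [abs_neg, abs_of_nonneg hdl0]; linarith)
  have f2 := half i0 i1 h01 0 (-(u / 2)) (by rw [abs_neg, abs_zero]; linarith)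
  have f3 := half i0 i1 h01 dl (u / 2) (by rw [abs_of_nonneg hdl0]; linarith)
  have g1 := half i0 i1 h01 (-dl) (0 / 2) (by rw [abs_neg, abs_of_nonneg hdl0]; simp; linarith)
  have g2 := half i0 i1 h01 0 (-(0 / 2)) (by simp)
  have g3 := half i0 i1 h01 dl (0 / 2) (by rw [abs_of_nonneg hdl0]; simp; linarith)
  rw [f1] at a1
  rw [f2] at a2
  rw [f3] at a3
  rw [g1] at b1
  rw [g2] at b2
  rw [g3] at b3
  have r0 : volume (cube d ∩ lab i0 i1 dl u ⁻¹' {0}) = volume (cube d ∩ lab i0 i1 dl 0 ⁻¹' {0}) := by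
    rw [← a1, ← b1]
  have r1 : volume (cube d ∩ lab i0 i1 dl u ⁻¹' {1}) = volume (cube d ∩ lab i0 i1 dl 0 ⁻¹' {1}) := by
    rw [a2, r0] at b2
    exact (ENNReal.add_right_inj (hfin _)).mp b2
  have r2 : volume (cube d ∩ lab i0 i1 dl u ⁻¹' {2}) = volume (cube d ∩ lab i0 i1 dl 0 ⁻¹' {2}) := by
    rw [a3, r0, r1] at b3
    exact (ENNReal.add_right_inj (ENNReal.add_ne_top.mpr ⟨hfin _, hfin _⟩)).mp b3
  have r3 : volume (cube d ∩ lab i0 i1 dl u ⁻¹' {3}) = volume (cube d ∩ lab i0 i1 dl 0 ⁻¹' {3}) := by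
    rw [a4, r0, r1, r2] at b4
    exact (ENNReal.add_right_inj (ENNReal.add_ne_top.mpr
      ⟨ENNReal.add_ne_top.mpr ⟨hfin _, hfin _⟩, hfin _⟩)).mp b4
  fin_cases j
  · exact r0
  · exact r1
  · exact r2
  · exact r3

lemma unif_apply (s : Set (EuclideanSpace ℝ (Fin d))) (hs : MeasurableSet s) :
    unif (cube d) s = (volume (cube d))⁻¹ * volume (cube d ∩ s) := by
  unfold unif
  rw [Measure.smul_apply, Measure.restrict_apply hs, smul_eq_mul, Set.inter_comm]

lemma law_eq (h01 : i0 ≠ i1) {dl u : ℝ} (hu : 0 ≤ u) (hud : u ≤ dl) (hdl : dl ≤ 1 / 2) :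
    Measure.map (lab i0 i1 dl u) (unif (cube d)) = Measure.map (lab i0 i1 dl 0) (unif (cube d)) := by
  refine Measure.ext_of_singleton fun j => ?_
  rw [Measure.map_apply (measurable_lab i0 i1 dl u) (measurableSet_singleton j),
    Measure.map_apply (measurable_lab i0 i1 dl 0) (measurableSet_singleton j),
    unif_apply _ (measurable_lab i0 i1 dl u (measurableSet_singleton j)),
    unif_apply _ (measurable_lab i0 i1 dl 0 (measurableSet_singleton j)),
    meas_cells i0 i1 h01 hu hud hdl j]


/-- the dual potential on the source side -/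
noncomputable def phi (dl u : ℝ) (x : EuclideanSpace ℝ (Fin d)) : ℝ :=
  max (max (-2 * x i0 - dl) (-x i0 - (u / 2) * x i1)) (max (x i0 + (u / 2) * x i1) (2 * x i0 - dl))

/-- the dual potential on the target side -/
noncomputable def phis (dl : ℝ) (y : EuclideanSpace ℝ (Fin d)) : ℝ := dl * (|y i0| - 1)

lemma inner_site (h01 : i0 ≠ i1) (u : ℝ) (x : EuclideanSpace ℝ (Fin d)) :
    ⟪x, site i0 i1 u 0⟫ = -2 * x i0 ∧ ⟪x, site i0 i1 u 1⟫ = -x i0 - (u / 2) * x i1 ∧
    ⟪x, site i0 i1 u 2⟫ = x i0 + (u / 2) * x i1 ∧ ⟪x, site i0 i1 u 3⟫ = 2 * x i0 := by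
  have hs : ∀ (i : Fin d) (a : ℝ), ⟪x, EuclideanSpace.single i a⟫ = a * x i := by
    intro i a
    rw [EuclideanSpace.inner_single_right]; simp
  refine ⟨?_, ?_, ?_, ?_⟩
  · simp only [site, if_true, hs]
  · simp only [site, if_true, show ((1 : Fin 4) = 0) = False by decide, if_false, inner_add_right,
      hs]; ring
  · simp only [site, if_true, show ((2 : Fin 4) = 0) = False by decide,
      show ((2 : Fin 4) = 1) = False by decide, if_false, inner_add_right, hs]; ring
  · simp only [site, show ((3 : Fin 4) = 0) = False by decide,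
      show ((3 : Fin 4) = 1) = False by decide, show ((3 : Fin 4) = 2) = False by decide,
      if_false, hs]

lemma phis_site (h01 : i0 ≠ i1) (dl u : ℝ) :
    phis i0 dl (site i0 i1 u 0) = dl ∧ phis i0 dl (site i0 i1 u 1) = 0 ∧
    phis i0 dl (site i0 i1 u 2) = 0 ∧ phis i0 dl (site i0 i1 u 3) = dl := by
  refine ⟨?_, ?_, ?_, ?_⟩
  · simp [phis, site]; norm_num
  · simp [phis, site, h01]
  · simp [phis, site, h01, show ((2 : Fin 4) = 1) = False by decide]
  · simp [phis, site, show ((3 : Fin 4) = 1) = False by decide,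
      show ((3 : Fin 4) = 2) = False by decide]; norm_num

lemma mp_opt (h01 : i0 ≠ i1) {dl u : ℝ} (hu : 0 ≤ u) (hud : u ≤ dl) :
    IsOTMap (cube d) (Measure.map (mp i0 i1 dl u) (unif (cube d))) (mp i0 i1 dl u) := by
  refine isOTMap_of_potential (cube d) (isCompact_box _ _) interior_cube _
    (Set.range (site i0 i1 u)) (Set.finite_range _) ?_ _ (measurable_mp i0 i1 dl u) rfl
    (phi i0 i1 dl u) (phis i0 dl) ?_ ?_ ?_ ?_
  · rw [Measure.map_apply (measurable_mp i0 i1 dl u) (Set.finite_range _).measurableSet.compl]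
    have : mp i0 i1 dl u ⁻¹' (Set.range (site i0 i1 u))ᶜ = ∅ := by
      ext x
      simp only [Set.mem_preimage, Set.mem_compl_iff, Set.mem_empty_iff_false, iff_false, not_not]
      exact ⟨_, rfl⟩
    rw [this, measure_empty]
  · unfold phi; fun_prop
  · exact (((measurable_coord i0).abs).sub_const 1).const_mul dl
  · rintro x hx _ ⟨j, rfl⟩
    obtain ⟨a0, a1, a2, a3⟩ := inner_site i0 i1 h01 u x
    obtain ⟨b0, b1, b2, b3⟩ := phis_site i0 i1 h01 dl u
    fin_cases j
    · change ⟪x, site i0 i1 u 0⟫ ≤ phi i0 i1 dl u x + phis i0 dl (site i0 i1 u 0)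
      rw [a0, b0]
      have : -2 * x i0 - dl ≤ phi i0 i1 dl u x :=
        (le_max_left _ _).trans (le_max_left _ _)
      linarith
    · change ⟪x, site i0 i1 u 1⟫ ≤ phi i0 i1 dl u x + phis i0 dl (site i0 i1 u 1)
      rw [a1, b1]
      have : -x i0 - (u / 2) * x i1 ≤ phi i0 i1 dl u x :=
        (le_max_right _ _).trans (le_max_left _ _)
      linarith
    · change ⟪x, site i0 i1 u 2⟫ ≤ phi i0 i1 dl u x + phis i0 dl (site i0 i1 u 2)
      rw [a2, b2]
      have : x i0 + (u / 2) * x i1 ≤ phi i0 i1 dl u x :=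
        (le_max_left _ _).trans (le_max_right _ _)
      linarith
    · change ⟪x, site i0 i1 u 3⟫ ≤ phi i0 i1 dl u x + phis i0 dl (site i0 i1 u 3)
      rw [a3, b3]
      have : 2 * x i0 - dl ≤ phi i0 i1 dl u x :=
        (le_max_right _ _).trans (le_max_right _ _)
      linarith
  · filter_upwards [unif_ae_mem (cube d) meas_cube] with x hx
    obtain ⟨a0, a1, a2, a3⟩ := inner_site i0 i1 h01 u x
    obtain ⟨b0, b1, b2, b3⟩ := phis_site i0 i1 h01 dl u
    have hx1 := hx i1
    have hux : u * x i1 ≤ dl := by nlinarith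
    have hux' : -(u * x i1) ≤ dl := by nlinarith
    unfold mp lab
    split_ifs with h1 h2 h3
    · rw [a0, b0]
      have : phi i0 i1 dl u x = -2 * x i0 - dl := by
        unfold phi
        rw [max_eq_left (by linarith : -x i0 - (u / 2) * x i1 ≤ -2 * x i0 - dl)]
        refine max_eq_left (max_le ?_ ?_) <;> linarith
      linarith
    · rw [a1, b1]
      have : phi i0 i1 dl u x = -x i0 - (u / 2) * x i1 := by
        unfold phi
        rw [max_eq_right (by linarith : -2 * x i0 - dl ≤ -x i0 - (u / 2) * x i1)]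
        refine max_eq_left (max_le ?_ ?_) <;> linarith
      linarith
    · rw [a2, b2]
      have : phi i0 i1 dl u x = x i0 + (u / 2) * x i1 := by
        unfold phi
        rw [max_eq_left (by linarith : 2 * x i0 - dl ≤ x i0 + (u / 2) * x i1)]
        refine max_eq_right (max_le ?_ ?_) <;> linarith
      linarith
    · rw [a3, b3]
      have : phi i0 i1 dl u x = 2 * x i0 - dl := by
        unfold phi
        rw [max_eq_right (by linarith : x i0 + (u / 2) * x i1 ≤ 2 * x i0 - dl)]
        refine max_eq_right (max_le ?_ ?_) <;> linarith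
      linarith


/-- volume of a box inside the cube, with prescribed sides in two coordinates, normalised -/
lemma unif_box (a b : Fin d → ℝ) (hsub : box a b ⊆ cube d) :
    unif (cube d) (box a b) = ∏ i, (ENNReal.ofReal (b i - a i) / ENNReal.ofReal 2) := by
  rw [unif_apply _ (isCompact_box a b).measurableSet, Set.inter_eq_right.mpr hsub, volume_box,
    volume_cube]
  simp only [div_eq_mul_inv, Finset.prod_mul_distrib, Finset.prod_const, Finset.card_univ,
    Fintype.card_fin]
  rw [ENNReal.inv_pow, mul_comm]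

lemma unif_box_prod (f : Fin d → ℝ) (a b : Fin d → ℝ) (hsub : box a b ⊆ cube d)
    (hf : ∀ i, b i - a i = 2 * f i) : unif (cube d) (box a b) = ∏ i, ENNReal.ofReal (f i) := by
  rw [unif_box a b hsub]
  refine Finset.prod_congr rfl fun i _ => ?_
  rw [hf i, ENNReal.ofReal_mul (by norm_num), ENNReal.div_eq_inv_mul, ← mul_assoc,
    ENNReal.inv_mul_cancel (by norm_num) (by norm_num), one_mul]

lemma cost_le (h01 : i0 ≠ i1) {dl : ℝ} (hdl0 : 0 ≤ dl) (hdl : dl ≤ 1 / 2) :
    W2 (Measure.map (mp i0 i1 dl 0) (unif (cube d))) (Measure.map (mp i0 i1 dl dl) (unif (cube d)))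
      ≤ (ENNReal.ofReal (dl ^ 3)) ^ (1 / 2 : ℝ) := by
  unfold W2
  refine ENNReal.rpow_le_rpow ?_ (by norm_num)
  set lw := Measure.map (lab i0 i1 dl 0) (unif (cube d)) with hlw
  have hlw' : Measure.map (lab i0 i1 dl dl) (unif (cube d)) = lw :=
    law_eq i0 i1 h01 hdl0 le_rfl hdl
  set F : Fin 4 → EuclideanSpace ℝ (Fin d) × EuclideanSpace ℝ (Fin d) :=
    fun j => (site i0 i1 0 j, site i0 i1 dl j) with hF
  have hFm : Measurable F := measurable_of_finite F
  refine (iInf_le _ (⟨Measure.map F lw, ?_, ?_⟩ : {π : Measure (EuclideanSpace ℝ (Fin d) ×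
      EuclideanSpace ℝ (Fin d)) // π.fst = _ ∧ π.snd = _})).trans ?_
  · rw [Measure.fst, Measure.map_map measurable_fst hFm, hlw,
      Measure.map_map (measurable_fst.comp hFm) (measurable_lab i0 i1 dl 0)]
    rfl
  · rw [Measure.snd, Measure.map_map measurable_snd hFm, ← hlw',
      Measure.map_map (measurable_snd.comp hFm) (measurable_lab i0 i1 dl dl)]
    rfl
  · change ∫⁻ z, ‖z.1 - z.2‖ₑ ^ 2 ∂(Measure.map F lw) ≤ _
    rw [lintegral_map (by fun_prop) hFm, hlw, lintegral_map (measurable_of_finite _)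
      (measurable_lab i0 i1 dl 0)]
    -- pointwise bound
    have hpt : ∀ x, ‖(F (lab i0 i1 dl 0 x)).1 - (F (lab i0 i1 dl 0 x)).2‖ₑ ^ 2 ≤
        Set.indicator {x : EuclideanSpace ℝ (Fin d) | -dl ≤ x i0 ∧ x i0 ≤ dl}
          (fun _ => ENNReal.ofReal (dl ^ 2)) x := by
      intro x
      have hn : ∀ a : ℝ, ‖(EuclideanSpace.single i1 a : EuclideanSpace ℝ (Fin d))‖ₑ ^ 2
          = ENNReal.ofReal (a ^ 2) := by
        intro a
        rw [← ofReal_norm, EuclideanSpace.norm_single, ← ENNReal.ofReal_pow (norm_nonneg _),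
          Real.norm_eq_abs, sq_abs]
      have hle : ENNReal.ofReal ((dl / 2) ^ 2) ≤ ENNReal.ofReal (dl ^ 2) :=
        ENNReal.ofReal_le_ofReal (by nlinarith)
      unfold lab
      simp only [hF, zero_div, zero_mul, neg_zero, add_zero]
      split_ifs with h1 h2 h3
      · simp [site]
      · rw [Set.indicator_of_mem (by constructor <;> linarith)]
        simp only [site, if_true, show ((1 : Fin 4) = 0) = False by decide, if_false]
        have : EuclideanSpace.single i0 (-1 : ℝ) + EuclideanSpace.single i1 (-(0 / 2) : ℝ) -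
            (EuclideanSpace.single i0 (-1) + EuclideanSpace.single i1 (-(dl / 2)))
            = EuclideanSpace.single i1 (dl / 2) := by
          ext k; by_cases hk : k = i1
          · subst hk; simp
          · simp [hk]
        rw [this, hn]; exact hle
      · rw [Set.indicator_of_mem (by constructor <;> linarith)]
        simp only [site, if_true, show ((2 : Fin 4) = 0) = False by decide,
          show ((2 : Fin 4) = 1) = False by decide, if_false]
        have : EuclideanSpace.single i0 (1 : ℝ) + EuclideanSpace.single i1 (0 / 2 : ℝ) -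
            (EuclideanSpace.single i0 1 + EuclideanSpace.single i1 (dl / 2))
            = EuclideanSpace.single i1 (-(dl / 2)) := by
          ext k; by_cases hk : k = i1
          · subst hk; simp
          · simp [hk]
        rw [this, hn, neg_sq]; exact hle
      · simp [site, show ((3 : Fin 4) = 1) = False by decide,
          show ((3 : Fin 4) = 2) = False by decide]
    have hms : MeasurableSet {x : EuclideanSpace ℝ (Fin d) | -dl ≤ x i0 ∧ x i0 ≤ dl} :=
      (measurableSet_le measurable_const (measurable_coord i0)).inter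
        (measurableSet_le (measurable_coord i0) measurable_const)
    refine (lintegral_mono hpt).trans ?_
    rw [lintegral_indicator_const hms]
    have hbox : unif (cube d) {x : EuclideanSpace ℝ (Fin d) | -dl ≤ x i0 ∧ x i0 ≤ dl}
        ≤ ENNReal.ofReal dl := by
      have e : unif (cube d) {x : EuclideanSpace ℝ (Fin d) | -dl ≤ x i0 ∧ x i0 ≤ dl}
          = unif (cube d) (box (Function.update (fun _ => -1) i0 (-dl))
            (Function.update (fun _ => 1) i0 dl)) := by
        rw [unif_apply _ hms, unif_apply _ (isCompact_box _ _).measurableSet]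
        congr 2
        ext x
        simp only [Set.mem_inter_iff, Set.mem_ofPred_eq, cube, box]
        constructor
        · rintro ⟨h1, h2⟩
          refine ⟨h1, fun j => ?_⟩
          by_cases hj : j = i0
          · subst hj; simpa using h2
          · simpa [Function.update_of_ne hj] using h1 j
        · rintro ⟨h1, h2⟩
          refine ⟨h1, ?_⟩
          simpa using h2 i0
      rw [e, unif_box_prod (fun j => if j = i0 then dl else 1)]
      · have : ∀ j : Fin d, ENNReal.ofReal (if j = i0 then dl else 1)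
            = if j = i0 then ENNReal.ofReal dl else 1 := by
          intro j; split_ifs <;> simp
        simp only [this, Finset.prod_ite_eq', Finset.mem_univ, if_true, le_refl]
      · intro x hx j
        have := hx j
        by_cases hj : j = i0
        · subst hj; simp only [Function.update_self] at this
          constructor <;> linarith
        · simpa [Function.update_of_ne hj] using this
      · intro j
        by_cases hj : j = i0
        · subst hj; simp; ring
        · simp [hj]; norm_num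
    calc ENNReal.ofReal (dl ^ 2) * unif (cube d) {x | -dl ≤ x i0 ∧ x i0 ≤ dl}
        ≤ ENNReal.ofReal (dl ^ 2) * ENNReal.ofReal dl := by gcongr
      _ = ENNReal.ofReal (dl ^ 3) := by
          rw [← ENNReal.ofReal_mul (by positivity), ← pow_succ]

lemma diff_ge (h01 : i0 ≠ i1) {dl : ℝ} (hdl0 : 0 < dl) (hdl : dl ≤ 1 / 2) :
    (ENNReal.ofReal (dl / 16)) ^ (1 / 2 : ℝ) ≤
      eLpNorm (fun x => mp i0 i1 dl 0 x - mp i0 i1 dl dl x) 2 (unif (cube d)) := by
  rw [eLpNorm_eq_lintegral_rpow_enorm_toReal (by norm_num) (by norm_num)]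
  simp only [ENNReal.toReal_ofNat]
  refine ENNReal.rpow_le_rpow ?_ (by norm_num)
  set Bx := box (Function.update (Function.update (fun _ : Fin d => (-1 : ℝ)) i1 (1 / 2)) i0 (-(dl / 4)))
    (Function.update (fun _ => 1) i0 (-(dl / 8))) with hBx
  have hsub : Bx ⊆ cube d := by
    intro x hx j
    have h := hx j
    by_cases hj : j = i0
    · subst hj; simp only [Function.update_self] at h
      constructor <;> linarith
    · rw [Function.update_of_ne hj, Function.update_of_ne hj] at h
      by_cases hj1 : j = i1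
      · subst hj1; simp only [Function.update_self] at h
        constructor <;> linarith
      · rw [Function.update_of_ne hj1] at h; exact h
  have hvol : unif (cube d) Bx = ENNReal.ofReal (dl / 64) := by
    rw [hBx, unif_box_prod (fun j => (if j = i0 then dl / 16 else 1) * (if j = i1 then 1 / 4 else 1))
      _ _ hsub]
    · have : ∀ j : Fin d, ENNReal.ofReal ((if j = i0 then dl / 16 else 1) *
            (if j = i1 then 1 / 4 else 1))
            = (if j = i0 then ENNReal.ofReal (dl / 16) else 1) *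
              (if j = i1 then ENNReal.ofReal (1 / 4) else 1) := by
        intro j
        rw [ENNReal.ofReal_mul (by split_ifs <;> positivity)]
        congr 1 <;> split_ifs <;> simp
      simp only [this, Finset.prod_mul_distrib, Finset.prod_ite_eq', Finset.mem_univ, if_true]
      rw [← ENNReal.ofReal_mul (by positivity)]; congr 1; ring
    · intro j
      by_cases hj : j = i0
      · subst hj; simp [h01]; ring
      · by_cases hj1 : j = i1
        · subst hj1; simp [hj]; norm_num
        · simp [hj, hj1]; norm_num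
  have hmB : MeasurableSet Bx := (isCompact_box _ _).measurableSet
  calc ENNReal.ofReal (dl / 16) = ENNReal.ofReal 4 * ENNReal.ofReal (dl / 64) := by
        rw [← ENNReal.ofReal_mul (by norm_num)]; congr 1; ring
    _ = ∫⁻ x, Bx.indicator (fun _ => ENNReal.ofReal 4) x ∂(unif (cube d)) := by
        rw [lintegral_indicator_const hmB, hvol]
    _ ≤ _ := by
        refine lintegral_mono fun x => ?_
        by_cases hx : x ∈ Bx
        · rw [Set.indicator_of_mem hx]
          have h0 : -(dl / 4) ≤ x i0 ∧ x i0 ≤ -(dl / 8) := by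
            have := hx i0; simpa using this
          have h1 : 1 / 2 ≤ x i1 ∧ x i1 ≤ 1 := by
            have := hx i1; simpa [Function.update_of_ne h01.symm] using this
          have l0 : lab i0 i1 dl 0 x = 1 := by
            unfold lab
            rw [if_neg (by simp; linarith), if_pos (by simp; linarith)]
          have l1 : lab i0 i1 dl dl x = 2 := by
            unfold lab
            rw [if_neg (by nlinarith), if_neg (by nlinarith), if_pos (by nlinarith)]
          have hcoord : (mp i0 i1 dl 0 x - mp i0 i1 dl dl x) i0 = -2 := by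
            simp [mp, l0, l1, site, show ((2 : Fin 4) = 1) = False by decide, h01]; norm_num
          have hnorm : 2 ≤ ‖mp i0 i1 dl 0 x - mp i0 i1 dl dl x‖ := by
            have := PiLp.norm_apply_le (mp i0 i1 dl 0 x - mp i0 i1 dl dl x) i0
            rw [hcoord] at this
            simpa using this
          rw [← ofReal_norm, ENNReal.ofReal_rpow_of_nonneg (norm_nonneg _) (by norm_num)]
          refine ENNReal.ofReal_le_ofReal ?_
          rw [Real.rpow_two]; nlinarith
        · rw [Set.indicator_of_notMem hx]; exact bot_le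

end Maps

/-- No exponent above `1/3` is admissible. -/
theorem not_admissible (d : ℕ) (hd : 2 ≤ d) (α : ℝ) (hα : 1 / 3 < α) : ¬ Admissible d α := by
  intro hadm
  set i0 : Fin d := ⟨0, by omega⟩ with hi0
  set i1 : Fin d := ⟨1, by omega⟩ with hi1
  have h01 : i0 ≠ i1 := by simp [hi0, hi1]
  -- all the sites lie in a compact set
  set Y : Set (EuclideanSpace ℝ (Fin d)) := Metric.closedBall 0 3 with hY
  obtain ⟨C, hC⟩ := hadm (cube d) (isCompact_box _ _) (convex_box _ _) interior_cube Y
    (isCompact_closedBall _ _) ⟨0, by simp [hY]⟩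
  have hP := unif_isProb (cube d) (isCompact_box _ _) interior_cube
  have hsite : ∀ u : ℝ, 0 ≤ u → u ≤ 1 → ∀ j, site i0 i1 u j ∈ Y := by
    intro u hu hu1 j
    rw [hY, mem_closedBall_zero_iff]
    have h2 : ∀ a : ℝ, ‖(EuclideanSpace.single i1 a : EuclideanSpace ℝ (Fin d))‖ = |a| := by
      intro a; rw [EuclideanSpace.norm_single, Real.norm_eq_abs]
    have h3 : ∀ a : ℝ, ‖(EuclideanSpace.single i0 a : EuclideanSpace ℝ (Fin d))‖ = |a| := by
      intro a; rw [EuclideanSpace.norm_single, Real.norm_eq_abs]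
    unfold site
    split_ifs
    · rw [h3]; norm_num
    · refine (norm_add_le _ _).trans ?_
      rw [h3, h2, abs_neg, abs_neg, abs_one, abs_of_nonneg (by linarith)]; linarith
    · refine (norm_add_le _ _).trans ?_
      rw [h3, h2, abs_one, abs_of_nonneg (by linarith)]; linarith
    · rw [h3]; norm_num
  have hmapY : ∀ dl u : ℝ, 0 ≤ u → u ≤ 1 →
      Measure.map (mp i0 i1 dl u) (unif (cube d)) Yᶜ = 0 := by
    intro dl u hu hu1
    rw [Measure.map_apply (measurable_mp i0 i1 dl u) Metric.isClosed_closedBall.measurableSet.compl]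
    have : mp i0 i1 dl u ⁻¹' Yᶜ = ∅ := by
      ext x
      simp only [Set.mem_preimage, Set.mem_compl_iff, Set.mem_empty_iff_false, iff_false, not_not]
      exact hsite u hu hu1 _
    rw [this, measure_empty]
  have main : ∀ dl : ℝ, 0 < dl → dl ≤ 1 / 2 →
      Real.sqrt (dl / 16) ≤ C * (Real.sqrt (dl ^ 3)) ^ α := by
    intro dl h0 h1
    have p0 : IsProbabilityMeasure (Measure.map (mp i0 i1 dl 0) (unif (cube d))) :=
      Measure.isProbabilityMeasure_map (measurable_mp i0 i1 dl 0).aemeasurable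
    have p1 : IsProbabilityMeasure (Measure.map (mp i0 i1 dl dl) (unif (cube d))) :=
      Measure.isProbabilityMeasure_map (measurable_mp i0 i1 dl dl).aemeasurable
    have h := hC _ _ p0 p1 (hmapY dl 0 le_rfl (by norm_num)) (hmapY dl dl h0.le (by linarith)) _ _
      (mp_opt i0 i1 h01 le_rfl h0.le) (mp_opt i0 i1 h01 h0.le le_rfl)
    have h2 := (diff_ge i0 i1 h01 h0 h1).trans (h.trans (mul_le_mul_right (ENNReal.rpow_le_rpow
      (cost_le i0 i1 h01 h0.le h1) (by linarith : (0 : ℝ) ≤ α)) _))
    rw [ENNReal.ofReal_rpow_of_nonneg (by positivity) (by norm_num),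
      ENNReal.ofReal_rpow_of_nonneg (by positivity) (by norm_num),
      ENNReal.ofReal_rpow_of_nonneg (by positivity) (by linarith),
      ← ENNReal.ofReal_coe_nnreal, ← ENNReal.ofReal_mul (NNReal.coe_nonneg C)] at h2
    have h3 := (ENNReal.ofReal_le_ofReal_iff (by positivity)).mp h2
    rwa [← Real.sqrt_eq_rpow, ← Real.sqrt_eq_rpow] at h3
  set β : ℝ := 3 * α / 2 - 1 / 2 with hβ
  have hβ0 : 0 < β := by rw [hβ]; linarith
  have main2 : ∀ dl : ℝ, 0 < dl → dl ≤ 1 / 2 → 1 ≤ 4 * C * dl ^ β := by
    intro dl h0 h1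
    have h := main dl h0 h1
    have e1 : Real.sqrt (dl / 16) = dl ^ (1 / 2 : ℝ) / 4 := by
      rw [Real.sqrt_div h0.le, Real.sqrt_eq_rpow, show (16 : ℝ) = 4 ^ 2 by norm_num,
        Real.sqrt_sq (by norm_num)]
    have e2 : (Real.sqrt (dl ^ 3)) ^ α = dl ^ (1 / 2 : ℝ) * dl ^ β := by
      rw [Real.sqrt_eq_rpow, ← Real.rpow_natCast dl 3, ← Real.rpow_mul h0.le, ← Real.rpow_mul h0.le,
        ← Real.rpow_add h0]
      congr 1
      rw [hβ]; push_cast; ring
    rw [e1, e2] at h
    have hp : 0 < dl ^ (1 / 2 : ℝ) := Real.rpow_pos_of_pos h0 _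
    have h4 : dl ^ (1 / 2 : ℝ) * 1 ≤ dl ^ (1 / 2 : ℝ) * (4 * C * dl ^ β) := by linarith
    exact le_of_mul_le_mul_left h4 hp
  have ht : Filter.Tendsto (fun x : ℝ => 4 * C * x ^ β) (nhdsWithin 0 (Set.Ioi 0)) (nhds 0) := by
    have h1 : Filter.Tendsto (fun x : ℝ => x ^ β) (nhds 0) (nhds ((0 : ℝ) ^ β)) :=
      (Real.continuous_rpow_const hβ0.le).tendsto 0
    rw [Real.zero_rpow hβ0.ne'] at h1
    have h2 := (h1.const_mul (4 * (C : ℝ))).mono_left
      (nhdsWithin_le_nhds (a := (0 : ℝ)) (s := Set.Ioi 0))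
    simpa using h2
  have ev1 : ∀ᶠ x : ℝ in nhdsWithin 0 (Set.Ioi 0), 4 * C * x ^ β < 1 :=
    ht.eventually (gt_mem_nhds (by norm_num : (0 : ℝ) < 1))
  have ev2 : ∀ᶠ x : ℝ in nhdsWithin 0 (Set.Ioi 0), x ∈ Set.Ioo (0 : ℝ) (1 / 2) :=
    Ioo_mem_nhdsGT (by norm_num)
  obtain ⟨x, hx1, hx2⟩ := (ev1.and ev2).exists
  linarith [main2 x hx2.1 hx2.2.le]

end P074
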