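import Vale.Agent.P074.Defs

open MeasureTheory Set Filter Metric
open scoped ENNReal NNReal RealInnerProductSpace Topology

namespace P074

namespace Mg

variable {d : ℕ}

/-- swap of finitely many balls by translations -/
noncomputable def swap {n : ℕ} (w : Fin n → EuclideanSpace ℝ (Fin d)) (δ : ℝ)
    (σ : Equiv.Perm (Fin n)) (x : EuclideanSpace ℝ (Fin d)) : EuclideanSpace ℝ (Fin d) :=
  x + ∑ i, (closedBall (w i) δ).indicator (fun _ => w (σ i) - w i) x

lemma measurable_swap {n : ℕ} (w : Fin n → EuclideanSpace ℝ (Fin d)) (δ : ℝ)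
    (σ : Equiv.Perm (Fin n)) : Measurable (swap w δ σ) := by
  unfold swap
  refine measurable_id.add (Finset.measurable_sum _ fun i _ => ?_)
  exact measurable_const.indicator isClosed_closedBall.measurableSet

lemma swap_of_mem {n : ℕ} (w : Fin n → EuclideanSpace ℝ (Fin d)) (δ : ℝ)
    (σ : Equiv.Perm (Fin n))
    (hd : Pairwise (Function.onFun Disjoint fun i => closedBall (w i) δ))
    {i : Fin n} {x : EuclideanSpace ℝ (Fin d)} (hx : x ∈ closedBall (w i) δ) :
    swap w δ σ x = x + (w (σ i) - w i) := by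
  unfold swap
  rw [Finset.sum_eq_single i]
  · rw [indicator_of_mem hx]
  · intro j _ hj
    rw [indicator_of_notMem]
    intro hxj
    exact (Set.disjoint_left.mp (hd hj)) hxj hx
  · simp

lemma swap_of_notMem {n : ℕ} (w : Fin n → EuclideanSpace ℝ (Fin d)) (δ : ℝ)
    (σ : Equiv.Perm (Fin n)) {x : EuclideanSpace ℝ (Fin d)}
    (hx : x ∉ ⋃ i, closedBall (w i) δ) :
    swap w δ σ x = x := by
  unfold swap
  rw [Finset.sum_eq_zero, add_zero]
  intro j _
  rw [indicator_of_notMem]
  intro hxj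
  exact hx (mem_iUnion.mpr ⟨j, hxj⟩)

/-- the splitting of an integral over `K` -/
lemma lintegral_split {n : ℕ} (K : Set (EuclideanSpace ℝ (Fin d)))
    (w : Fin n → EuclideanSpace ℝ (Fin d)) (δ : ℝ)
    (hd : Pairwise (Function.onFun Disjoint fun i => closedBall (w i) δ))
    (hK : ∀ i, closedBall (w i) δ ⊆ K) (f : EuclideanSpace ℝ (Fin d) → ℝ≥0∞) :
    ∫⁻ x in K, f x = (∫⁻ x in K \ ⋃ i, closedBall (w i) δ, f x)
      + ∑ i, ∫⁻ x in closedBall (w i) δ, f x := by
  have hm : MeasurableSet (⋃ i, closedBall (w i) δ) :=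
    MeasurableSet.iUnion fun i => isClosed_closedBall.measurableSet
  have h1 : K = (K \ ⋃ i, closedBall (w i) δ) ∪ ⋃ i, closedBall (w i) δ := by
    rw [sdiff_union_self, union_eq_self_of_subset_right (iUnion_subset hK)]
  conv_lhs => rw [h1]
  rw [lintegral_union hm disjoint_sdiff_left,
    lintegral_iUnion (fun i => isClosed_closedBall.measurableSet) hd, tsum_fintype]

lemma lintegral_swap {n : ℕ} (K : Set (EuclideanSpace ℝ (Fin d)))
    (hKm : MeasurableSet K)
    (w : Fin n → EuclideanSpace ℝ (Fin d)) (δ : ℝ)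
    (σ : Equiv.Perm (Fin n))
    (hd : Pairwise (Function.onFun Disjoint fun i => closedBall (w i) δ))
    (hK : ∀ i, closedBall (w i) δ ⊆ K) (f : EuclideanSpace ℝ (Fin d) → ℝ≥0∞) :
    ∫⁻ x in K, f (swap w δ σ x) = ∫⁻ x in K, f x := by
  rw [lintegral_split K w δ hd hK, lintegral_split K w δ hd hK f]
  congr 1
  · refine setLIntegral_congr_fun (hKm.diff (MeasurableSet.iUnion fun i =>
      isClosed_closedBall.measurableSet)) fun x hx => ?_
    rw [swap_of_notMem w δ σ hx.2]
  · rw [← Equiv.sum_comp σ fun i => ∫⁻ x in closedBall (w i) δ, f x]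
    refine Finset.sum_congr rfl fun i _ => ?_
    have h1 : ∫⁻ x in closedBall (w i) δ, f (swap w δ σ x)
        = ∫⁻ x in closedBall (w i) δ, f (x + (w (σ i) - w i)) := by
      refine setLIntegral_congr_fun isClosed_closedBall.measurableSet fun x hx => ?_
      rw [swap_of_mem w δ σ hd hx]
    rw [h1]
    have hp : MeasurePreserving (fun x : EuclideanSpace ℝ (Fin d) => x + (w (σ i) - w i))
        volume volume := measurePreserving_add_right volume _
    have hemb : MeasurableEmbedding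
        (fun x : EuclideanSpace ℝ (Fin d) => x + (w (σ i) - w i)) :=
      (MeasurableEquiv.addRight (w (σ i) - w i)).measurableEmbedding
    have h2 := hp.setLIntegral_comp_preimage_emb hemb f (closedBall (w (σ i)) δ)
    have h3 : (fun x : EuclideanSpace ℝ (Fin d) => x + (w (σ i) - w i)) ⁻¹'
        closedBall (w (σ i)) δ = closedBall (w i) δ := by
      ext x
      simp only [mem_preimage, mem_closedBall, dist_eq_norm]
      rw [show x + (w (σ i) - w i) - w (σ i) = x - w i by abel]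
    rw [h3] at h2
    exact h2

lemma map_swap {n : ℕ} (K : Set (EuclideanSpace ℝ (Fin d)))
    (hKm : MeasurableSet K)
    (w : Fin n → EuclideanSpace ℝ (Fin d)) (δ : ℝ)
    (σ : Equiv.Perm (Fin n))
    (hd : Pairwise (Function.onFun Disjoint fun i => closedBall (w i) δ))
    (hK : ∀ i, closedBall (w i) δ ⊆ K) :
    MeasurePreserving (swap w δ σ) (volume.restrict K) (volume.restrict K) := by
  refine ⟨measurable_swap w δ σ, ?_⟩
  ext s hs
  rw [← lintegral_indicator_one hs, lintegral_map (measurable_one.indicator hs)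
    (measurable_swap w δ σ), lintegral_swap K hKm w δ σ hd hK,
    lintegral_indicator_one hs]

/-- real form of the squared norm integral -/
lemma lintegral_sq {α : Type*} [MeasurableSpace α] (l : Measure α) [IsFiniteMeasure l]
    (F : α → EuclideanSpace ℝ (Fin d)) (hF : Measurable F) (M : ℝ)
    (hM : ∀ᵐ x ∂l, ‖F x‖ ≤ M) :
    Integrable (fun x => ‖F x‖ ^ 2) l ∧
    ∫⁻ x, ‖F x‖ₑ ^ 2 ∂l = ENNReal.ofReal (∫ x, ‖F x‖ ^ 2 ∂l) := by
  have hi : Integrable (fun x => ‖F x‖ ^ 2) l := by
    refine Integrable.of_bound (hF.norm.pow_const 2).aestronglyMeasurable (M ^ 2) ?_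
    filter_upwards [hM] with x hx
    rw [Real.norm_of_nonneg (by positivity)]
    exact pow_le_pow_left₀ (norm_nonneg _) hx 2
  refine ⟨hi, ?_⟩
  rw [ofReal_integral_eq_lintegral_ofReal hi (Eventually.of_forall fun x => by positivity)]
  refine lintegral_congr fun x => ?_
  rw [ENNReal.ofReal_pow (norm_nonneg _), ofReal_norm]

lemma integrable_inner {α : Type*} [MeasurableSpace α] (l : Measure α) [IsFiniteMeasure l]
    (F G : α → EuclideanSpace ℝ (Fin d)) (hF : Measurable F) (hG : Measurable G) (M N : ℝ)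
    (hM : ∀ᵐ x ∂l, ‖F x‖ ≤ M) (hN : ∀ᵐ x ∂l, ‖G x‖ ≤ N) :
    Integrable (fun x => ⟪F x, G x⟫) l := by
  refine Integrable.of_bound (hF.inner hG).aestronglyMeasurable (M * N) ?_
  filter_upwards [hM, hN] with x hx hy
  refine (norm_inner_le_norm _ _).trans ?_
  exact mul_le_mul hx hy (norm_nonneg _) ((norm_nonneg _).trans hx)

lemma integral_expand {α : Type*} [MeasurableSpace α] (l : Measure α) (a b c : α → ℝ)
    (ha : Integrable a l) (hb : Integrable b l) (hc : Integrable c l) :
    ∫ x, (a x - 2 * b x + c x) ∂l = (∫ x, a x ∂l) - 2 * (∫ x, b x ∂l) + ∫ x, c x ∂l := by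
  have h1 : ∫ x, (a x - 2 * b x + c x) ∂l = (∫ x, (a x - 2 * b x) ∂l) + ∫ x, c x ∂l :=
    integral_add (ha.sub (hb.const_mul 2)) hc
  have h2 : ∫ x, (a x - 2 * b x) ∂l = (∫ x, a x ∂l) - ∫ x, 2 * b x ∂l :=
    integral_sub ha (hb.const_mul 2)
  rw [h1, h2, integral_const_mul]

lemma swap_ineq {n : ℕ} (K : Set (EuclideanSpace ℝ (Fin d))) (hKc : IsCompact K)
    (T : EuclideanSpace ℝ (Fin d) → EuclideanSpace ℝ (Fin d)) (hT : Measurable T) (L : ℝ)
    (hb : ∀ᵐ x ∂(volume.restrict K), ‖T x‖ ≤ L)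
    (hmin : ∀ τ : EuclideanSpace ℝ (Fin d) → EuclideanSpace ℝ (Fin d),
      MeasurePreserving τ (volume.restrict K) (volume.restrict K) →
      ∫⁻ x in K, ‖x - T x‖ₑ ^ 2 ≤ ∫⁻ x in K, ‖x - T (τ x)‖ₑ ^ 2)
    (w : Fin n → EuclideanSpace ℝ (Fin d)) (δ : ℝ)
    (σ : Equiv.Perm (Fin n))
    (hd : Pairwise (Function.onFun Disjoint fun i => closedBall (w i) δ))
    (hK : ∀ i, closedBall (w i) δ ⊆ K) :
    0 ≤ ∑ i, ⟪w (σ i) - w i, ∫ y in closedBall (w (σ i)) δ, T y⟫ := by
  have hKm : MeasurableSet K := hKc.isClosed.measurableSet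
  have : IsFiniteMeasure (volume.restrict K) := ⟨by
    rw [Measure.restrict_apply_univ]; exact hKc.measure_lt_top⟩
  obtain ⟨R, hR⟩ := hKc.isBounded.exists_norm_le
  set τ := swap w δ σ with hτdef
  have hτ : MeasurePreserving τ (volume.restrict K) (volume.restrict K) :=
    map_swap K hKm w δ σ hd hK
  have hx : ∀ᵐ x ∂(volume.restrict K), ‖x‖ ≤ R := by
    filter_upwards [ae_restrict_mem hKm] with x hx using hR x hx
  have hb' : ∀ᵐ x ∂(volume.restrict K), ‖T (τ x)‖ ≤ L := hτ.quasiMeasurePreserving.ae hb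
  have hx' : ∀ᵐ x ∂(volume.restrict K), ‖τ x‖ ≤ R := hτ.quasiMeasurePreserving.ae hx
  have hTτ : Measurable fun x => T (τ x) := hT.comp hτ.measurable
  have h1 := hmin τ hτ
  have e1 := lintegral_sq (volume.restrict K) (fun x => x - T x) (measurable_id.sub hT) (R + L)
    (by filter_upwards [hx, hb] with x h1 h2 using (norm_sub_le _ _).trans (add_le_add h1 h2))
  have e2 := lintegral_sq (volume.restrict K) (fun x => x - T (τ x)) (measurable_id.sub hTτ)
    (R + L)
    (by filter_upwards [hx, hb'] with x h1 h2 using (norm_sub_le _ _).trans (add_le_add h1 h2))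
  rw [e1.2, e2.2, ENNReal.ofReal_le_ofReal_iff (integral_nonneg fun x => by positivity)] at h1
  have i1 := integrable_inner (volume.restrict K) (fun x => x) T measurable_id hT R L hx hb
  have i2 := integrable_inner (volume.restrict K) (fun x => x) (fun x => T (τ x))
    measurable_id hTτ R L hx hb'
  have i3 := integrable_inner (volume.restrict K) τ (fun x => T (τ x))
    hτ.measurable hTτ R L hx' hb'
  have j1 := (lintegral_sq (volume.restrict K) T hT L hb).1
  have j2 := (lintegral_sq (volume.restrict K) (fun x => T (τ x)) hTτ L hb').1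
  have j0 := (lintegral_sq (volume.restrict K) (fun x => x) measurable_id R hx).1
  have k1 : ∫ x in K, ‖T (τ x)‖ ^ 2 = ∫ x in K, ‖T x‖ ^ 2 := by
    have := integral_map (μ := volume.restrict K) (φ := τ) hτ.measurable.aemeasurable
      (f := fun x => ‖T x‖ ^ 2) (hT.norm.pow_const 2).aestronglyMeasurable
    rw [hτ.map_eq] at this
    exact this.symm
  have k2 : ∫ x in K, ⟪τ x, T (τ x)⟫ = ∫ x in K, ⟪x, T x⟫ := by
    have := integral_map (μ := volume.restrict K) (φ := τ) hτ.measurable.aemeasurable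
      (f := fun x => ⟪x, T x⟫) (measurable_id.inner hT).aestronglyMeasurable
    rw [hτ.map_eq] at this
    exact this.symm
  have k3 : ∫ x in K, ‖x - T x‖ ^ 2
      = (∫ x in K, ‖x‖ ^ 2) - 2 * (∫ x in K, ⟪x, T x⟫) + ∫ x in K, ‖T x‖ ^ 2 := by
    rw [← integral_expand (volume.restrict K) _ _ _ j0 i1 j1]
    refine integral_congr_ae (Eventually.of_forall fun x => ?_)
    simp only [norm_sub_sq_real]
  have k4 : ∫ x in K, ‖x - T (τ x)‖ ^ 2
      = (∫ x in K, ‖x‖ ^ 2) - 2 * (∫ x in K, ⟪x, T (τ x)⟫) + ∫ x in K, ‖T (τ x)‖ ^ 2 := by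
    rw [← integral_expand (volume.restrict K) _ _ _ j0 i2 j2]
    refine integral_congr_ae (Eventually.of_forall fun x => ?_)
    simp only [norm_sub_sq_real]
  rw [k3, k4, k1] at h1
  have h2 : 0 ≤ ∫ x in K, ⟪τ x - x, T (τ x)⟫ := by
    have : ∫ x in K, ⟪τ x - x, T (τ x)⟫
        = (∫ x in K, ⟪τ x, T (τ x)⟫) - ∫ x in K, ⟪x, T (τ x)⟫ := by
      rw [← integral_sub i3 i2]
      refine integral_congr_ae (Eventually.of_forall fun x => ?_)
      simp only [inner_sub_left]
    rw [this, k2]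
    linarith
  have h3 : ∫ x in K, ⟪τ x - x, T (τ x)⟫
      = ∑ i, ∫ x in K, (closedBall (w i) δ).indicator
          (fun x => ⟪w (σ i) - w i, T (x + (w (σ i) - w i))⟫) x := by
    rw [← integral_finsetSum]
    · refine integral_congr_ae (Eventually.of_forall fun x => ?_)
      simp only
      by_cases hxU : x ∈ ⋃ i, closedBall (w i) δ
      · obtain ⟨i, hi⟩ := mem_iUnion.mp hxU
        rw [Finset.sum_eq_single i]
        · rw [indicator_of_mem hi, hτdef, swap_of_mem w δ σ hd hi, add_sub_cancel_left]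
        · intro j _ hj
          rw [indicator_of_notMem]
          intro hxj
          exact (Set.disjoint_left.mp (hd hj)) hxj hi
        · simp
      · rw [hτdef, swap_of_notMem w δ σ hxU, sub_self, inner_zero_left,
          Finset.sum_eq_zero]
        intro j _
        rw [indicator_of_notMem]
        intro hxj
        exact hxU (mem_iUnion.mpr ⟨j, hxj⟩)
    · intro i _
      have : Integrable ((closedBall (w i) δ).indicator
          (fun x => ⟪w (σ i) - w i, T (τ x)⟫)) (volume.restrict K) := by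
        refine Integrable.indicator ?_ isClosed_closedBall.measurableSet
        exact integrable_inner (volume.restrict K) (fun _ => w (σ i) - w i) (fun x => T (τ x))
          measurable_const hTτ ‖w (σ i) - w i‖ L (Eventually.of_forall fun _ => le_rfl) hb'
      refine this.congr (Eventually.of_forall fun x => ?_)
      by_cases hi : x ∈ closedBall (w i) δ
      · rw [indicator_of_mem hi, indicator_of_mem hi, hτdef, swap_of_mem w δ σ hd hi]
      · rw [indicator_of_notMem hi, indicator_of_notMem hi]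
  rw [h3] at h2
  refine h2.trans_eq (Finset.sum_congr rfl fun i _ => ?_)
  rw [integral_indicator isClosed_closedBall.measurableSet, Measure.restrict_restrict
    isClosed_closedBall.measurableSet, inter_eq_left.mpr (hK i)]
  have hp : MeasurePreserving (fun x : EuclideanSpace ℝ (Fin d) => x + (w (σ i) - w i))
      volume volume := measurePreserving_add_right volume _
  have hemb : MeasurableEmbedding
      (fun x : EuclideanSpace ℝ (Fin d) => x + (w (σ i) - w i)) :=
    (MeasurableEquiv.addRight (w (σ i) - w i)).measurableEmbedding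
  have h4 := hp.setIntegral_preimage_emb hemb (fun y => ⟪w (σ i) - w i, T y⟫)
    (closedBall (w (σ i)) δ)
  have h5 : (fun x : EuclideanSpace ℝ (Fin d) => x + (w (σ i) - w i)) ⁻¹'
      closedBall (w (σ i)) δ = closedBall (w i) δ := by
    ext x
    simp only [mem_preimage, mem_closedBall, dist_eq_norm]
    rw [show x + (w (σ i) - w i) - w (σ i) = x - w i by abel]
  rw [h5] at h4
  rw [h4]
  refine integral_inner ?_ _
  have hbi : ∀ᵐ x ∂(volume.restrict (closedBall (w (σ i)) δ)), ‖T x‖ ≤ L :=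
    ae_mono (Measure.restrict_mono (hK (σ i)) le_rfl) hb
  have : IsFiniteMeasure (volume.restrict (closedBall (w (σ i)) δ)) := ⟨by
    rw [Measure.restrict_apply_univ]; exact (isCompact_closedBall _ _).measure_lt_top⟩
  exact Integrable.of_bound hT.aestronglyMeasurable L hbi

/-- good points -/
def Good (K : Set (EuclideanSpace ℝ (Fin d)))
    (T : EuclideanSpace ℝ (Fin d) → EuclideanSpace ℝ (Fin d)) (L : ℝ)
    (x : EuclideanSpace ℝ (Fin d)) : Prop :=
  x ∈ interior K ∧ ‖T x‖ ≤ L ∧ ∀ (N : ℕ) (w : ℝ → EuclideanSpace ℝ (Fin d)),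
    (∀ᶠ δ in 𝓝[>] (0 : ℝ), x ∈ closedBall (w δ) (N * δ)) →
    Tendsto (fun δ => ⨍ y in closedBall (w δ) δ, (K.indicator T) y) (𝓝[>] (0 : ℝ)) (𝓝 (T x))

lemma ae_good (K : Set (EuclideanSpace ℝ (Fin d))) (hKc : IsCompact K) (hconv : Convex ℝ K)
    (T : EuclideanSpace ℝ (Fin d) → EuclideanSpace ℝ (Fin d)) (hT : Measurable T) (L : ℝ)
    (hb : ∀ᵐ x ∂(volume.restrict K), ‖T x‖ ≤ L) :
    ∀ᵐ x ∂(volume.restrict K), Good K T L x := by
  have hKm : MeasurableSet K := hKc.isClosed.measurableSet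
  have : IsFiniteMeasure (volume.restrict K) := ⟨by
    rw [Measure.restrict_apply_univ]; exact hKc.measure_lt_top⟩
  have hint : Integrable (K.indicator T) volume := by
    rw [integrable_indicator_iff hKm]
    exact Integrable.of_bound hT.aestronglyMeasurable L hb
  have h1 : ∀ᵐ x ∂(volume.restrict K), x ∈ interior K := by
    have h0 : ∀ᵐ x ∂(volume.restrict K), x ∉ frontier K := by
      refine ae_restrict_of_ae ?_
      rw [ae_iff]
      simpa using hconv.addHaar_frontier volume
    filter_upwards [h0, ae_restrict_mem hKm] with x hx hxK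
    by_contra hc
    exact hx ⟨subset_closure hxK, hc⟩
  have h2 : ∀ᵐ x ∂(volume.restrict K), ∀ N : ℕ, ∀ (w : ℝ → EuclideanSpace ℝ (Fin d)),
      (∀ᶠ δ in 𝓝[>] (0 : ℝ), x ∈ closedBall (w δ) (N * δ)) →
      Tendsto (fun δ => ⨍ y in closedBall (w δ) δ, (K.indicator T) y) (𝓝[>] (0 : ℝ))
        (𝓝 (K.indicator T x)) := by
    refine ae_restrict_of_ae (ae_all_iff.mpr fun N => ?_)
    filter_upwards [IsUnifLocDoublingMeasure.ae_tendsto_average (μ := volume)
      hint.locallyIntegrable (N : ℝ)] with x hx w hw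
    exact hx w (fun δ => δ) tendsto_id hw
  filter_upwards [h1, h2, hb, ae_restrict_mem hKm] with x hx1 hx2 hx3 hxK
  refine ⟨hx1, hx3, fun N w hw => ?_⟩
  have := hx2 N w hw
  rwa [indicator_of_mem hxK] at this

/-- cyclical monotonicity at good points -/
lemma cyc {n : ℕ} (K : Set (EuclideanSpace ℝ (Fin d))) (hKc : IsCompact K)
    (T : EuclideanSpace ℝ (Fin d) → EuclideanSpace ℝ (Fin d)) (hT : Measurable T) (L : ℝ)
    (hb : ∀ᵐ x ∂(volume.restrict K), ‖T x‖ ≤ L)
    (hmin : ∀ τ : EuclideanSpace ℝ (Fin d) → EuclideanSpace ℝ (Fin d),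
      MeasurePreserving τ (volume.restrict K) (volume.restrict K) →
      ∫⁻ x in K, ‖x - T x‖ₑ ^ 2 ≤ ∫⁻ x in K, ‖x - T (τ x)‖ₑ ^ 2)
    (u : EuclideanSpace ℝ (Fin d)) (hu : ‖u‖ = 1)
    (p : Fin n → EuclideanSpace ℝ (Fin d)) (hp : ∀ i, Good K T L (p i))
    (σ : Equiv.Perm (Fin n)) :
    0 ≤ ∑ i, ⟪p (σ i) - p i, T (p (σ i))⟫ := by
  have hKm : MeasurableSet K := hKc.isClosed.measurableSet
  set w : Fin n → ℝ → EuclideanSpace ℝ (Fin d) := fun i δ => p i + (3 * (i : ℝ) * δ) • u
    with hw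
  have hlim : ∀ i, Tendsto (w i) (𝓝[>] (0 : ℝ)) (𝓝 (p i)) := by
    intro i
    have : Tendsto (w i) (𝓝 (0 : ℝ)) (𝓝 (p i + (3 * (i : ℝ) * 0) • u)) := by
      refine Continuous.tendsto ?_ 0
      fun_prop
    simp only [mul_zero, zero_smul, add_zero] at this
    exact this.mono_left nhdsWithin_le_nhds
  have hav : ∀ i, Tendsto (fun δ => ⨍ y in closedBall (w i δ) δ, (K.indicator T) y)
      (𝓝[>] (0 : ℝ)) (𝓝 (T (p i))) := by
    intro i
    refine (hp i).2.2 (3 * i) (w i) ?_
    filter_upwards [self_mem_nhdsWithin] with δ hδ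
    have hδ : (0 : ℝ) < δ := hδ
    simp only [hw, mem_closedBall, dist_eq_norm]
    rw [show p i - (p i + (3 * (i : ℝ) * δ) • u) = - ((3 * (i : ℝ) * δ) • u) by abel,
      norm_neg, norm_smul, hu, mul_one, Real.norm_of_nonneg (by positivity)]
    push_cast
    exact le_rfl
  have htend : Tendsto (fun δ => ∑ i, ⟪w (σ i) δ - w i δ,
      ⨍ y in closedBall (w (σ i) δ) δ, (K.indicator T) y⟫) (𝓝[>] (0 : ℝ))
      (𝓝 (∑ i, ⟪p (σ i) - p i, T (p (σ i))⟫)) := by
    refine tendsto_finsetSum _ fun i _ => ?_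
    exact ((hlim (σ i)).sub (hlim i)).inner (hav (σ i))
  refine ge_of_tendsto htend ?_
  have hsub : ∀ᶠ δ in 𝓝[>] (0 : ℝ), ∀ i, closedBall (w i δ) δ ⊆ K := by
    rw [eventually_all]
    intro i
    obtain ⟨ε, hε, hεK⟩ := Metric.mem_nhds_iff.mp (mem_interior_iff_mem_nhds.mp (hp i).1)
    have h1 : ∀ᶠ δ in 𝓝[>] (0 : ℝ), δ < ε / 2 :=
      nhdsWithin_le_nhds (eventually_lt_nhds (by positivity))
    have h2 : ∀ᶠ δ in 𝓝[>] (0 : ℝ), dist (w i δ) (p i) < ε / 2 :=
      (Metric.tendsto_nhds.mp (hlim i)) _ (by positivity)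
    filter_upwards [h1, h2] with δ h1 h2 y hy
    refine hεK ?_
    rw [mem_ball]
    rw [mem_closedBall] at hy
    linarith [dist_triangle y (w i δ) (p i)]
  have hdis : ∀ᶠ δ in 𝓝[>] (0 : ℝ), ∀ i j, i ≠ j → 2 * δ < dist (w i δ) (w j δ) := by
    rw [eventually_all]
    intro i
    rw [eventually_all]
    intro j
    by_cases hij : p i = p j
    · filter_upwards [self_mem_nhdsWithin] with δ hδ hne
      have hδ : (0 : ℝ) < δ := hδ
      simp only [hw, dist_eq_norm, hij]
      rw [show p j + (3 * (i : ℝ) * δ) • u - (p j + (3 * (j : ℝ) * δ) • u)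
        = (3 * δ * ((i : ℝ) - j)) • u by
          rw [add_sub_add_left_eq_sub, ← sub_smul]; congr 1; ring,
        norm_smul, hu, mul_one, norm_mul, Real.norm_of_nonneg (by positivity)]
      have h1 : (1 : ℝ) ≤ ‖((i : ℝ) - j)‖ := by
        rw [Real.norm_eq_abs]
        have : (1 : ℤ) ≤ |((i : ℕ) : ℤ) - ((j : ℕ) : ℤ)| := by
          refine Int.one_le_abs ?_
          intro h
          apply hne
          ext
          omega
        have h2 : ((1 : ℤ) : ℝ) ≤ ((|((i : ℕ) : ℤ) - ((j : ℕ) : ℤ)| : ℤ) : ℝ) := by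
          exact_mod_cast this
        push_cast at h2
        exact h2
      nlinarith
    · have hpos : 0 < dist (p i) (p j) := dist_pos.mpr hij
      have h1 : ∀ᶠ δ in 𝓝[>] (0 : ℝ), dist (p i) (p j) / 2 < dist (w i δ) (w j δ) :=
        ((hlim i).dist (hlim j)).eventually_const_lt (by linarith)
      have h2 : ∀ᶠ δ in 𝓝[>] (0 : ℝ), δ < dist (p i) (p j) / 4 :=
        nhdsWithin_le_nhds (eventually_lt_nhds (by positivity))
      filter_upwards [h1, h2] with δ h1 h2 _
      linarith
  filter_upwards [hsub, hdis, self_mem_nhdsWithin] with δ h1 h2 hδ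
  have hδ : (0 : ℝ) < δ := hδ
  have hpair : Pairwise (Function.onFun Disjoint fun i => closedBall (w i δ) δ) := by
    intro i j hij
    refine Metric.closedBall_disjoint_closedBall ?_
    have := h2 i j hij
    linarith
  have h3 := swap_ineq K hKc T hT L hb hmin (fun i => w i δ) δ σ hpair h1
  have hc : ∀ i, ⨍ y in closedBall (w i δ) δ, (K.indicator T) y
      = (volume.real (closedBall (0 : EuclideanSpace ℝ (Fin d)) δ))⁻¹ •
        ∫ y in closedBall (w i δ) δ, T y := by
    intro i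
    rw [setAverage_eq, Measure.addHaar_real_closedBall_center]
    congr 1
    refine setIntegral_congr_fun isClosed_closedBall.measurableSet fun y hy => ?_
    rw [indicator_of_mem (h1 i hy)]
  have h4 : ∑ i, ⟪w (σ i) δ - w i δ, ⨍ y in closedBall (w (σ i) δ) δ, (K.indicator T) y⟫
      = (volume.real (closedBall (0 : EuclideanSpace ℝ (Fin d)) δ))⁻¹ *
        ∑ i, ⟪w (σ i) δ - w i δ, ∫ y in closedBall (w (σ i) δ) δ, T y⟫ := by
    rw [Finset.mul_sum]
    refine Finset.sum_congr rfl fun i _ => ?_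
    rw [hc, inner_smul_right]
  rw [h4]
  exact mul_nonneg (inv_nonneg.mpr measureReal_nonneg) h3

/-- value of a chain -/
noncomputable def chain (T : EuclideanSpace ℝ (Fin d) → EuclideanSpace ℝ (Fin d))
    (p : ℕ → EuclideanSpace ℝ (Fin d)) (n : ℕ) (z : EuclideanSpace ℝ (Fin d)) : ℝ :=
  ∑ i ∈ Finset.range n, ⟪T (p i), p (i + 1) - p i⟫ + ⟪T (p n), z - p n⟫

/-- Rockafellar's potential -/
theorem rockafellar (T : EuclideanSpace ℝ (Fin d) → EuclideanSpace ℝ (Fin d)) (L : ℝ)
    (hL : 0 ≤ L)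
    (G : Set (EuclideanSpace ℝ (Fin d))) (x0 : EuclideanSpace ℝ (Fin d)) (hx0 : x0 ∈ G)
    (hbd : ∀ x ∈ G, ‖T x‖ ≤ L)
    (hcyc : ∀ (n : ℕ) (p : Fin n → EuclideanSpace ℝ (Fin d)), (∀ i, p i ∈ G) →
      ∀ σ : Equiv.Perm (Fin n), 0 ≤ ∑ i, ⟪p (σ i) - p i, T (p (σ i))⟫) :
    ∃ φ : EuclideanSpace ℝ (Fin d) → ℝ, LipschitzWith L.toNNReal φ ∧
      ∀ x ∈ G, ∀ z, φ x + ⟪T x, z - x⟫ ≤ φ z := by
  set I := {q : (ℕ → EuclideanSpace ℝ (Fin d)) × ℕ // q.1 0 = x0 ∧ ∀ i, q.1 i ∈ G} with hI
  let i0 : I := ⟨(fun _ => x0, 0), rfl, fun _ => hx0⟩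
  have : Nonempty I := ⟨i0⟩
  -- closed chains have non-positive value
  have hclosed : ∀ q : I, chain T q.1.1 q.1.2 x0 ≤ 0 := by
    intro q
    obtain ⟨⟨p, n⟩, h0, hG⟩ := q
    simp only at h0 hG ⊢
    have h1 := hcyc (n + 1) (fun i => p i) (fun i => hG i) (finRotate (n + 1)).symm
    rw [← Equiv.sum_comp (finRotate (n + 1))] at h1
    simp only [Equiv.symm_apply_apply] at h1
    rw [Fin.sum_univ_castSucc] at h1
    rw [finRotate_last] at h1
    have h2 : ∀ i : Fin n, finRotate (n + 1) (Fin.castSucc i) = i.succ := by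
      intro i
      exact finRotate_of_lt i.2
    simp only [h2, Fin.val_succ, Fin.val_castSucc, Fin.val_last, Fin.val_zero] at h1
    rw [Fin.sum_univ_eq_sum_range (fun i => ⟪p i - p (i + 1), T (p i)⟫) n] at h1
    unfold chain
    rw [← h0]
    have h3 : ∑ i ∈ Finset.range n, ⟪p i - p (i + 1), T (p i)⟫
        = - ∑ i ∈ Finset.range n, ⟪T (p i), p (i + 1) - p i⟫ := by
      rw [← Finset.sum_neg_distrib]
      refine Finset.sum_congr rfl fun i _ => ?_
      rw [← neg_sub, inner_neg_left, real_inner_comm]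
    have h4 : ⟪p n - p 0, T (p n)⟫ = - ⟪T (p n), p 0 - p n⟫ := by
      rw [← neg_sub, inner_neg_left, real_inner_comm]
    rw [h3, h4] at h1
    linarith
  have hlip : ∀ q : I, ∀ z z', chain T q.1.1 q.1.2 z ≤ chain T q.1.1 q.1.2 z' + L * ‖z - z'‖ := by
    intro q z z'
    unfold chain
    have h1 : ⟪T (q.1.1 q.1.2), z - q.1.1 q.1.2⟫ = ⟪T (q.1.1 q.1.2), z' - q.1.1 q.1.2⟫
        + ⟪T (q.1.1 q.1.2), z - z'⟫ := by
      rw [← inner_add_right]; congr 1; abel
    have h2 : ⟪T (q.1.1 q.1.2), z - z'⟫ ≤ L * ‖z - z'‖ :=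
      (real_inner_le_norm _ _).trans
        (mul_le_mul_of_nonneg_right (hbd _ (q.2.2 _)) (norm_nonneg _))
    linarith
  have hbdd : ∀ z, BddAbove (range fun q : I => chain T q.1.1 q.1.2 z) := by
    intro z
    refine ⟨L * ‖z - x0‖, ?_⟩
    rintro _ ⟨q, rfl⟩
    have := hlip q z x0
    have := hclosed q
    simp only
    linarith
  refine ⟨fun z => ⨆ q : I, chain T q.1.1 q.1.2 z, ?_, ?_⟩
  · refine LipschitzWith.of_le_add_mul _ fun z z' => ?_
    refine ciSup_le fun q => ?_
    refine (hlip q z z').trans ?_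
    rw [Real.coe_toNNReal L hL, dist_eq_norm]
    exact add_le_add_left (le_ciSup (hbdd z') q) _
  · intro x hx z
    simp only
    have : (⨆ q : I, chain T q.1.1 q.1.2 x) ≤
        (⨆ q : I, chain T q.1.1 q.1.2 z) - ⟪T x, z - x⟫ := by
      refine ciSup_le fun q => ?_
      obtain ⟨⟨p, n⟩, h0, hG⟩ := q
      simp only at h0 hG ⊢
      let q' : I := ⟨(fun i => if i ≤ n then p i else x, n + 1), by simpa using h0, by
        intro i
        simp only
        split_ifs
        · exact hG i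
        · exact hx⟩
      have h1 := le_ciSup (hbdd z) q'
      have h2 : chain T q'.1.1 q'.1.2 z = chain T p n x + ⟪T x, z - x⟫ := by
        simp only [q', chain]
        rw [Finset.sum_range_succ]
        have h3 : ∀ i ∈ Finset.range n,
            ⟪T (if i ≤ n then p i else x),
              (if i + 1 ≤ n then p (i + 1) else x) - (if i ≤ n then p i else x)⟫
            = ⟪T (p i), p (i + 1) - p i⟫ := by
          intro i hi
          rw [Finset.mem_range] at hi
          rw [if_pos (by omega), if_pos (by omega)]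
        rw [Finset.sum_congr rfl h3]
        rw [if_pos le_rfl, if_neg (by omega)]
      change chain T q'.1.1 q'.1.2 z ≤ _ at h1
      rw [h2] at h1
      linarith
    linarith

end Mg

/-- A Monge minimiser from the uniform measure on a convex body is (a.e.) a selection of the
subdifferential of a Lipschitz potential. -/
theorem exists_potential {d : ℕ} (K : Set (EuclideanSpace ℝ (Fin d))) (hK : IsCompact K)
    (hconv : Convex ℝ K) (hint : (interior K).Nonempty) (L : ℝ) (hL : 0 ≤ L)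
    (μ : Measure (EuclideanSpace ℝ (Fin d))) [IsProbabilityMeasure μ]
    (hμ : μ (Metric.closedBall 0 L)ᶜ = 0)
    (T : EuclideanSpace ℝ (Fin d) → EuclideanSpace ℝ (Fin d)) (hT : IsOTMap K μ T) :
    ∃ φ : EuclideanSpace ℝ (Fin d) → ℝ, LipschitzWith L.toNNReal φ ∧
      ∀ᵐ x ∂(volume.restrict K), ∀ z, φ x + ⟪T x, z - x⟫ ≤ φ z := by
  have hKm : MeasurableSet K := hK.isClosed.measurableSet
  have hv0 : volume K ≠ 0 := by
    intro h
    have h1 : volume (interior K) = 0 := measure_mono_null interior_subset h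
    exact (isOpen_interior.measure_pos volume hint).ne' h1
  have hvt : volume K ≠ ∞ := hK.measure_lt_top.ne
  have hc0 : (volume K)⁻¹ ≠ 0 := ENNReal.inv_ne_zero.mpr hvt
  have hct : (volume K)⁻¹ ≠ ∞ := ENNReal.inv_ne_top.mpr hv0
  have hb : ∀ᵐ x ∂(volume.restrict K), ‖T x‖ ≤ L := by
    have h1 : unif K (T ⁻¹' (Metric.closedBall 0 L)ᶜ) = 0 := by
      rw [← Measure.map_apply hT.measurable isClosed_closedBall.measurableSet.compl,
        hT.map_eq, hμ]
    unfold unif at h1
    rw [Measure.smul_apply, smul_eq_mul, mul_eq_zero] at h1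
    have h2 := h1.resolve_left hc0
    rw [ae_iff]
    refine measure_mono_null ?_ h2
    intro x hx
    simpa using hx
  rcases Nat.eq_zero_or_pos d with hd | hd
  · subst hd
    refine ⟨fun _ => 0, (LipschitzWith.const (0 : ℝ)).weaken zero_le, ?_⟩
    refine Eventually.of_forall fun x z => ?_
    rw [Subsingleton.elim (z - x) 0, inner_zero_right, add_zero]
  have hmin : ∀ τ : EuclideanSpace ℝ (Fin d) → EuclideanSpace ℝ (Fin d),
      MeasurePreserving τ (volume.restrict K) (volume.restrict K) →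
      ∫⁻ x in K, ‖x - T x‖ₑ ^ 2 ≤ ∫⁻ x in K, ‖x - T (τ x)‖ₑ ^ 2 := by
    intro τ hτ
    have h1 := hT.minimal (fun x => T (τ x)) (hT.measurable.comp hτ.measurable) (by
      have h2 : Measure.map τ (unif K) = unif K := by
        unfold unif
        rw [Measure.map_smul, hτ.map_eq]
      have h3 := Measure.map_map (μ := unif K) hT.measurable hτ.measurable
      rw [h2, hT.map_eq] at h3
      exact h3.symm)
    unfold unif at h1
    rw [lintegral_smul_measure, lintegral_smul_measure, smul_eq_mul, smul_eq_mul] at h1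
    exact (ENNReal.mul_le_mul_iff_right hc0 hct).mp h1
  let u : EuclideanSpace ℝ (Fin d) := EuclideanSpace.single ⟨0, hd⟩ 1
  have hu : ‖u‖ = 1 := by simp [u]
  have hgood := Mg.ae_good K hK hconv T hT.measurable L hb
  have hne : ∃ x0, Mg.Good K T L x0 := by
    have : (volume.restrict K) ≠ 0 := by
      intro h
      apply hv0
      rw [← Measure.restrict_apply_univ K, h]
      rfl
    have : (ae (volume.restrict K)).NeBot := ae_neBot.mpr this
    exact hgood.exists
  obtain ⟨x0, hx0⟩ := hne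
  obtain ⟨φ, h1, h2⟩ := Mg.rockafellar T L hL {x | Mg.Good K T L x} x0 hx0
    (fun x hx => hx.2.1) (fun n p hp σ => Mg.cyc K hK T hT.measurable L hb hmin u hu p hp σ)
  refine ⟨φ, h1, ?_⟩
  filter_upwards [hgood] with x hx
  exact h2 x hx

end P074
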