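import Vale.Agent.P074.MainB
import Vale.Agent.P074.Monge
import Vale.Agent.P074.Example

open MeasureTheory
open scoped ENNReal NNReal RealInnerProductSpace

namespace P074

/-- The exponent `1/3` is admissible in every dimension. -/
theorem admissible_third (d : ℕ) : Admissible d (1 / 3) := by
  intro K hK hconv hint Y hY hYne
  obtain ⟨L, hL, hYL⟩ := hY.isBounded.subset_closedBall_lt 0 0
  obtain ⟨C, hC⟩ := main_bound K hK hconv hint L hL.le
  have hvoltop : volume K ≠ ∞ := hK.measure_lt_top.ne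
  refine ⟨C, fun μ ν hμ hν hμY hνY T S hT hS => ?_⟩
  have hball : ∀ ρ : Measure (EuclideanSpace ℝ (Fin d)), ρ Yᶜ = 0 →
      ρ (Metric.closedBall 0 L)ᶜ = 0 := fun ρ h =>
    measure_mono_null (Set.compl_subset_compl.mpr hYL) h
  obtain ⟨φ₀, hφ₀, hpT⟩ := exists_potential K hK hconv hint L hL.le μ (hball μ hμY) T hT
  obtain ⟨φ₁, hφ₁, hpS⟩ := exists_potential K hK hconv hint L hL.le ν (hball ν hνY) S hS
  have hae : ∀ (ρ : Measure (EuclideanSpace ℝ (Fin d)))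
      (U : EuclideanSpace ℝ (Fin d) → EuclideanSpace ℝ (Fin d)), IsOTMap K ρ U → ρ Yᶜ = 0 →
      ∀ᵐ x ∂(volume.restrict K), ‖U x‖ ≤ L := by
    intro ρ U hU hρ
    have h1 : unif K (U ⁻¹' (Metric.closedBall 0 L)ᶜ) = 0 := by
      rw [← Measure.map_apply hU.measurable Metric.isClosed_closedBall.measurableSet.compl,
        hU.map_eq]
      exact hball ρ hρ
    have h2 : volume.restrict K (U ⁻¹' (Metric.closedBall 0 L)ᶜ) = 0 := by
      unfold unif at h1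
      rw [Measure.smul_apply, smul_eq_mul, mul_eq_zero] at h1
      rcases h1 with h1 | h1
      · exact absurd h1 (ENNReal.inv_ne_zero.mpr hvoltop)
      · exact h1
    rw [ae_iff]
    refine measure_mono_null (fun x hx => ?_) h2
    simpa using hx
  have hT1 := hae μ T hT hμY
  have hS1 := hae ν S hS hνY
  unfold W2
  have hne : Nonempty {π : Measure (EuclideanSpace ℝ (Fin d) × EuclideanSpace ℝ (Fin d)) //
      π.fst = μ ∧ π.snd = ν} := ⟨⟨μ.prod ν, by simp, by simp⟩⟩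
  have hmonof : Monotone fun x : ℝ≥0∞ => (C : ℝ≥0∞) * (x ^ (1 / 2 : ℝ)) ^ (1 / 3 : ℝ) := by
    intro x y hxy
    dsimp only
    gcongr
  have hcontf : Continuous fun x : ℝ≥0∞ => (C : ℝ≥0∞) * (x ^ (1 / 2 : ℝ)) ^ (1 / 3 : ℝ) :=
    (ENNReal.continuous_const_mul ENNReal.coe_ne_top).comp
      (ENNReal.continuous_rpow_const.comp ENNReal.continuous_rpow_const)
  have hkey := hmonof.map_ciInf_of_continuousAt
    (g := fun π : {π : Measure (EuclideanSpace ℝ (Fin d) × EuclideanSpace ℝ (Fin d)) //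
      π.fst = μ ∧ π.snd = ν} => ∫⁻ z, ‖z.1 - z.2‖ₑ ^ 2 ∂π.1) hcontf.continuousAt
      (OrderBot.bddBelow _)
  rw [hkey]
  refine le_ciInf fun π => ?_
  exact hC T S φ₀ φ₁ π.1 hT.measurable hS.measurable hφ₀ hφ₁ hT1 hS1 hpT hpS
    (π.2.1.trans hT.map_eq.symm) (π.2.2.trans hS.map_eq.symm)

/-- `W₂` between measures carried by a ball is finite. -/
lemma W2_le (d : ℕ) (L : ℝ) (μ ν : Measure (EuclideanSpace ℝ (Fin d)))
    [IsProbabilityMeasure μ] [IsProbabilityMeasure ν]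
    (hμ : μ (Metric.closedBall 0 L)ᶜ = 0) (hν : ν (Metric.closedBall 0 L)ᶜ = 0) :
    W2 μ ν ≤ ENNReal.ofReal (2 * L) := by
  have hb : ∀ᵐ z ∂(μ.prod ν), ‖z.1 - z.2‖ₑ ^ 2 ≤ ENNReal.ofReal (2 * L) ^ 2 := by
    have h1 : ∀ᵐ z ∂(μ.prod ν), z.1 ∈ Metric.closedBall 0 L :=
      Measure.quasiMeasurePreserving_fst.ae (by rwa [ae_iff])
    have h2 : ∀ᵐ z ∂(μ.prod ν), z.2 ∈ Metric.closedBall 0 L :=
      Measure.quasiMeasurePreserving_snd.ae (by rwa [ae_iff])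
    filter_upwards [h1, h2] with z h1 h2
    have h3 : ‖z.1‖ ≤ L := by simpa using h1
    have h4 : ‖z.2‖ ≤ L := by simpa using h2
    gcongr
    rw [← ofReal_norm]
    refine ENNReal.ofReal_le_ofReal ?_
    linarith [norm_sub_le z.1 z.2]
  have h5 : ∫⁻ z, ‖z.1 - z.2‖ₑ ^ 2 ∂(μ.prod ν) ≤ ENNReal.ofReal (2 * L) ^ 2 := by
    refine (lintegral_mono_ae hb).trans ?_
    simp
  have h6 : (⨅ π : {π : Measure (EuclideanSpace ℝ (Fin d) × EuclideanSpace ℝ (Fin d)) //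
      π.fst = μ ∧ π.snd = ν}, ∫⁻ z, ‖z.1 - z.2‖ₑ ^ 2 ∂π.1) ≤ ENNReal.ofReal (2 * L) ^ 2 :=
    (iInf_le _ ⟨μ.prod ν, by simp, by simp⟩).trans h5
  unfold W2
  calc _ ≤ (ENNReal.ofReal (2 * L) ^ 2) ^ (1 / 2 : ℝ) := by gcongr
    _ = ENNReal.ofReal (2 * L) := by
        rw [← ENNReal.rpow_natCast, ← ENNReal.rpow_mul]; norm_num

/-- Exponents below an admissible exponent are admissible. -/
theorem Admissible.mono {d : ℕ} {α β : ℝ} (h : Admissible d α) (hβ : 0 < β) (hβα : β ≤ α) :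
    Admissible d β := by
  intro K hK hconv hint Y hY hYne
  obtain ⟨L, hL, hYL⟩ := hY.isBounded.subset_closedBall_lt 0 0
  obtain ⟨C, hC⟩ := h K hK hconv hint Y hY hYne
  refine ⟨C * ((ENNReal.ofReal (2 * L)) ^ (α - β)).toNNReal, fun μ ν hμ hν hμY hνY T S hT hS => ?_⟩
  have hball : ∀ ρ : Measure (EuclideanSpace ℝ (Fin d)), ρ Yᶜ = 0 →
      ρ (Metric.closedBall 0 L)ᶜ = 0 := fun ρ h =>
    measure_mono_null (Set.compl_subset_compl.mpr hYL) h
  have hW := W2_le d L μ ν (hball μ hμY) (hball ν hνY)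
  refine (hC μ ν hμ hν hμY hνY T S hT hS).trans ?_
  rw [ENNReal.coe_mul, ENNReal.coe_toNNReal
    (ENNReal.rpow_ne_top_of_nonneg (by linarith) ENNReal.ofReal_ne_top), mul_assoc]
  gcongr
  calc W2 μ ν ^ α = W2 μ ν ^ (α - β) * W2 μ ν ^ β := by
        rw [← ENNReal.rpow_add_of_nonneg _ _ (by linarith) hβ.le]; congr 1; ring
    _ ≤ ENNReal.ofReal (2 * L) ^ (α - β) * W2 μ ν ^ β := by
        gcongr

theorem admissible_iff (d : ℕ) (hd : 2 ≤ d) (α : ℝ) (h0 : 0 < α) (_h1 : α ≤ 1) :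
    Admissible d α ↔ α ≤ 1 / 3 := by
  refine ⟨fun h => ?_, fun h => (admissible_third d).mono h0 h⟩
  by_contra hc
  exact not_admissible d hd α (not_le.mp hc) h

theorem greatest (d : ℕ) (hd : 2 ≤ d) :
    IsGreatest {α : ℝ | 0 < α ∧ α ≤ 1 ∧ Admissible d α} (1 / 3) := by
  refine ⟨⟨by norm_num, by norm_num, admissible_third d⟩, fun α h => ?_⟩
  by_contra hc
  exact not_admissible d hd α (not_le.mp hc) h.2.2

end P074
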