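import Vale.Agent.P074.Defs

open MeasureTheory
open scoped ENNReal NNReal RealInnerProductSpace

namespace P074

variable {d : ℕ}

lemma pert_ac (K : Set (EuclideanSpace ℝ (Fin d))) (q : EuclideanSpace ℝ (Fin d) → ℝ) :
    pert K q ≪ volume :=
  (withDensity_absolutelyContinuous _ _).trans Measure.absolutelyContinuous_restrict

lemma pert_ac' (K : Set (EuclideanSpace ℝ (Fin d))) (q : EuclideanSpace ℝ (Fin d) → ℝ) :
    pert K q ≪ volume.restrict K :=
  withDensity_absolutelyContinuous _ _

lemma pert_apply (K : Set (EuclideanSpace ℝ (Fin d))) (q : EuclideanSpace ℝ (Fin d) → ℝ)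
    {s : Set (EuclideanSpace ℝ (Fin d))} (hs : MeasurableSet s) :
    pert K q s = ∫⁻ x in K ∩ s, ENNReal.ofReal (1 + q x) := by
  unfold pert
  rw [withDensity_apply _ hs, Measure.restrict_restrict hs, Set.inter_comm]

lemma pert_finite (K : Set (EuclideanSpace ℝ (Fin d))) (hK : IsCompact K)
    (q : EuclideanSpace ℝ (Fin d) → ℝ) (hq1 : ∀ x, |q x| ≤ 1) : IsFiniteMeasure (pert K q) := by
  constructor
  rw [pert_apply K q MeasurableSet.univ, Set.inter_univ]
  calc ∫⁻ x in K, ENNReal.ofReal (1 + q x) ≤ ∫⁻ _ in K, 2 := by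
        refine lintegral_mono fun x => ?_
        have := (abs_le.mp (hq1 x)).2
        calc ENNReal.ofReal (1 + q x) ≤ ENNReal.ofReal 2 := ENNReal.ofReal_le_ofReal (by linarith)
          _ = 2 := by norm_num
    _ = 2 * volume K := by rw [setLIntegral_const]
    _ < ∞ := ENNReal.mul_lt_top (by norm_num) hK.measure_lt_top

lemma pert_support (K : Set (EuclideanSpace ℝ (Fin d))) (R : ℝ)
    (hKR : K ⊆ Metric.closedBall 0 R) (q : EuclideanSpace ℝ (Fin d) → ℝ) :
    pert K q (Metric.closedBall 0 R)ᶜ = 0 := by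
  rw [pert_apply K q Metric.isClosed_closedBall.measurableSet.compl]
  have : K ∩ (Metric.closedBall (0 : EuclideanSpace ℝ (Fin d)) R)ᶜ = ∅ := by
    ext x; simp only [Set.mem_inter_iff, Set.mem_compl_iff, Set.mem_empty_iff_false, iff_false,
      not_and, not_not]
    exact fun hx => hKR hx
  rw [this]; simp

lemma restrict_support (K : Set (EuclideanSpace ℝ (Fin d))) (R : ℝ)
    (hKR : K ⊆ Metric.closedBall 0 R) :
    (volume.restrict K) (Metric.closedBall (0 : EuclideanSpace ℝ (Fin d)) R)ᶜ = 0 := by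
  rw [Measure.restrict_apply Metric.isClosed_closedBall.measurableSet.compl]
  have : (Metric.closedBall (0 : EuclideanSpace ℝ (Fin d)) R)ᶜ ∩ K = ∅ := by
    ext x; simp only [Set.mem_inter_iff, Set.mem_compl_iff, Set.mem_empty_iff_false, iff_false,
      not_and]
    exact fun h hx => h (hKR hx)
  rw [this]; simp

lemma q_integrable (K : Set (EuclideanSpace ℝ (Fin d))) (hK : IsCompact K)
    (q : EuclideanSpace ℝ (Fin d) → ℝ) (hq : Measurable q) (hq1 : ∀ x, |q x| ≤ 1) :
    IntegrableOn q K := by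
  have : IsFiniteMeasure (volume.restrict K) := ⟨by
    rw [Measure.restrict_apply_univ]; exact hK.measure_lt_top⟩
  exact Integrable.of_bound hq.aestronglyMeasurable 1 (Filter.Eventually.of_forall hq1)

lemma pert_real (K : Set (EuclideanSpace ℝ (Fin d))) (hK : IsCompact K)
    (q : EuclideanSpace ℝ (Fin d) → ℝ) (hq : Measurable q) (hq1 : ∀ x, |q x| ≤ 1)
    {s : Set (EuclideanSpace ℝ (Fin d))} (hs : MeasurableSet s) :
    (pert K q).real s = ∫ x in K ∩ s, (1 + q x) := by
  have hi : IntegrableOn (fun x => 1 + q x) (K ∩ s) := by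
    have h1 : IntegrableOn (fun x => 1 + q x) K := by
      refine Integrable.add ?_ (q_integrable K hK q hq hq1)
      exact integrableOn_const hK.measure_lt_top.ne
    exact h1.mono_set Set.inter_subset_left
  rw [Measure.real, pert_apply K q hs,
    ← ofReal_integral_eq_lintegral_ofReal hi, ENNReal.toReal_ofReal]
  · exact integral_nonneg fun x => by have := (abs_le.mp (hq1 x)).1; simp only [Pi.zero_apply]; linarith
  · exact Filter.Eventually.of_forall fun x => by
      have := (abs_le.mp (hq1 x)).1; simp only [Pi.zero_apply]; linarith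

lemma pert_real_univ (K : Set (EuclideanSpace ℝ (Fin d))) (hK : IsCompact K)
    (q : EuclideanSpace ℝ (Fin d) → ℝ) (hq : Measurable q) (hq1 : ∀ x, |q x| ≤ 1)
    (hq0 : ∫ x in K, q x = 0) : (pert K q).real Set.univ = volume.real K := by
  have h1 : IntegrableOn (fun _ : EuclideanSpace ℝ (Fin d) => (1 : ℝ)) K :=
    integrableOn_const hK.measure_lt_top.ne
  rw [pert_real K hK q hq hq1 MeasurableSet.univ, Set.inter_univ,
    integral_add h1 (q_integrable K hK q hq hq1), hq0,
    add_zero, setIntegral_const, smul_eq_mul, mul_one]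

lemma pert_setIntegral (K : Set (EuclideanSpace ℝ (Fin d)))
    (q : EuclideanSpace ℝ (Fin d) → ℝ) (hq : Measurable q) (hq1 : ∀ x, |q x| ≤ 1)
    (f : EuclideanSpace ℝ (Fin d) → ℝ)
    {s : Set (EuclideanSpace ℝ (Fin d))} (hs : MeasurableSet s) :
    ∫ x in s, f x ∂(pert K q) = ∫ x in K ∩ s, (1 + q x) * f x := by
  unfold pert
  have e : (fun x => ENNReal.ofReal (1 + q x)) = fun x => ((Real.toNNReal (1 + q x) : ℝ≥0) : ℝ≥0∞) := rfl
  rw [e, setIntegral_withDensity_eq_setIntegral_smul (by fun_prop) f hs,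
    Measure.restrict_restrict hs, Set.inter_comm]
  refine integral_congr_ae (Filter.Eventually.of_forall fun x => ?_)
  have := (abs_le.mp (hq1 x)).1
  simp only [NNReal.smul_def, smul_eq_mul]
  rw [Real.coe_toNNReal _ (by linarith)]

end P074
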