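import Vale.Agent.P074.Semi
import Vale.Agent.P074.Pert

open MeasureTheory
open scoped ENNReal NNReal RealInnerProductSpace

namespace P074

variable {d : ℕ}

section Group

variable {P ι : Type} [Fintype P] [DecidableEq ι]

/-- union of the pieces with a given label -/
def grp (A : P → Set (EuclideanSpace ℝ (Fin d))) (lam : P → ι) (i : ι) :
    Set (EuclideanSpace ℝ (Fin d)) := ⋃ p ∈ Finset.univ.filter (fun p => lam p = i), A p

lemma mem_grp (A : P → Set (EuclideanSpace ℝ (Fin d))) (lam : P → ι) (i : ι)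
    (x : EuclideanSpace ℝ (Fin d)) : x ∈ grp A lam i ↔ ∃ p, lam p = i ∧ x ∈ A p := by
  simp [grp]

lemma measurableSet_grp (A : P → Set (EuclideanSpace ℝ (Fin d)))
    (hA : ∀ p, MeasurableSet (A p)) (lam : P → ι) (i : ι) : MeasurableSet (grp A lam i) :=
  Finset.measurableSet_biUnion _ fun p _ => hA p

lemma disjoint_grp (A : P → Set (EuclideanSpace ℝ (Fin d)))
    (hd : Pairwise (Function.onFun Disjoint A)) (lam : P → ι) :
    Pairwise (Function.onFun Disjoint (grp A lam)) := by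
  intro i j hij
  simp only [Function.onFun, Set.disjoint_left, mem_grp]
  rintro x ⟨p, hp, hx⟩ ⟨p', hp', hx'⟩
  have : p ≠ p' := by rintro rfl; exact hij (hp.symm.trans hp')
  exact Set.disjoint_left.mp (hd this) hx hx'

lemma integral_grp (μ : Measure (EuclideanSpace ℝ (Fin d)))
    (A : P → Set (EuclideanSpace ℝ (Fin d))) (hA : ∀ p, MeasurableSet (A p))
    (hd : Pairwise (Function.onFun Disjoint A)) (lam : P → ι) (i : ι)
    (f : EuclideanSpace ℝ (Fin d) → ℝ) (hf : Integrable f μ) :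
    ∫ x in grp A lam i, f x ∂μ = ∑ p ∈ Finset.univ.filter (fun p => lam p = i),
      ∫ x in A p, f x ∂μ :=
  integral_biUnion_finset _ (fun p _ => hA p) (fun _ _ _ _ h => hd h)
    (fun _ _ => hf.integrableOn)

lemma sum_integral_grp [Fintype ι] (μ : Measure (EuclideanSpace ℝ (Fin d)))
    (A : P → Set (EuclideanSpace ℝ (Fin d))) (hA : ∀ p, MeasurableSet (A p))
    (hd : Pairwise (Function.onFun Disjoint A)) (lam : P → ι)
    (f : ι → EuclideanSpace ℝ (Fin d) → ℝ) (hf : ∀ i, Integrable (f i) μ) :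
    ∑ i, ∫ x in grp A lam i, f i x ∂μ = ∑ p, ∫ x in A p, f (lam p) x ∂μ := by
  rw [← Finset.sum_fiberwise Finset.univ lam]
  refine Finset.sum_congr rfl fun i _ => ?_
  rw [integral_grp μ A hA hd lam i (f i) (hf i)]
  refine Finset.sum_congr rfl fun p hp => ?_
  rw [(Finset.mem_filter.mp hp).2]

lemma real_grp (μ : Measure (EuclideanSpace ℝ (Fin d))) [IsFiniteMeasure μ]
    (A : P → Set (EuclideanSpace ℝ (Fin d))) (hA : ∀ p, MeasurableSet (A p))
    (hd : Pairwise (Function.onFun Disjoint A)) (lam : P → ι) (i : ι) :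
    μ.real (grp A lam i) = ∑ p ∈ Finset.univ.filter (fun p => lam p = i), μ.real (A p) :=
  measureReal_biUnion_finset (fun _ _ _ _ h => hd h) (fun p _ => hA p)

end Group

section Vor

variable {κ : Type}

lemma sc_vor (xs : κ → EuclideanSpace ℝ (Fin d)) (k : κ) (x : EuclideanSpace ℝ (Fin d)) :
    ‖x - xs k‖ ^ 2 = ‖x‖ ^ 2 - 2 * sc xs (fun k => ‖xs k‖ ^ 2 / 2) k x := by
  rw [norm_sub_sq_real, sc]; ring

lemma vor_le (xs : κ → EuclideanSpace ℝ (Fin d)) (k : κ) (x : EuclideanSpace ℝ (Fin d))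
    (hx : x ∈ cell xs (fun k => ‖xs k‖ ^ 2 / 2) k) (l : κ) : ‖x - xs k‖ ≤ ‖x - xs l‖ := by
  by_cases h : l = k
  · rw [h]
  · have h1 := hx l h
    have h2 : ‖x - xs k‖ ^ 2 ≤ ‖x - xs l‖ ^ 2 := by
      rw [sc_vor, sc_vor]; linarith
    exact (sq_le_sq₀ (norm_nonneg _) (norm_nonneg _)).mp h2

variable {ι : Type}

lemma sc_prod (y : ι → EuclideanSpace ℝ (Fin d)) (ψ : ι → ℝ) (xs : κ → EuclideanSpace ℝ (Fin d))
    (w : κ → ℝ) (η : ℝ) (p : ι × κ) (x : EuclideanSpace ℝ (Fin d)) :
    sc (fun p : ι × κ => y p.1 + η • xs p.2) (fun p => ψ p.1 + η * w p.2) p x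
      = sc y ψ p.1 x + η * sc xs w p.2 x := by
  simp only [sc, inner_add_right, inner_smul_right]; ring

lemma cell_prod (y : ι → EuclideanSpace ℝ (Fin d)) (ψ : ι → ℝ)
    (xs : κ → EuclideanSpace ℝ (Fin d)) (w : κ → ℝ) {η : ℝ} (hη : 0 < η) (i : ι) (k : κ)
    (x : EuclideanSpace ℝ (Fin d)) (hi : x ∈ cell y ψ i) (hk : x ∈ cell xs w k) :
    x ∈ cell (fun p : ι × κ => y p.1 + η • xs p.2) (fun p => ψ p.1 + η * w p.2) (i, k) := by
  rintro ⟨j, l⟩ hne
  rw [sc_prod, sc_prod]
  simp only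
  by_cases hj : j = i
  · subst hj
    have hl : l ≠ k := by rintro rfl; exact hne rfl
    have := mul_lt_mul_of_pos_left (hk l hl) hη
    linarith
  · have h1 := hi j hj
    by_cases hl : l = k
    · subst hl; linarith
    · have := mul_lt_mul_of_pos_left (hk l hl) hη
      linarith

lemma isOpen_cell [Finite ι] (y : ι → EuclideanSpace ℝ (Fin d)) (ψ : ι → ℝ) (i : ι) :
    IsOpen (cell y ψ i) := by
  have : cell y ψ i = ⋂ j : ι, {x | j ≠ i → sc y ψ j x < sc y ψ i x} := by
    ext x; simp [cell]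
  rw [this]
  refine isOpen_iInter_of_finite fun j => ?_
  by_cases h : j = i
  · have : {x : EuclideanSpace ℝ (Fin d) | j ≠ i → sc y ψ j x < sc y ψ i x} = Set.univ := by
      ext x; simp [h]
    rw [this]; exact isOpen_univ
  · have : {x : EuclideanSpace ℝ (Fin d) | j ≠ i → sc y ψ j x < sc y ψ i x}
        = {x | sc y ψ j x < sc y ψ i x} := by
      ext x; simp [h]
    rw [this]
    have hc : ∀ j, Continuous fun x => sc y ψ j x := fun j => by unfold sc; fun_prop
    exact isOpen_lt (hc j) (hc i)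

end Vor

/-- a finite net in a compact set -/
lemma exists_net (K : Set (EuclideanSpace ℝ (Fin d))) (hK : IsCompact K) {δ : ℝ} (hδ : 0 < δ) :
    ∃ t : Finset (EuclideanSpace ℝ (Fin d)), (∀ x ∈ t, x ∈ K) ∧ ∀ x ∈ K, ∃ z ∈ t, ‖x - z‖ ≤ δ := by
  obtain ⟨t, htK, htf, hcov⟩ := hK.finite_cover_balls hδ
  refine ⟨htf.toFinset, fun x hx => htK (htf.mem_toFinset.mp hx), fun x hx => ?_⟩
  have := hcov hx
  simp only [Set.mem_iUnion, Metric.mem_ball, dist_eq_norm] at this
  obtain ⟨z, hz, h⟩ := this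
  exact ⟨z, htf.mem_toFinset.mpr hz, h.le⟩


/-- If the pieces `A` cover almost everything and are contained in disjoint pieces `B`, then they
agree almost everywhere. -/
lemma ae_eq_of_cover {P : Type} (μ : Measure (EuclideanSpace ℝ (Fin d)))
    (A B : P → Set (EuclideanSpace ℝ (Fin d))) (hAB : ∀ p, A p ⊆ B p)
    (hd : Pairwise (Function.onFun Disjoint B)) (hcov : ∀ᵐ x ∂μ, ∃ p, x ∈ A p) (p : P) :
    B p =ᵐ[μ] A p := by
  filter_upwards [hcov] with x hx
  apply propext
  constructor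
  · intro hB
    obtain ⟨p', hp'⟩ := hx
    by_cases h : p' = p
    · rw [← h]; exact hp'
    · exact absurd hB (Set.disjoint_left.mp (hd h) (hAB p' hp'))
  · intro hA
    exact hAB p hA

lemma sum_real_eq {P : Type} [Fintype P] (μ : Measure (EuclideanSpace ℝ (Fin d)))
    [IsFiniteMeasure μ] (A : P → Set (EuclideanSpace ℝ (Fin d))) (hA : ∀ p, MeasurableSet (A p))
    (hd : Pairwise (Function.onFun Disjoint A)) (hcov : ∀ᵐ x ∂μ, ∃ p, x ∈ A p) :
    ∑ p, μ.real (A p) = μ.real Set.univ := by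
  classical
  rw [← measureReal_biUnion_finset (fun _ _ _ _ h => hd h) (fun p _ => hA p)]
  have : (⋃ b ∈ (Finset.univ : Finset P), A b) =ᵐ[μ] Set.univ := by
    filter_upwards [hcov] with x hx
    apply propext
    change x ∈ (⋃ b ∈ (Finset.univ : Finset P), A b) ↔ x ∈ Set.univ
    simpa using hx
  unfold Measure.real
  rw [measure_congr this]

/-- Points of a convex body near which an open set is null do not exist. -/
lemma subset_of_ae (K : Set (EuclideanSpace ℝ (Fin d))) (hconv : Convex ℝ K)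
    (hint : (interior K).Nonempty) (O C : Set (EuclideanSpace ℝ (Fin d))) (hO : IsOpen O)
    (hC : IsClosed C) (h : ∀ᵐ x ∂(volume.restrict K), x ∈ O → x ∈ C) : K ∩ O ⊆ C := by
  rintro x ⟨hxK, hxO⟩
  by_contra hxC
  have hopen : IsOpen (O ∩ Cᶜ) := hO.inter hC.isOpen_compl
  have hxcl : x ∈ closure (interior K) := by
    rw [hconv.closure_interior_eq_closure_of_nonempty_interior hint]
    exact subset_closure hxK
  obtain ⟨z, hz1, hz2⟩ := mem_closure_iff.mp hxcl (O ∩ Cᶜ) hopen ⟨hxO, hxC⟩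
  have hpos : 0 < volume ((O ∩ Cᶜ) ∩ interior K) :=
    (hopen.inter isOpen_interior).measure_pos volume ⟨z, hz1, hz2⟩
  have hzero : (volume.restrict K) (O ∩ Cᶜ) = 0 := by
    rw [← nonpos_iff_eq_zero]
    rw [ae_iff] at h
    refine (measure_mono ?_).trans h.le
    rintro w ⟨hw1, hw2⟩
    simp only [Set.mem_ofPred_eq, Classical.not_imp]
    exact ⟨hw1, hw2⟩
  have : volume ((O ∩ Cᶜ) ∩ interior K) ≤ (volume.restrict K) (O ∩ Cᶜ) := by
    rw [Measure.restrict_apply hopen.measurableSet]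
    exact measure_mono (Set.inter_subset_inter_right _ interior_subset)
  rw [hzero] at this
  exact absurd this (not_le.mpr hpos)

/-- Decomposition of the cells of a semidiscrete potential into small cells. -/
lemma exists_refined {ι : Type} [Fintype ι] [Nonempty ι]
    (K : Set (EuclideanSpace ℝ (Fin d))) (hK : IsCompact K) (hne : K.Nonempty)
    (hpos : 0 < volume.real K)
    (y : ι → EuclideanSpace ℝ (Fin d)) (hy : Function.Injective y) (ψ : ι → ℝ)
    {δ : ℝ} (hδ : 0 < δ) :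
    ∃ (P : Type) (_ : Fintype P) (_ : Nonempty P) (lam : P → ι)
      (c : P → EuclideanSpace ℝ (Fin d)) (A : P → Set (EuclideanSpace ℝ (Fin d))),
      (∀ p, c p ∈ K) ∧ (∀ p, MeasurableSet (A p)) ∧ Pairwise (Function.onFun Disjoint A) ∧
      (∀ᵐ x ∂(volume.restrict K), ∃ p, x ∈ A p) ∧ (∀ p, 0 < (volume.restrict K).real (A p)) ∧
      (∀ p, A p ⊆ cell y ψ (lam p)) ∧ (∀ p, K ∩ A p ⊆ Metric.closedBall (c p) δ) ∧
      (∀ η : ℝ, 0 < η → ∀ p, A p ⊆ cell (fun p => y (lam p) + η • c p)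
        (fun p => ψ (lam p) + η * (‖c p‖ ^ 2 / 2)) p) ∧
      (∀ p p', lam p = lam p' → c p = c p' → p = p') := by
  classical
  obtain ⟨t, htK, hnet⟩ := exists_net K hK hδ
  set xs : t → EuclideanSpace ℝ (Fin d) := fun z => z.1 with hxs
  have hxinj : Function.Injective xs := Subtype.val_injective
  set w : t → ℝ := fun k => ‖xs k‖ ^ 2 / 2 with hw
  obtain ⟨x₀, hx₀⟩ := hne
  obtain ⟨z₀, hz₀, -⟩ := hnet x₀ hx₀
  haveI : Nonempty t := ⟨⟨z₀, hz₀⟩⟩
  haveI : IsFiniteMeasure (volume.restrict K) := ⟨by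
    rw [Measure.restrict_apply_univ]; exact hK.measure_lt_top⟩
  set B : ι × t → Set (EuclideanSpace ℝ (Fin d)) := fun p => cell y ψ p.1 ∩ cell xs w p.2 with hB
  have hBm : ∀ p, MeasurableSet (B p) := fun p =>
    (measurableSet_cell y ψ p.1).inter (measurableSet_cell xs w p.2)
  have hBd : Pairwise (Function.onFun Disjoint B) := by
    rintro ⟨i, k⟩ ⟨j, l⟩ hne
    by_cases hij : i = j
    · have hkl : k ≠ l := by rintro rfl; exact hne (by rw [hij])
      exact (disjoint_cell xs w hkl).mono Set.inter_subset_right Set.inter_subset_right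
    · exact (disjoint_cell y ψ hij).mono Set.inter_subset_left Set.inter_subset_left
  have hBcov : ∀ᵐ x ∂(volume.restrict K), ∃ p, x ∈ B p := by
    have h1 := ae_restrict_of_ae (s := K) (ae_mem_cell y hy ψ)
    have h2 := ae_restrict_of_ae (s := K) (ae_mem_cell xs hxinj w)
    filter_upwards [h1, h2] with x ⟨i, hi⟩ ⟨k, hk⟩
    exact ⟨(i, k), hi, hk⟩
  set P := {p : ι × t // 0 < (volume.restrict K).real (B p)} with hP
  have hcov : ∀ᵐ x ∂(volume.restrict K), ∃ p : P, x ∈ B p.1 := by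
    have hnull : ∀ᵐ x ∂(volume.restrict K), ∀ p : ι × t, ¬ (0 < (volume.restrict K).real (B p)) →
        x ∉ B p := by
      rw [ae_all_iff]
      intro p
      by_cases hp : 0 < (volume.restrict K).real (B p)
      · exact Filter.Eventually.of_forall fun x h => absurd hp h
      · have h0 : (volume.restrict K).real (B p) = 0 :=
          le_antisymm (not_lt.mp hp) measureReal_nonneg
        have h1 : (volume.restrict K) (B p) = 0 :=
          (measureReal_eq_zero_iff (measure_ne_top _ _)).mp h0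
        filter_upwards [measure_eq_zero_iff_ae_notMem.mp h1] with x hx _ using hx
    filter_upwards [hBcov, hnull] with x ⟨p, hp⟩ hx
    by_cases h : 0 < (volume.restrict K).real (B p)
    · exact ⟨⟨p, h⟩, hp⟩
    · exact absurd hp (hx p h)
  have hPne : Nonempty P := by
    have hne0 : NeZero (volume.restrict K) := ⟨by
      intro h0
      have : volume.real K = 0 := by
        have := congrArg (fun μ : Measure (EuclideanSpace ℝ (Fin d)) => μ.real Set.univ) h0
        simpa [Measure.real, Measure.restrict_apply_univ] using this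
      linarith⟩
    obtain ⟨x, p, -⟩ := hcov.exists
    exact ⟨p⟩
  refine ⟨P, inferInstance, hPne, fun p => p.1.1, fun p => xs p.1.2, fun p => B p.1,
    fun p => htK _ p.1.2.2, fun p => hBm _, ?_, hcov, fun p => p.2, fun p => Set.inter_subset_left,
    ?_, ?_, ?_⟩
  · intro p p' hpp
    exact hBd fun h => hpp (Subtype.ext h)
  · rintro p x ⟨hxK, hx⟩
    obtain ⟨z, hz, hzx⟩ := hnet x hxK
    rw [Metric.mem_closedBall, dist_eq_norm]
    exact (vor_le xs p.1.2 x hx.2 ⟨z, hz⟩).trans hzx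
  · intro η hη p x hx
    have := cell_prod y ψ xs w hη p.1.1 p.1.2 x hx.1 hx.2
    intro p' hp'
    exact this p'.1 fun h => hp' (Subtype.ext h)
  · intro p p' h1 h2
    exact Subtype.ext (Prod.ext h1 (hxinj h2))

end P074
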