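import Vale.Agent.P074.LemT
import Vale.Agent.P074.Refine

open MeasureTheory
open scoped ENNReal NNReal RealInnerProductSpace

namespace P074

variable {d : ℕ}

/-- Young's inequality for all parameters gives Cauchy–Schwarz. -/
lemma le_sqrt_of_young {X L S : ℝ} (hL : 0 ≤ L) (hS : 0 ≤ S)
    (h : ∀ t : ℝ, 0 < t → X ≤ t / 2 * L + S / (2 * t)) : X ≤ Real.sqrt S * Real.sqrt L := by
  rcases hL.eq_or_lt with hL0 | hL0
  · rw [← hL0, Real.sqrt_zero, mul_zero]
    by_contra hX
    rw [not_le] at hX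
    rcases hS.eq_or_lt with hS0 | hS0
    · have := h 1 one_pos
      rw [← hL0, ← hS0] at this
      simp at this; linarith
    · have h1 := h (S / X) (div_pos hS0 hX)
      rw [← hL0, mul_zero, zero_add] at h1
      have h2 : S / (2 * (S / X)) = X / 2 := by field_simp
      rw [h2] at h1; linarith
  · rcases hS.eq_or_lt with hS0 | hS0
    · rw [← hS0, Real.sqrt_zero, zero_mul]
      by_contra hX
      rw [not_le] at hX
      have h1 := h (X / L) (div_pos hX hL0)
      rw [← hS0, zero_div, add_zero] at h1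
      have h2 : X / L / 2 * L = X / 2 := by field_simp
      rw [h2] at h1; linarith
    · have h1 := h (Real.sqrt S / Real.sqrt L) (by positivity)
      have hs := Real.mul_self_sqrt hS
      have hl := Real.mul_self_sqrt hL
      have hs0 : 0 < Real.sqrt S := Real.sqrt_pos.mpr hS0
      have hl0 : 0 < Real.sqrt L := Real.sqrt_pos.mpr hL0
      obtain ⟨a, ha⟩ : ∃ a, a = Real.sqrt S := ⟨_, rfl⟩
      obtain ⟨b, hb⟩ : ∃ b, b = Real.sqrt L := ⟨_, rfl⟩
      rw [← ha, ← hb] at h1 ⊢
      rw [← ha] at hs hs0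
      rw [← hb] at hl hl0
      have e1 : a / b / 2 * L = a * b / 2 := by rw [← hl]; field_simp
      have e2 : S / (2 * (a / b)) = a * b / 2 := by rw [← hs]; field_simp
      rw [e1, e2] at h1; linarith

lemma term_bound (μ ν : Measure (EuclideanSpace ℝ (Fin d))) [IsFiniteMeasure μ]
    [IsFiniteMeasure ν] (R : ℝ) (hμ : μ (Metric.closedBall 0 R)ᶜ = 0)
    (hν : ν (Metric.closedBall 0 R)ᶜ = 0) (A B : Set (EuclideanSpace ℝ (Fin d)))
    (hA : MeasurableSet A) (m₀ : ℝ) (hB0 : μ.real B = m₀) (hA0 : ν.real A = m₀)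
    (c : EuclideanSpace ℝ (Fin d)) (δ : ℝ) (hball : ∀ᵐ x ∂ν, x ∈ A → ‖x - c‖ ≤ δ)
    (v : EuclideanSpace ℝ (Fin d)) (t : ℝ) (ht : 0 < t) :
    ∫ x in B, ⟪x, v⟫ ∂μ - ∫ x in A, ⟪x, v⟫ ∂ν ≤
      t / 2 * (m₀ * ‖v‖ ^ 2) + (∫ x in B, ‖x - c‖ ^ 2 ∂μ) / (2 * t) + δ * (m₀ * ‖v‖) := by
  have hsq_int : Integrable (fun x => ‖x - c‖ ^ 2) μ := by
    refine Integrable.of_bound (by fun_prop) ((R + ‖c‖) ^ 2) ?_
    filter_upwards [ae_norm_le _ R hμ] with x hx
    rw [Real.norm_of_nonneg (by positivity)]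
    have := norm_sub_le x c
    gcongr; linarith
  have h1 : ∫ x in B, ⟪x, v⟫ ∂μ ≤
      ∫ x in B, (⟪c, v⟫ + t / 2 * ‖v‖ ^ 2 + ‖x - c‖ ^ 2 / (2 * t)) ∂μ := by
    refine integral_mono_ae (integrable_inner _ R hμ v).integrableOn
      ((integrable_const _).add (hsq_int.integrableOn.div_const _)) ?_
    refine Filter.Eventually.of_forall fun x => ?_
    have h2 : ⟪x, v⟫ = ⟪c, v⟫ + ⟪x - c, v⟫ := by
      rw [inner_sub_left]; ring
    have h3 := real_inner_le_norm (x - c) v
    have h4 : ‖x - c‖ * ‖v‖ ≤ t / 2 * ‖v‖ ^ 2 + ‖x - c‖ ^ 2 / (2 * t) := by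
      have : 0 ≤ (t * ‖v‖ - ‖x - c‖) ^ 2 / (2 * t) := by positivity
      have e : (t * ‖v‖ - ‖x - c‖) ^ 2 / (2 * t)
        = t / 2 * ‖v‖ ^ 2 + ‖x - c‖ ^ 2 / (2 * t) - ‖x - c‖ * ‖v‖ := by
        field_simp; ring
      linarith
    simp only [h2]; linarith
  rw [integral_add (integrable_const _) (hsq_int.integrableOn.div_const _),
    setIntegral_const, smul_eq_mul, integral_div, hB0] at h1
  have h5 : m₀ * ⟪c, v⟫ - δ * (m₀ * ‖v‖) ≤ ∫ x in A, ⟪x, v⟫ ∂ν := by
    have h6 : ∫ x in A, (⟪c, v⟫ - δ * ‖v‖) ∂ν ≤ ∫ x in A, ⟪x, v⟫ ∂ν := by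
      refine integral_mono_ae (integrable_const _)
        (integrable_inner _ R hν v).integrableOn ?_
      filter_upwards [ae_restrict_mem hA, ae_restrict_of_ae hball] with x hxA hxb
      have h7 := hxb hxA
      have h8 := (abs_le.mp (abs_real_inner_le_norm (x - c) v)).1
      rw [inner_sub_left] at h8
      have h9 : ‖x - c‖ * ‖v‖ ≤ δ * ‖v‖ := mul_le_mul_of_nonneg_right h7 (norm_nonneg _)
      linarith
    rw [setIntegral_const, smul_eq_mul, hA0] at h6
    linarith
  linarith

lemma sqrt_add_le' {a b : ℝ} (ha : 0 ≤ a) (hb : 0 ≤ b) :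
    Real.sqrt (a + b) ≤ Real.sqrt a + Real.sqrt b := by
  refine Real.sqrt_le_iff.mpr ⟨by positivity, ?_⟩
  have h1 := Real.sq_sqrt ha
  have h2 := Real.sq_sqrt hb
  have h3 : 0 ≤ Real.sqrt a * Real.sqrt b := by positivity
  nlinarith

/-- The main step: comparison of the optimal partition for the uniform source and of a nearly
optimal partition for the perturbed source, at a fixed injective configuration of sites. -/
theorem refine_step (R : ℝ) (hR : 0 < R) : ∃ C : ℝ, 0 ≤ C ∧
    ∀ K : Set (EuclideanSpace ℝ (Fin d)), IsCompact K → Convex ℝ K →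
    K ⊆ Metric.closedBall 0 R → 0 < volume.real K →
    ∀ q : EuclideanSpace ℝ (Fin d) → ℝ, Measurable q → (∀ x, |q x| ≤ 1) →
    ∫ x in K, q x = 0 →
    ∀ (ι : Type) [Fintype ι] [Nonempty ι] (m : ι → ℝ) (y ξ : ι → EuclideanSpace ℝ (Fin d)),
      Function.Injective y → (∀ i, 0 < m i) → ∑ i, m i = volume.real K →
      ∀ ε : ℝ, 0 < ε →
      ∃ (ψ : ι → ℝ) (U : ι → Set (EuclideanSpace ℝ (Fin d))),
        (∀ i, (volume.restrict K).real (cell y ψ i) = m i) ∧
        (∀ i, MeasurableSet (U i)) ∧ Pairwise (Function.onFun Disjoint U) ∧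
        (∀ᵐ x ∂(pert K q), ∃ i, x ∈ U i) ∧ (∀ i, (pert K q).real (U i) = m i) ∧
        val (pert K q) m y ≤ ∑ i, ∫ x in U i, ⟪x, y i⟫ ∂(pert K q) + ε ∧
        ∑ i, ∫ x in U i, ⟪x, ξ i⟫ ∂(pert K q) -
          ∑ i, ∫ x in cell y ψ i, ⟪x, ξ i⟫ ∂(volume.restrict K) ≤
          C * Real.sqrt (∫ x in K, q x ^ 2) * Real.sqrt (∑ i, m i * ‖ξ i‖ ^ 2) + ε := by
  classical
  obtain ⟨C₀, hC₀, hT⟩ := lemma_T d R hR
  refine ⟨Real.sqrt C₀, Real.sqrt_nonneg _, ?_⟩
  intro K hK hconv hKR hvol q hq hq1 hq0 ι _ _ m y ξ hy hm hsum ε hε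
  -- basic facts
  have hKne : K.Nonempty := by
    by_contra h
    rw [Set.not_nonempty_iff_eq_empty] at h
    rw [h] at hvol; simp at hvol
  have hint : (interior K).Nonempty := by
    by_contra h
    rw [Set.not_nonempty_iff_eq_empty] at h
    have h1 : K ⊆ frontier K := by
      rw [hK.isClosed.frontier_eq, h, Set.sdiff_empty]
    have h2 : volume K = 0 :=
      le_antisymm ((measure_mono h1).trans (hconv.addHaar_frontier volume).le) bot_le
    rw [Measure.real, h2] at hvol; simp at hvol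
  have hfin : IsFiniteMeasure (volume.restrict K) := ⟨by
    rw [Measure.restrict_apply_univ]; exact hK.measure_lt_top⟩
  have hfin' : IsFiniteMeasure (pert K q) := pert_finite K hK q hq1
  have hsup := restrict_support K R hKR
  have hsup' := pert_support K R hKR q
  have hac : volume.restrict K ≪ volume := Measure.absolutelyContinuous_restrict
  have huniv : (volume.restrict K).real Set.univ = volume.real K := by
    rw [Measure.real, Measure.restrict_apply_univ, Measure.real]
  have huniv' := pert_real_univ K hK q hq hq1 hq0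
  set V : ℝ := volume.real K with hV
  set Λ : ℝ := ∑ i, m i * ‖ξ i‖ ^ 2 with hΛ
  set M₁ : ℝ := ∑ i, m i * ‖ξ i‖ with hM₁
  have hΛ0 : 0 ≤ Λ := Finset.sum_nonneg fun i _ => mul_nonneg (hm i).le (sq_nonneg _)
  have hM0 : 0 ≤ M₁ := Finset.sum_nonneg fun i _ => mul_nonneg (hm i).le (norm_nonneg _)
  set Q : ℝ := ∫ x in K, q x ^ 2 with hQ
  have hQ0 : 0 ≤ Q := integral_nonneg fun x => sq_nonneg _
  -- choice of `δ`
  set δ : ℝ := min R (min (ε / (2 * (M₁ + 1))) ((ε / 2) ^ 2 / (C₀ * V * Λ + 1))) with hδdef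
  have hD1 : 0 < M₁ + 1 := by linarith
  have hD2 : 0 < C₀ * V * Λ + 1 := by positivity
  have hδ : 0 < δ := by
    refine lt_min hR (lt_min (by positivity) (by positivity))
  have hδR : δ ≤ R := min_le_left _ _
  have hδ1 : δ * M₁ ≤ ε / 2 := by
    have h1 : δ ≤ ε / (2 * (M₁ + 1)) := (min_le_right _ _).trans (min_le_left _ _)
    calc δ * M₁ ≤ ε / (2 * (M₁ + 1)) * (M₁ + 1) := by gcongr; linarith
      _ = ε / 2 := by field_simp
  have hδ2 : Real.sqrt (C₀ * (δ * V)) * Real.sqrt Λ ≤ ε / 2 := by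
    have h1 : δ ≤ (ε / 2) ^ 2 / (C₀ * V * Λ + 1) := (min_le_right _ _).trans (min_le_right _ _)
    rw [← Real.sqrt_mul (by positivity)]
    refine Real.sqrt_le_iff.mpr ⟨by positivity, ?_⟩
    calc C₀ * (δ * V) * Λ = δ * (C₀ * V * Λ) := by ring
      _ ≤ (ε / 2) ^ 2 / (C₀ * V * Λ + 1) * (C₀ * V * Λ + 1) := by
          gcongr; linarith
      _ = (ε / 2) ^ 2 := by field_simp
  -- the potential for the uniform source and its refinement
  obtain ⟨ψ, hψ⟩ := exists_pot (volume.restrict K) hac R hsup y hy m hm (by rw [huniv, hsum])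
  obtain ⟨P, _, _, lam, c, A, hcK, hAm, hAd, hAcov, hApos, hAsub, hAball, hAcell, hlc⟩ :=
    exists_refined K hK hKne hvol y hy ψ hδ
  have hcR : ∀ p, ‖c p‖ ≤ R := fun p => by simpa using hKR (hcK p)
  -- choice of `η`
  have hev : ∀ᶠ η in nhdsWithin (0 : ℝ) (Set.Ioi 0),
      Function.Injective fun p => y (lam p) + η • c p := by
    have h1 : ∀ᶠ η in nhdsWithin (0 : ℝ) (Set.Ioi 0), ∀ p p' : P, p ≠ p' →
        y (lam p) + η • c p ≠ y (lam p') + η • c p' := by
      refine Filter.eventually_all.mpr fun p => Filter.eventually_all.mpr fun p' => ?_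
      by_cases hpp : p = p'
      · exact Filter.Eventually.of_forall fun η h => absurd hpp h
      · by_cases hl : lam p = lam p'
        · filter_upwards [self_mem_nhdsWithin] with η hη _ heq
          rw [hl] at heq
          have h2 := smul_right_injective _ (ne_of_gt (Set.mem_Ioi.mp hη)) (add_left_cancel heq)
          exact hpp (hlc p p' hl h2)
        · have hcont : ContinuousAt (fun η : ℝ => (y (lam p) + η • c p) -
              (y (lam p') + η • c p')) 0 := by fun_prop
          have hne : (y (lam p) + (0 : ℝ) • c p) - (y (lam p') + (0 : ℝ) • c p') ≠ 0 := by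
            simp only [zero_smul, add_zero]
            exact sub_ne_zero.mpr fun h => hl (hy h)
          have := (hcont.eventually_ne hne).filter_mono
            (nhdsWithin_le_nhds (s := Set.Ioi (0 : ℝ)))
          filter_upwards [this] with η h _ heq
          exact h (sub_eq_zero.mpr heq)
    filter_upwards [h1] with η h p p' heq
    by_contra hne
    exact h p p' hne heq
  have hev2 : ∀ᶠ η in nhdsWithin (0 : ℝ) (Set.Ioi 0), 2 * η * R ^ 2 * V ≤ ε := by
    have hc : Filter.Tendsto (fun η : ℝ => 2 * η * R ^ 2 * V) (nhdsWithin 0 (Set.Ioi 0))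
        (nhds 0) := by
      have : Filter.Tendsto (fun η : ℝ => 2 * η * R ^ 2 * V) (nhds 0)
          (nhds (2 * 0 * R ^ 2 * V)) := by
        apply Continuous.tendsto; fun_prop
      rw [show 2 * (0 : ℝ) * R ^ 2 * V = 0 by ring] at this
      exact this.mono_left nhdsWithin_le_nhds
    filter_upwards [hc.eventually (gt_mem_nhds hε)] with η h using h.le
  obtain ⟨η, ⟨hinj, hηε⟩, hη⟩ := ((hev.and hev2).and self_mem_nhdsWithin).exists
  set y' : P → EuclideanSpace ℝ (Fin d) := fun p => y (lam p) + η • c p with hy'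
  set ψ' : P → ℝ := fun p => ψ (lam p) + η * (‖c p‖ ^ 2 / 2) with hψ'
  set m' : P → ℝ := fun p => (volume.restrict K).real (A p) with hm'
  have hAB : ∀ p, A p ⊆ cell y' ψ' p := fun p => hAcell η hη p
  have hBd : Pairwise (Function.onFun Disjoint (cell y' ψ')) := fun p p' h =>
    disjoint_cell y' ψ' h
  have hBA : ∀ p, cell y' ψ' p =ᵐ[volume.restrict K] A p := fun p =>
    ae_eq_of_cover (volume.restrict K) A (cell y' ψ') hAB hBd hAcov p
  have hmassB : ∀ p, volume.real (K ∩ cell y' ψ' p) = m' p := by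
    intro p
    rw [hm']
    simp only [Measure.real]
    rw [← measure_congr (hBA p), Measure.restrict_apply (measurableSet_cell y' ψ' p),
      Set.inter_comm]
  have hsum' : ∑ p, m' p = V := by
    rw [hm', sum_real_eq (volume.restrict K) A hAm hAd hAcov, huniv]
  have hball : ∀ p, K ∩ cell y' ψ' p ⊆ Metric.closedBall (c p) δ := by
    intro p
    refine subset_of_ae K hconv hint _ _ (isOpen_cell y' ψ' p) Metric.isClosed_closedBall ?_
    filter_upwards [(hBA p).mem_iff, ae_restrict_mem hK.measurableSet] with x hx hxK hxB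
    exact hAball p ⟨hxK, hx.mp hxB⟩
  -- the potential for the perturbed source
  obtain ⟨ψ'', hψ''⟩ := exists_pot (pert K q) (pert_ac K q) R hsup' y' hinj m' hApos
    (by rw [huniv', hsum'])
  set B : P → Set (EuclideanSpace ℝ (Fin d)) := cell y' ψ'' with hBdef
  have hBm : ∀ p, MeasurableSet (B p) := fun p => measurableSet_cell y' ψ'' p
  have hBd' : Pairwise (Function.onFun Disjoint B) := fun p p' h => disjoint_cell y' ψ'' h
  have hBcov : ∀ᵐ x ∂(pert K q), ∃ p, x ∈ B p :=
    (pert_ac K q).ae_le (ae_mem_cell y' hinj ψ'')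
  have hS := hT K hK.measurableSet hconv hKR q hq hq1 P y' c ψ' ψ'' m' δ hinj hApos hδ.le hδR hcR
    hmassB hball (fun p => by
      rw [← pert_real K hK q hq hq1 (measurableSet_cell y' ψ'' p)]; exact hψ'' p)
  set S : ℝ := ∑ p, ∫ x in B p, ‖x - c p‖ ^ 2 ∂(pert K q) with hSdef
  have hS' : S ≤ C₀ * (Q + δ * V) := by
    refine le_trans (le_of_eq ?_) hS
    refine Finset.sum_congr rfl fun p _ => ?_
    rw [pert_setIntegral K q hq hq1 _ (hBm p)]
  have hS0 : 0 ≤ S := Finset.sum_nonneg fun p _ => integral_nonneg fun x => sq_nonneg _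
  -- the grouped masses
  have hgrp : ∀ i, ∑ p ∈ Finset.univ.filter (fun p => lam p = i), m' p = m i := by
    intro i
    rw [hm', ← real_grp (volume.restrict K) A hAm hAd lam i, ← hψ i]
    have hcov : ∀ᵐ x ∂(volume.restrict K), ∃ i, x ∈ grp A lam i := by
      filter_upwards [hAcov] with x ⟨p, hp⟩
      exact ⟨lam p, (mem_grp A lam _ x).mpr ⟨p, rfl, hp⟩⟩
    have := ae_eq_of_cover (volume.restrict K) (grp A lam) (cell y ψ) (fun i x hx => by
      obtain ⟨p, hp, hx⟩ := (mem_grp A lam i x).mp hx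
      rw [← hp]; exact hAsub p hx) (fun i j h => disjoint_cell y ψ h) hcov i
    simp only [Measure.real]
    rw [measure_congr this]
  refine ⟨ψ, grp B lam, hψ, measurableSet_grp B hBm lam, disjoint_grp B hBd' lam, ?_, ?_, ?_, ?_⟩
  · filter_upwards [hBcov] with x ⟨p, hp⟩
    exact ⟨lam p, (mem_grp B lam _ x).mpr ⟨p, rfl, hp⟩⟩
  · intro i
    rw [real_grp (pert K q) B hBm hBd' lam i, ← hgrp i]
    exact Finset.sum_congr rfl fun p _ => hψ'' p
  · -- near optimality
    have hex : ∀ i, ∃ p, lam p = i := by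
      intro i
      by_contra h
      have h0 := hgrp i
      rw [Finset.sum_eq_zero] at h0
      · exact (hm i).ne h0
      · intro p hp
        exact absurd ⟨p, (Finset.mem_filter.mp hp).2⟩ h
    have hsel : ∀ i, ∃ p, lam p = i ∧ ∀ p', lam p' = i → ψ'' p ≤ ψ'' p' := by
      intro i
      obtain ⟨p₀, hp₀⟩ := hex i
      obtain ⟨p, hp, hmin⟩ := Finset.exists_min_image (Finset.univ.filter (fun p => lam p = i)) ψ''
        ⟨p₀, Finset.mem_filter.mpr ⟨Finset.mem_univ _, hp₀⟩⟩
      exact ⟨p, (Finset.mem_filter.mp hp).2, fun p' hp' =>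
        hmin p' (Finset.mem_filter.mpr ⟨Finset.mem_univ _, hp'⟩)⟩
    choose sel hsel1 hsel2 using hsel
    set ψ₃ : ι → ℝ := fun i => ψ'' (sel i) with hψ₃
    have hval : val (pert K q) m y ≤ J (pert K q) m y ψ₃ :=
      ciInf_le (bddBelow_J (pert K q) R hsup' y m (fun i => (hm i).le) (by rw [huniv', hsum])) ψ₃
    have hJ1 : J (pert K q) m y ψ₃ ≤ J (pert K q) m' y' ψ'' + η * R ^ 2 * V := by
      have h1 : ∫ x, pot y ψ₃ x ∂(pert K q) ≤ ∫ x, (pot y' ψ'' x + η * R ^ 2) ∂(pert K q) := by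
        refine integral_mono_ae (integrable_pot _ R hsup' y ψ₃)
          ((integrable_pot _ R hsup' y' ψ'').add (integrable_const _)) ?_
        filter_upwards [ae_norm_le _ R hsup'] with x hx
        refine ciSup_le fun i => ?_
        have h2 := sc_le_pot y' ψ'' (sel i) x
        have h3 : sc y ψ₃ i x = sc y' ψ'' (sel i) x - η * ⟪x, c (sel i)⟫ := by
          simp only [sc, hψ₃, hy', inner_add_right, inner_smul_right, hsel1 i]; ring
        have h4 : -(η * ⟪x, c (sel i)⟫) ≤ η * R ^ 2 := by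
          have := (abs_le.mp (abs_real_inner_le_norm x (c (sel i)))).1
          have h5 : ‖x‖ * ‖c (sel i)‖ ≤ R ^ 2 := by
            rw [sq]; exact mul_le_mul hx (hcR _) (norm_nonneg _) hR.le
          nlinarith
        rw [h3]; linarith
      rw [integral_add (integrable_pot _ R hsup' y' ψ'') (integrable_const _), integral_const,
        huniv', smul_eq_mul] at h1
      have h2 : ∑ i, m i * ψ₃ i ≤ ∑ p, m' p * ψ'' p := by
        rw [← Finset.sum_fiberwise Finset.univ lam]
        refine Finset.sum_le_sum fun i _ => ?_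
        rw [← hgrp i, Finset.sum_mul]
        refine Finset.sum_le_sum fun p hp => ?_
        exact mul_le_mul_of_nonneg_left (hsel2 i p (Finset.mem_filter.mp hp).2) (hApos p).le
      unfold J
      linarith [mul_comm V (η * R ^ 2)]
    have hJ2 : J (pert K q) m' y' ψ'' ≤ ∑ i, ∫ x in grp B lam i, ⟪x, y i⟫ ∂(pert K q)
        + η * R ^ 2 * V := by
      rw [J_eq (pert K q) (pert_ac K q) R hsup' y' hinj m' ψ'' hψ'',
        sum_integral_grp (pert K q) B hBm hBd' lam (fun i x => ⟪x, y i⟫)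
          (fun i => integrable_inner _ R hsup' (y i))]
      have h1 : ∀ p, ∫ x in B p, ⟪x, y' p⟫ ∂(pert K q) ≤
          ∫ x in B p, ⟪x, y (lam p)⟫ ∂(pert K q) + η * R ^ 2 * m' p := by
        intro p
        have h2 : ∫ x in B p, ⟪x, y' p⟫ ∂(pert K q) ≤
            ∫ x in B p, (⟪x, y (lam p)⟫ + η * R ^ 2) ∂(pert K q) := by
          refine integral_mono_ae (integrable_inner _ R hsup' (y' p)).integrableOn
            (((integrable_inner _ R hsup' (y (lam p))).integrableOn).add
              (integrable_const _)) ?_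
          filter_upwards [ae_restrict_of_ae (ae_norm_le _ R hsup')] with x hx
          simp only [hy', inner_add_right, inner_smul_right]
          have := (abs_le.mp (abs_real_inner_le_norm x (c p))).2
          have h5 : ‖x‖ * ‖c p‖ ≤ R ^ 2 := by
            rw [sq]; exact mul_le_mul hx (hcR _) (norm_nonneg _) hR.le
          nlinarith
        rw [integral_add (integrable_inner _ R hsup' (y (lam p))).integrableOn
          (integrable_const _), setIntegral_const, smul_eq_mul, hψ'' p] at h2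
        linarith [mul_comm (m' p) (η * R ^ 2)]
      calc ∑ p, ∫ x in B p, ⟪x, y' p⟫ ∂(pert K q)
          ≤ ∑ p, (∫ x in B p, ⟪x, y (lam p)⟫ ∂(pert K q) + η * R ^ 2 * m' p) :=
            Finset.sum_le_sum fun p _ => h1 p
        _ = _ := by rw [Finset.sum_add_distrib, ← Finset.mul_sum, hsum']
    linarith
  · -- the comparison
    set D : ℝ := ∑ i, ∫ x in grp B lam i, ⟪x, ξ i⟫ ∂(pert K q) -
      ∑ i, ∫ x in cell y ψ i, ⟪x, ξ i⟫ ∂(volume.restrict K) with hD
    have hsecond : ∑ i, ∫ x in cell y ψ i, ⟪x, ξ i⟫ ∂(volume.restrict K)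
        = ∑ p, ∫ x in A p, ⟪x, ξ (lam p)⟫ ∂(volume.restrict K) := by
      rw [← sum_integral_grp (volume.restrict K) A hAm hAd lam (fun i x => ⟪x, ξ i⟫)
          (fun i => integrable_inner _ R hsup (ξ i))]
      refine Finset.sum_congr rfl fun i _ => ?_
      have hcov : ∀ᵐ x ∂(volume.restrict K), ∃ i, x ∈ grp A lam i := by
        filter_upwards [hAcov] with x ⟨p, hp⟩
        exact ⟨lam p, (mem_grp A lam _ x).mpr ⟨p, rfl, hp⟩⟩
      have := ae_eq_of_cover (volume.restrict K) (grp A lam) (cell y ψ) (fun i x hx => by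
        obtain ⟨p, hp, hx⟩ := (mem_grp A lam i x).mp hx
        rw [← hp]; exact hAsub p hx) (fun i j h => disjoint_cell y ψ h) hcov i
      exact setIntegral_congr_set this
    have hfirst := sum_integral_grp (pert K q) B hBm hBd' lam (fun i x => ⟪x, ξ i⟫)
          (fun i => integrable_inner _ R hsup' (ξ i))
    have hyoung : ∀ t : ℝ, 0 < t → D - δ * M₁ ≤ t / 2 * Λ + S / (2 * t) := by
      intro t ht
      have hterm : ∀ p, ∫ x in B p, ⟪x, ξ (lam p)⟫ ∂(pert K q) -
          ∫ x in A p, ⟪x, ξ (lam p)⟫ ∂(volume.restrict K) ≤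
          t / 2 * (m' p * ‖ξ (lam p)‖ ^ 2) + (∫ x in B p, ‖x - c p‖ ^ 2 ∂(pert K q)) / (2 * t)
            + δ * (m' p * ‖ξ (lam p)‖) := by
        intro p
        refine term_bound (pert K q) (volume.restrict K) R hsup' hsup (A p) (B p) (hAm p) (m' p)
          (hψ'' p) rfl (c p) δ ?_ (ξ (lam p)) t ht
        filter_upwards [ae_restrict_mem hK.measurableSet] with x hxK hxA
        have h7 := hAball p ⟨hxK, hxA⟩
        rwa [Metric.mem_closedBall, dist_eq_norm] at h7
      have hsumterm : D ≤ ∑ p, (t / 2 * (m' p * ‖ξ (lam p)‖ ^ 2) +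
          (∫ x in B p, ‖x - c p‖ ^ 2 ∂(pert K q)) / (2 * t) + δ * (m' p * ‖ξ (lam p)‖)) := by
        rw [hD, hsecond, hfirst, ← Finset.sum_sub_distrib]
        exact Finset.sum_le_sum fun p _ => hterm p
      have hΛ' : ∑ p, m' p * ‖ξ (lam p)‖ ^ 2 = Λ := by
        rw [← Finset.sum_fiberwise Finset.univ lam, hΛ]
        refine Finset.sum_congr rfl fun i _ => ?_
        rw [← hgrp i, Finset.sum_mul]
        refine Finset.sum_congr rfl fun p hp => ?_
        rw [(Finset.mem_filter.mp hp).2]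
      have hM' : ∑ p, m' p * ‖ξ (lam p)‖ = M₁ := by
        rw [← Finset.sum_fiberwise Finset.univ lam, hM₁]
        refine Finset.sum_congr rfl fun i _ => ?_
        rw [← hgrp i, Finset.sum_mul]
        refine Finset.sum_congr rfl fun p hp => ?_
        rw [(Finset.mem_filter.mp hp).2]
      rw [Finset.sum_add_distrib, Finset.sum_add_distrib, ← Finset.mul_sum, ← Finset.mul_sum,
        hΛ', hM', ← Finset.sum_div] at hsumterm
      linarith
    have h1 := le_sqrt_of_young hΛ0 hS0 hyoung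
    have h2 : Real.sqrt S ≤ Real.sqrt C₀ * Real.sqrt Q + Real.sqrt (C₀ * (δ * V)) := by
      calc Real.sqrt S ≤ Real.sqrt (C₀ * Q + C₀ * (δ * V)) :=
            Real.sqrt_le_sqrt (by linarith)
        _ ≤ Real.sqrt (C₀ * Q) + Real.sqrt (C₀ * (δ * V)) :=
            sqrt_add_le' (by positivity) (by positivity)
        _ = _ := by rw [Real.sqrt_mul hC₀]
    have h3 : Real.sqrt S * Real.sqrt Λ ≤
        Real.sqrt C₀ * Real.sqrt Q * Real.sqrt Λ + Real.sqrt (C₀ * (δ * V)) * Real.sqrt Λ := by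
      have := mul_le_mul_of_nonneg_right h2 (Real.sqrt_nonneg Λ)
      linarith
    linarith

/-- The four-point inequality for semidiscrete optimal transport. -/
theorem fourpoint (d : ℕ) (R : ℝ) (hR : 0 < R) : ∃ C : ℝ, 0 ≤ C ∧
    ∀ K : Set (EuclideanSpace ℝ (Fin d)), IsCompact K → Convex ℝ K →
    K ⊆ Metric.closedBall 0 R →
    ∀ q : EuclideanSpace ℝ (Fin d) → ℝ, Measurable q → (∀ x, |q x| ≤ 1) →
    ∫ x in K, q x = 0 →
    ∀ (ι : Type) [Fintype ι] [Nonempty ι] (m : ι → ℝ) (a b : ι → EuclideanSpace ℝ (Fin d)),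
      (∀ i, 0 < m i) → ∑ i, m i = volume.real K →
      (val (pert K q) m b - val (pert K q) m a)
        - (val (volume.restrict K) m b - val (volume.restrict K) m a) ≤
        C * Real.sqrt (∫ x in K, q x ^ 2) * Real.sqrt (∑ i, m i * ‖a i - b i‖ ^ 2) := by
  classical
  obtain ⟨C, hC, hstep⟩ := refine_step (d := d) R hR
  refine ⟨C, hC, ?_⟩
  intro K hK hconv hKR q hq hq1 hq0 ι _ _ m a b hm hsum
  set X : ℝ := C * Real.sqrt (∫ x in K, q x ^ 2) * Real.sqrt (∑ i, m i * ‖a i - b i‖ ^ 2) with hX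
  have hX0 : 0 ≤ X := by positivity
  -- dimension zero is trivial
  by_cases hd : Subsingleton (EuclideanSpace ℝ (Fin d))
  · have hab : a = b := funext fun i => Subsingleton.elim _ _
    rw [hab]; simpa using hX0
  rw [not_subsingleton_iff_nontrivial] at hd
  obtain ⟨v, hv⟩ := exists_norm_eq (EuclideanSpace ℝ (Fin d)) (zero_le_one (α := ℝ))
  have hv0 : v ≠ 0 := by rintro rfl; simp at hv
  have hvol : 0 < volume.real K := by
    rw [← hsum]
    exact Finset.sum_pos (fun i _ => hm i) Finset.univ_nonempty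
  have hfin : IsFiniteMeasure (volume.restrict K) := ⟨by
    rw [Measure.restrict_apply_univ]; exact hK.measure_lt_top⟩
  have hfin' : IsFiniteMeasure (pert K q) := pert_finite K hK q hq1
  have hsup := restrict_support K R hKR
  have hsup' := pert_support K R hKR q
  have hac : volume.restrict K ≪ volume := Measure.absolutelyContinuous_restrict
  have huniv : (volume.restrict K).real Set.univ = volume.real K := by
    rw [Measure.real, Measure.restrict_apply_univ, Measure.real]
  have huniv' := pert_real_univ K hK q hq hq1 hq0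
  set V : ℝ := volume.real K with hV
  set ξ : ι → EuclideanSpace ℝ (Fin d) := fun i => b i - a i with hξ
  have hΛ : ∑ i, m i * ‖ξ i‖ ^ 2 = ∑ i, m i * ‖a i - b i‖ ^ 2 := by
    refine Finset.sum_congr rfl fun i _ => ?_
    rw [hξ]; simp only [norm_sub_rev]
  set M₁ : ℝ := ∑ i, m i * ‖ξ i‖ with hM₁
  have hM0 : 0 ≤ M₁ := Finset.sum_nonneg fun i _ => mul_nonneg (hm i).le (norm_nonneg _)
  refine le_of_forall_pos_le_add fun ε hε => ?_
  -- number of steps
  obtain ⟨N, hN⟩ := exists_nat_gt (8 * (R * M₁) / ε)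
  have hN0 : (0 : ℝ) < N := lt_of_le_of_lt (by positivity) hN
  have hN1 : 2 * (R * M₁) / N ≤ ε / 4 := by
    rw [div_lt_iff₀ hε] at hN
    rw [div_le_iff₀ hN0]; linarith
  have hN1' : (1 : ℝ) ≤ N := by
    have : 0 < N := by exact_mod_cast hN0
    exact_mod_cast this
  set ε' : ℝ := ε / (4 * N) with hε'
  have hε'0 : 0 < ε' := by positivity
  have hNε' : N * ε' = ε / 4 := by rw [hε']; field_simp
  have hε'4 : ε' ≤ ε / 4 := by
    rw [← hNε']; nlinarith
  -- the shift
  set n : ι → ℝ := fun i => ((Fintype.equivFin ι i : ℕ) : ℝ) with hn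
  have hninj : ∀ i k, i ≠ k → n i - n k ≠ 0 := by
    intro i k hik h
    apply hik
    have h1 : n i = n k := by linarith
    simp only [hn, Nat.cast_inj] at h1
    exact (Fintype.equivFin ι).injective (Fin.ext h1)
  set nm : ℝ := (Fintype.card ι : ℝ) with hnm
  have hn0 : ∀ i, 0 ≤ n i ∧ n i ≤ nm := fun i =>
    ⟨Nat.cast_nonneg _, by simp only [hn, hnm, Nat.cast_le]; exact (Fintype.equivFin ι i).2.le⟩
  set Y : ℝ → ℝ → ι → EuclideanSpace ℝ (Fin d) :=
    fun s t i => (1 - t) • a i + t • b i + (s * n i) • v with hY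
  have hev : ∀ᶠ s in nhdsWithin (0 : ℝ) (Set.Ioi 0), ∀ j : Fin (N + 1),
      Function.Injective (Y s ((j : ℕ) / N)) := by
    refine Filter.eventually_all.mpr fun j => ?_
    have h1 : ∀ᶠ s in nhdsWithin (0 : ℝ) (Set.Ioi 0), ∀ i k : ι, i ≠ k →
        Y s ((j : ℕ) / N) i ≠ Y s ((j : ℕ) / N) k := by
      refine Filter.eventually_all.mpr fun i => Filter.eventually_all.mpr fun k => ?_
      by_cases hik : i = k
      · exact Filter.Eventually.of_forall fun s h => absurd hik h
      · set t : ℝ := (j : ℕ) / N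
        by_cases hp : ((1 - t) • a i + t • b i) - ((1 - t) • a k + t • b k) = 0
        · filter_upwards [self_mem_nhdsWithin] with s hs _ heq
          have h2 : (s * (n i - n k)) • v = 0 := by
            have h3 : Y s t i - Y s t k = (((1 - t) • a i + t • b i) - ((1 - t) • a k + t • b k))
                + (s * (n i - n k)) • v := by
              simp only [hY, mul_sub, sub_smul]; abel
            rw [hp, zero_add] at h3
            rw [← h3, heq, sub_self]
          rcases smul_eq_zero.mp h2 with h4 | h4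
          · rcases mul_eq_zero.mp h4 with h5 | h5
            · exact absurd h5 (ne_of_gt hs)
            · exact hninj i k hik h5
          · exact hv0 h4
        · have hcont : ContinuousAt (fun s : ℝ => Y s t i - Y s t k) 0 := by
            simp only [hY]; fun_prop
          have hne : Y 0 t i - Y 0 t k ≠ 0 := by
            simp only [hY, zero_mul, zero_smul, add_zero]; exact hp
          have := (hcont.eventually_ne hne).filter_mono
            (nhdsWithin_le_nhds (s := Set.Ioi (0 : ℝ)))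
          filter_upwards [this] with s h _ heq
          exact h (sub_eq_zero.mpr heq)
    filter_upwards [h1] with s h i k heq
    by_contra hne
    exact h i k hne heq
  have hev2 : ∀ᶠ s in nhdsWithin (0 : ℝ) (Set.Ioi 0), 4 * (R * (s * nm) * V) ≤ ε / 4 := by
    have hc : Filter.Tendsto (fun s : ℝ => 4 * (R * (s * nm) * V)) (nhdsWithin 0 (Set.Ioi 0))
        (nhds 0) := by
      have : Filter.Tendsto (fun s : ℝ => 4 * (R * (s * nm) * V)) (nhds 0)
          (nhds (4 * (R * (0 * nm) * V))) := by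
        apply Continuous.tendsto; fun_prop
      rw [show 4 * (R * (0 * nm) * V) = 0 by ring] at this
      exact this.mono_left nhdsWithin_le_nhds
    filter_upwards [hc.eventually (gt_mem_nhds (by positivity : (0 : ℝ) < ε / 4))] with s h
      using h.le
  obtain ⟨s, ⟨hinj, hsε⟩, hs⟩ := ((hev.and hev2).and self_mem_nhdsWithin).exists
  have hs0 : 0 < s := hs
  set y : ℕ → ι → EuclideanSpace ℝ (Fin d) := fun j => Y s ((j : ℕ) / N) with hy
  have hyinj : ∀ j, j ≤ N → Function.Injective (y j) := fun j hj =>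
    hinj ⟨j, Nat.lt_succ_of_le hj⟩
  have hydiff : ∀ j i, y (j + 1) i - y j i = (1 / (N : ℝ)) • ξ i := by
    intro j i
    have : ((j + 1 : ℕ) : ℝ) / N = (j : ℝ) / N + 1 / N := by push_cast; ring
    simp only [hy, hY, hξ, this, smul_sub]
    module
  -- data at each time
  have hdata : ∀ j, j ≤ N → _ := fun j hj => hstep K hK hconv hKR hvol q hq hq1 hq0 ι m (y j) ξ
    (hyinj j hj) hm hsum ε' hε'0
  choose! ψ U h1 h2 h3 h4 h5 h6 h7 using hdata
  rw [hΛ] at h7
  set Bf : ℕ → ℝ := fun j => ∑ i, ∫ x in cell (y j) (ψ j) i, ⟪x, ξ i⟫ ∂(volume.restrict K) with hBf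
  set Bf' : ℕ → ℝ := fun j => ∑ i, ∫ x in U j i, ⟪x, ξ i⟫ ∂(pert K q) with hBf'
  have hBbound : ∀ j, j ≤ N → |Bf j| ≤ R * M₁ := by
    intro j hj
    refine (Finset.abs_sum_le_sum_abs _ _).trans ?_
    rw [hM₁, Finset.mul_sum]
    refine Finset.sum_le_sum fun i _ => ?_
    have hb : ∀ᵐ x ∂(volume.restrict K), x ∈ cell (y j) (ψ j) i → ‖⟪x, ξ i⟫‖ ≤ R * ‖ξ i‖ := by
      filter_upwards [ae_norm_le _ R hsup] with x hx _
      exact (norm_inner_le_norm x (ξ i)).trans (by gcongr)
    have := norm_setIntegral_le_of_norm_le_const_ae' (measure_lt_top _ _) hb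
    rw [h1 j hj i, Real.norm_eq_abs] at this
    linarith
  -- one step
  have hone : ∀ j, j + 1 ≤ N →
      (val (pert K q) m (y (j + 1)) - val (pert K q) m (y j))
        - (val (volume.restrict K) m (y (j + 1)) - val (volume.restrict K) m (y j))
      ≤ 1 / N * (X + ε' + Bf (j + 1) - Bf j) + ε' := by
    intro j hj
    have hj' : j ≤ N := (Nat.le_succ j).trans hj
    -- perturbed source
    have e1 : ∑ i, ∫ x in U (j + 1) i, ⟪x, y j i⟫ ∂(pert K q) ≤ val (pert K q) m (y j) :=
      le_ciInf fun ψ₀ => weak_duality (pert K q) R hsup' (y j) m ψ₀ (U (j + 1)) (h2 _ hj)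
        (h3 _ hj) (h4 _ hj) (h5 _ hj)
    have e2 : ∑ i, ∫ x in U (j + 1) i, ⟪x, y (j + 1) i⟫ ∂(pert K q) =
        ∑ i, ∫ x in U (j + 1) i, ⟪x, y j i⟫ ∂(pert K q) + 1 / N * Bf' (j + 1) := by
      rw [hBf', Finset.mul_sum, ← Finset.sum_add_distrib]
      refine Finset.sum_congr rfl fun i _ => ?_
      rw [← integral_const_mul, ← integral_add (integrable_inner _ R hsup' _).integrableOn
        ((integrable_inner _ R hsup' _).integrableOn.const_mul _)]
      refine integral_congr_ae (Filter.Eventually.of_forall fun x => ?_)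
      have : y (j + 1) i = y j i + (1 / (N : ℝ)) • ξ i := by rw [← hydiff]; abel
      simp only [this, inner_add_right, inner_smul_right]
    -- uniform source
    have hcov : ∀ᵐ x ∂(volume.restrict K), ∃ i, x ∈ cell (y j) (ψ j) i :=
      ae_restrict_of_ae (ae_mem_cell (y j) (hyinj j hj') (ψ j))
    have e3 : val (volume.restrict K) m (y j)
        = ∑ i, ∫ x in cell (y j) (ψ j) i, ⟪x, y j i⟫ ∂(volume.restrict K) :=
      val_eq (volume.restrict K) hac R hsup (y j) (hyinj j hj') m (ψ j) (h1 j hj')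
    have e4 : ∑ i, ∫ x in cell (y j) (ψ j) i, ⟪x, y (j + 1) i⟫ ∂(volume.restrict K)
        ≤ val (volume.restrict K) m (y (j + 1)) :=
      le_ciInf fun ψ₀ => weak_duality (volume.restrict K) R hsup (y (j + 1)) m ψ₀
        (cell (y j) (ψ j)) (fun i => measurableSet_cell _ _ _)
        (fun i k h => disjoint_cell _ _ h) hcov (h1 j hj')
    have e5 : ∑ i, ∫ x in cell (y j) (ψ j) i, ⟪x, y (j + 1) i⟫ ∂(volume.restrict K) =
        ∑ i, ∫ x in cell (y j) (ψ j) i, ⟪x, y j i⟫ ∂(volume.restrict K) + 1 / N * Bf j := by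
      rw [hBf, Finset.mul_sum, ← Finset.sum_add_distrib]
      refine Finset.sum_congr rfl fun i _ => ?_
      rw [← integral_const_mul, ← integral_add (integrable_inner _ R hsup _).integrableOn
        ((integrable_inner _ R hsup _).integrableOn.const_mul _)]
      refine integral_congr_ae (Filter.Eventually.of_forall fun x => ?_)
      have : y (j + 1) i = y j i + (1 / (N : ℝ)) • ξ i := by rw [← hydiff]; abel
      simp only [this, inner_add_right, inner_smul_right]
    have e6 := h6 (j + 1) hj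
    have e7 : Bf' (j + 1) ≤ X + ε' + Bf (j + 1) := by
      have := h7 (j + 1) hj
      linarith
    have e8 : 1 / (N : ℝ) * Bf' (j + 1) ≤ 1 / N * (X + ε' + Bf (j + 1)) :=
      mul_le_mul_of_nonneg_left e7 (by positivity)
    linarith
  -- induction
  have hind : ∀ k, k ≤ N →
      (val (pert K q) m (y k) - val (pert K q) m (y 0))
        - (val (volume.restrict K) m (y k) - val (volume.restrict K) m (y 0))
      ≤ k / N * (X + ε') + 1 / N * (Bf k - Bf 0) + k * ε' := by
    intro k
    induction k with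
    | zero => intro _; simp
    | succ k ih =>
      intro hk
      have i1 := ih ((Nat.le_succ k).trans hk)
      have i2 := hone k hk
      have i3 : ((k + 1 : ℕ) : ℝ) / N * (X + ε') = k / N * (X + ε') + 1 / N * (X + ε') := by
        push_cast; ring
      have i4 : ((k + 1 : ℕ) : ℝ) * ε' = k * ε' + ε' := by push_cast; ring
      rw [i3, i4]
      linarith
  have hfinal := hind N le_rfl
  have hNN : (N : ℝ) / N = 1 := div_self hN0.ne'
  rw [hNN, one_mul, hNε'] at hfinal
  have hB1 := (abs_le.mp (hBbound N le_rfl)).2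
  have hB2 := (abs_le.mp (hBbound 0 (Nat.zero_le _))).1
  have hB3 : 1 / (N : ℝ) * (Bf N - Bf 0) ≤ ε / 4 := by
    refine le_trans ?_ hN1
    rw [one_div, inv_mul_le_iff₀ hN0, mul_div_cancel₀ _ hN0.ne']
    linarith
  -- Lipschitz corrections
  have hm' : ∀ i, 0 ≤ m i := fun i => (hm i).le
  have hy0 : ∀ i, ‖y 0 i - a i‖ ≤ s * nm := by
    intro i
    have : y 0 i - a i = (s * n i) • v := by
      simp [hy, hY]
    rw [this, norm_smul, hv, mul_one, Real.norm_of_nonneg (mul_nonneg hs0.le (hn0 i).1)]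
    exact mul_le_mul_of_nonneg_left (hn0 i).2 hs0.le
  have hyN : ∀ i, ‖y N i - b i‖ ≤ s * nm := by
    intro i
    have : y N i - b i = (s * n i) • v := by
      simp [hy, hY, hNN]
    rw [this, norm_smul, hv, mul_one, Real.norm_of_nonneg (mul_nonneg hs0.le (hn0 i).1)]
    exact mul_le_mul_of_nonneg_left (hn0 i).2 hs0.le
  have l1 := abs_le.mp (val_lipschitz (pert K q) R hR.le hsup' (y N) b m hm'
    (by rw [huniv', hsum]) (s * nm) hyN)
  have l2 := abs_le.mp (val_lipschitz (pert K q) R hR.le hsup' (y 0) a m hm'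
    (by rw [huniv', hsum]) (s * nm) hy0)
  have l3 := abs_le.mp (val_lipschitz (volume.restrict K) R hR.le hsup (y N) b m hm'
    (by rw [huniv, hsum]) (s * nm) hyN)
  have l4 := abs_le.mp (val_lipschitz (volume.restrict K) R hR.le hsup (y 0) a m hm'
    (by rw [huniv, hsum]) (s * nm) hy0)
  rw [huniv'] at l1 l2
  rw [huniv] at l3 l4
  linarith [l1.1, l1.2, l2.1, l2.2, l3.1, l3.2, l4.1, l4.2]

end P074
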