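import Vale.Agent.P074.Semi
import Vale.Agent.P074.PL

open MeasureTheory
open scoped ENNReal NNReal RealInnerProductSpace

namespace P074

section Aux

variable {d : ℕ} {ι : Type} [Fintype ι] [Nonempty ι]

/-- Integrals over the traces of the cells on `K` add up to the integral over `K`. -/
lemma sum_setIntegral_cell (K : Set (EuclideanSpace ℝ (Fin d))) (hK : MeasurableSet K)
    (y : ι → EuclideanSpace ℝ (Fin d)) (hy : Function.Injective y) (ψ : ι → ℝ)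
    (F : EuclideanSpace ℝ (Fin d) → ℝ) (hF : IntegrableOn F K) :
    ∑ i, ∫ x in K ∩ cell y ψ i, F x = ∫ x in K, F x := by
  rw [← integral_iUnion_fintype (fun i => hK.inter (measurableSet_cell y ψ i))
    (fun i j hij => (disjoint_cell y ψ hij).mono Set.inter_subset_right Set.inter_subset_right)
    (fun i => hF.mono_set Set.inter_subset_left)]
  refine setIntegral_congr_set ?_
  have h := ae_mem_cell y hy ψ
  rw [ae_eq_set]
  constructor
  · refine measure_mono_null ?_ (measure_empty (μ := volume))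
    rintro x ⟨hx1, hx2⟩
    obtain ⟨i, hi⟩ := Set.mem_iUnion.mp hx1
    exact absurd hi.1 hx2
  · refine measure_mono_null ?_ (ae_iff.mp h)
    rintro x ⟨hx1, hx2⟩
    simp only [Set.mem_ofPred_eq]
    rintro ⟨i, hi⟩
    exact hx2 (Set.mem_iUnion.mpr ⟨i, hx1, hi⟩)

/-- The Prékopa–Leindler step for one cell. -/
lemma pl_cell (lam δ : ℝ) (hlam : 0 ≤ lam) (P P' Q : Set (EuclideanSpace ℝ (Fin d)))
    (hPm : MeasurableSet P) (hPm' : MeasurableSet P') (hQm : MeasurableSet Q)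
    (c : EuclideanSpace ℝ (Fin d)) (hP : P ⊆ Metric.closedBall c δ)
    (hmid : ∀ x ∈ P, ∀ x' ∈ P', (1 / 2 : ℝ) • (x + x') ∈ Q) :
    (∫⁻ x in P, ENNReal.ofReal (Real.exp (-(lam / 2 * ‖x‖ ^ 2)))) *
      (∫⁻ x in P', ENNReal.ofReal
        (Real.exp (-(lam / 2 * ‖x‖ ^ 2) + lam / 4 * (max (‖x - c‖ - δ) 0) ^ 2))) ≤
      (∫⁻ x in Q, ENNReal.ofReal (Real.exp (-(lam / 2 * ‖x‖ ^ 2)))) ^ 2 := by
  rw [← lintegral_indicator hPm, ← lintegral_indicator hPm', ← lintegral_indicator hQm]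
  refine prekopa_leindler _ _ _ ?_ ?_ ?_ ?_
  · exact Measurable.indicator (by fun_prop) hPm
  · exact Measurable.indicator (by fun_prop) hPm'
  · exact Measurable.indicator (by fun_prop) hQm
  intro x x'
  by_cases hx : x ∈ P
  swap
  · rw [Set.indicator_of_notMem hx, zero_mul]; exact bot_le
  by_cases hx' : x' ∈ P'
  swap
  · rw [Set.indicator_of_notMem hx', mul_zero]; exact bot_le
  rw [Set.indicator_of_mem hx, Set.indicator_of_mem hx', Set.indicator_of_mem (hmid x hx x' hx'),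
    ← ENNReal.ofReal_mul (Real.exp_pos _).le, ← ENNReal.ofReal_pow (Real.exp_pos _).le,
    ← Real.exp_add, ← Real.exp_nat_mul]
  refine ENNReal.ofReal_le_ofReal (Real.exp_le_exp.mpr ?_)
  have h1 : ‖(1 / 2 : ℝ) • (x + x')‖ ^ 2 = (‖x‖ ^ 2 + ‖x'‖ ^ 2) / 2 - ‖x' - x‖ ^ 2 / 4 := by
    rw [norm_smul, mul_pow, ← real_inner_self_eq_norm_sq (x + x'),
      ← real_inner_self_eq_norm_sq (x' - x), inner_add_left, inner_add_right, inner_add_right,
      inner_sub_left, inner_sub_right, inner_sub_right, real_inner_comm x x',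
      real_inner_self_eq_norm_sq, real_inner_self_eq_norm_sq]
    norm_num
    ring
  have h2 : ‖x' - c‖ - δ ≤ ‖x' - x‖ := by
    have h3 : ‖x - c‖ ≤ δ := by
      have := hP hx
      rwa [Metric.mem_closedBall, dist_eq_norm] at this
    have h4 : ‖x' - c‖ ≤ ‖x' - x‖ + ‖x - c‖ := by
      calc ‖x' - c‖ = ‖(x' - x) + (x - c)‖ := by rw [sub_add_sub_cancel]
        _ ≤ _ := norm_add_le _ _
    linarith
  have h5 : (max (‖x' - c‖ - δ) 0) ^ 2 ≤ ‖x' - x‖ ^ 2 :=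
    pow_le_pow_left₀ (le_max_right _ _) (max_le h2 (norm_nonneg _)) 2
  push_cast
  rw [h1]
  nlinarith

/-- The pointwise inequality used in Lemma T. -/
lemma pointwise_ineq (V b q κ θ : ℝ) (hb : 0 < b) (hq : -1 ≤ q) (hκ : 0 < κ) :
    b * (1 + q) * θ ≤ Real.exp (-V + θ) / κ + b * (1 + q) * Real.log κ +
      Real.exp (-V) * (b * (1 + q) * Real.exp V - 1) ^ 2 - Real.exp (-V) := by
  have hw0 : 0 ≤ b * (1 + q) := mul_nonneg hb.le (by linarith)
  generalize hw : b * (1 + q) = w at *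
  have hg : 0 < Real.exp (-V + θ) := Real.exp_pos _
  have he : Real.exp (-V) * Real.exp V = 1 := by rw [← Real.exp_add]; simp
  have heV : 0 < Real.exp V := Real.exp_pos _
  have heV' : 0 < Real.exp (-V) := Real.exp_pos _
  rcases hw0.eq_or_lt with h0 | h0
  · rw [← h0]
    have : 0 < Real.exp (-V + θ) / κ := by positivity
    nlinarith
  · have h1 : Real.log (Real.exp (-V + θ) / (w * κ)) ≤ Real.exp (-V + θ) / (w * κ) - 1 :=
      Real.log_le_sub_one_of_pos (by positivity)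
    rw [Real.log_div hg.ne' (by positivity), Real.log_exp, Real.log_mul h0.ne' hκ.ne'] at h1
    have h2 : Real.log (w * Real.exp V) ≤ w * Real.exp V - 1 :=
      Real.log_le_sub_one_of_pos (by positivity)
    rw [Real.log_mul h0.ne' heV.ne', Real.log_exp] at h2
    have h3 : w * (Real.exp (-V + θ) / (w * κ)) = Real.exp (-V + θ) / κ := by
      field_simp
    have h4 : Real.exp (-V) * (w * Real.exp V - 1) ^ 2 =
        w * (w * Real.exp V) - 2 * w + Real.exp (-V) := by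
      calc Real.exp (-V) * (w * Real.exp V - 1) ^ 2 =
          (Real.exp (-V) * Real.exp V) * (w * (w * Real.exp V)) -
            2 * w * (Real.exp (-V) * Real.exp V) + Real.exp (-V) := by ring
        _ = _ := by rw [he]; ring
    have h5 : w * (-V + θ - (Real.log w + Real.log κ)) ≤
        w * (Real.exp (-V + θ) / (w * κ) - 1) := mul_le_mul_of_nonneg_left h1 h0.le
    have h6 : w * (Real.log w + V) ≤ w * (w * Real.exp V - 1) :=
      mul_le_mul_of_nonneg_left h2 h0.le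
    rw [h4]
    nlinarith

/-- From `A G ≤ H ^ 2` to the logarithmic form. -/
lemma log_le_of_mul_le (A G H : ℝ) (hA : 0 < A) (hG : 0 < G) (hH : 0 ≤ H) (h : A * G ≤ H ^ 2) :
    A * Real.log (G / A) ≤ 2 * H - 2 * A := by
  have hH0 : 0 < H := by
    rcases hH.eq_or_lt with h0 | h0
    · rw [← h0] at h
      have := mul_pos hA hG
      nlinarith
    · exact h0
  have h1 : Real.log (G / A) ≤ 2 * Real.log (H / A) := by
    have h2 : G / A ≤ (H / A) ^ 2 := by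
      rw [div_pow, div_le_div_iff₀ hA (by positivity)]
      nlinarith
    calc Real.log (G / A) ≤ Real.log ((H / A) ^ 2) := Real.log_le_log (by positivity) h2
      _ = 2 * Real.log (H / A) := by rw [Real.log_pow]; norm_num
  have h3 : Real.log (H / A) ≤ H / A - 1 := Real.log_le_sub_one_of_pos (by positivity)
  calc A * Real.log (G / A) ≤ A * (2 * (H / A - 1)) :=
        mul_le_mul_of_nonneg_left (by linarith) hA.le
    _ = 2 * H - 2 * A := by field_simp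

lemma quad_bound (lam R δ a q β : ℝ) (hlam0 : 0 < lam) (hlamR : lam * R ^ 2 = 1 / 1024)
    (hq : |q| ≤ 1) (hβ : |β| ≤ 2 * lam * R * (a + δ)) :
    ((1 + q) * β + q) ^ 2 ≤ 2 * q ^ 2 + lam / 32 * (1 + q) * (a ^ 2 + δ ^ 2) := by
  obtain ⟨hq1, hq2⟩ := abs_le.mp hq
  have h9 : β ^ 2 ≤ (2 * lam * R * (a + δ)) ^ 2 := by
    rw [← sq_abs β]
    exact pow_le_pow_left₀ (abs_nonneg _) hβ 2
  have h10 : (2 * lam * R * (a + δ)) ^ 2 ≤ lam / 128 * (a ^ 2 + δ ^ 2) := by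
    have h11 : (2 * lam * R * (a + δ)) ^ 2 = 4 * lam * (lam * R ^ 2) * (a + δ) ^ 2 := by ring
    rw [h11, hlamR]
    have h12 : (a + δ) ^ 2 ≤ 2 * (a ^ 2 + δ ^ 2) := by
      nlinarith [sq_nonneg (a - δ)]
    calc 4 * lam * (1 / 1024) * (a + δ) ^ 2 ≤ 4 * lam * (1 / 1024) * (2 * (a ^ 2 + δ ^ 2)) := by
          gcongr
      _ = lam / 128 * (a ^ 2 + δ ^ 2) := by ring
  have h13 : ((1 + q) * β + q) ^ 2 ≤ 2 * q ^ 2 + 4 * ((1 + q) * β ^ 2) := by
    have h14 : ((1 + q) * β + q) ^ 2 ≤ 2 * q ^ 2 + 2 * ((1 + q) ^ 2 * β ^ 2) := by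
      nlinarith [sq_nonneg ((1 + q) * β - q)]
    have h15 : (1 + q) ^ 2 ≤ 2 * (1 + q) := by nlinarith
    have h16 := mul_le_mul_of_nonneg_right h15 (sq_nonneg β)
    linarith
  have h17 : (1 + q) * β ^ 2 ≤ (1 + q) * (lam / 128 * (a ^ 2 + δ ^ 2)) :=
    mul_le_mul_of_nonneg_left (h9.trans h10) (by linarith)
  calc ((1 + q) * β + q) ^ 2 ≤ 2 * q ^ 2 + 4 * ((1 + q) * β ^ 2) := h13
    _ ≤ 2 * q ^ 2 + 4 * ((1 + q) * (lam / 128 * (a ^ 2 + δ ^ 2))) := by linarith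
    _ = _ := by ring

/-- The pointwise inequality with all constants. -/
lemma pt_real (lam R δ V a q b κ : ℝ) (hlam0 : 0 < lam) (hlamR : lam * R ^ 2 = 1 / 1024)
    (hδ0 : 0 ≤ δ) (ha : 0 ≤ a) (hV : 0 ≤ V) (hq : |q| ≤ 1) (hb : 1 / 2 ≤ b) (hκ : 0 < κ)
    (hβ : |b * Real.exp V - 1| ≤ 2 * lam * R * (a + δ)) :
    0 ≤ κ⁻¹ * Real.exp (-V + lam / 4 * (max (a - δ) 0) ^ 2) +
        (b * Real.log κ + 5 * lam / 32 * δ ^ 2) * (1 + q) +
        2 * q ^ 2 - lam / 32 * ((1 + q) * a ^ 2) - Real.exp (-V) := by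
  obtain ⟨hq1, hq2⟩ := abs_le.mp hq
  have h1 := pointwise_ineq V b q κ (lam / 4 * (max (a - δ) 0) ^ 2) (by linarith) hq1 hκ
  have hmx : a ^ 2 / 2 - δ ^ 2 ≤ (max (a - δ) 0) ^ 2 := by
    rcases le_total (a - δ) 0 with h2 | h2
    · rw [max_eq_right h2]
      nlinarith
    · rw [max_eq_left h2]
      nlinarith [sq_nonneg (a - 2 * δ)]
  have hθ0 : 0 ≤ lam / 4 * (max (a - δ) 0) ^ 2 := by positivity
  generalize max (a - δ) 0 = M at *
  have h3 : (1 + q) * (lam / 16 * a ^ 2 - lam / 8 * δ ^ 2) ≤ b * (1 + q) * (lam / 4 * M ^ 2) := by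
    have h5 : lam / 16 * a ^ 2 - lam / 8 * δ ^ 2 ≤ 1 / 2 * (lam / 4 * M ^ 2) := by nlinarith
    have h4 : (1 + q) * (lam / 16 * a ^ 2 - lam / 8 * δ ^ 2) ≤
        1 / 2 * (1 + q) * (lam / 4 * M ^ 2) := by
      calc (1 + q) * (lam / 16 * a ^ 2 - lam / 8 * δ ^ 2) ≤
          (1 + q) * (1 / 2 * (lam / 4 * M ^ 2)) :=
            mul_le_mul_of_nonneg_left h5 (by linarith)
        _ = _ := by ring
    refine h4.trans ?_
    have h6 : 1 / 2 * (1 + q) ≤ b * (1 + q) :=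
      mul_le_mul_of_nonneg_right hb (by linarith)
    exact mul_le_mul_of_nonneg_right h6 hθ0
  have hexpV1 : Real.exp (-V) ≤ 1 := by
    rw [Real.exp_le_one_iff]; linarith
  have h7 : Real.exp (-V) * (b * (1 + q) * Real.exp V - 1) ^ 2 ≤
      2 * q ^ 2 + lam / 32 * (1 + q) * (a ^ 2 + δ ^ 2) := by
    generalize hbe : b * Real.exp V - 1 = β at hβ
    have h8 : b * (1 + q) * Real.exp V - 1 = (1 + q) * β + q := by rw [← hbe]; ring
    rw [h8]
    have h13 := quad_bound lam R δ a q β hlam0 hlamR hq hβ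
    have h16 : Real.exp (-V) * ((1 + q) * β + q) ^ 2 ≤ 1 * ((1 + q) * β + q) ^ 2 :=
      mul_le_mul_of_nonneg_right hexpV1 (sq_nonneg _)
    linarith
  have h18 : Real.exp (-V + lam / 4 * M ^ 2) / κ = κ⁻¹ * Real.exp (-V + lam / 4 * M ^ 2) := by
    rw [div_eq_mul_inv, mul_comm]
  rw [h18] at h1
  linarith

/-- The density bound. -/
lemma beta_bound (lam R δ : ℝ) (hlam0 : 0 < lam) (hlamR : lam * R ^ 2 = 1 / 1024) (hR : 0 < R)
    (hδ0 : 0 ≤ δ) (hδR : δ ≤ R) (P : Set (EuclideanSpace ℝ (Fin d))) (hPfin : volume P < ∞)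
    (c x : EuclideanSpace ℝ (Fin d)) (hc : ‖c‖ ≤ R) (hx : ‖x‖ ≤ R) (hPn : ∀ z ∈ P, ‖z‖ ≤ R)
    (hPc : P ⊆ Metric.closedBall c δ) (mi A : ℝ) (hmi : 0 < mi) (hPm : volume.real P = mi)
    (hI : IntegrableOn (fun x : EuclideanSpace ℝ (Fin d) => Real.exp (-(lam / 2 * ‖x‖ ^ 2))) P)
    (hA : A = ∫ x in P, Real.exp (-(lam / 2 * ‖x‖ ^ 2))) :
    |A / mi * Real.exp (lam / 2 * ‖x‖ ^ 2) - 1| ≤ 2 * lam * R * (‖x - c‖ + δ) := by
  have h1 : A * Real.exp (lam / 2 * ‖x‖ ^ 2) - mi =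
      ∫ z in P, (Real.exp (lam / 2 * ‖x‖ ^ 2 - lam / 2 * ‖z‖ ^ 2) - 1) := by
    have h2 : ∀ z : EuclideanSpace ℝ (Fin d), Real.exp (lam / 2 * ‖x‖ ^ 2 - lam / 2 * ‖z‖ ^ 2) =
        Real.exp (lam / 2 * ‖x‖ ^ 2) * Real.exp (-(lam / 2 * ‖z‖ ^ 2)) := by
      intro z; rw [← Real.exp_add]; ring_nf
    simp only [h2]
    rw [integral_sub (hI.const_mul _) (integrableOn_const hPfin.ne), integral_const_mul, ← hA,
      setIntegral_const, hPm]
    simp [mul_comm]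
  have h3 : ‖∫ z in P, (Real.exp (lam / 2 * ‖x‖ ^ 2 - lam / 2 * ‖z‖ ^ 2) - 1)‖ ≤
      (2 * lam * R * (‖x - c‖ + δ)) * volume.real P := by
    refine norm_setIntegral_le_of_norm_le_const hPfin fun z hz => ?_
    have hzc : ‖z - c‖ ≤ δ := by
      have := hPc hz
      rwa [Metric.mem_closedBall, dist_eq_norm] at this
    have hxz : ‖x - z‖ ≤ ‖x - c‖ + δ := by
      calc ‖x - z‖ = ‖(x - c) - (z - c)‖ := by rw [sub_sub_sub_cancel_right]
        _ ≤ ‖x - c‖ + ‖z - c‖ := norm_sub_le _ _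
        _ ≤ _ := by linarith
    have hu : |lam / 2 * ‖x‖ ^ 2 - lam / 2 * ‖z‖ ^ 2| ≤ lam * R * (‖x - c‖ + δ) := by
      have h4 : lam / 2 * ‖x‖ ^ 2 - lam / 2 * ‖z‖ ^ 2 =
        lam / 2 * ((‖x‖ + ‖z‖) * (‖x‖ - ‖z‖)) := by ring
      rw [h4, abs_mul, abs_mul, abs_of_nonneg (by positivity : 0 ≤ lam / 2),
        abs_of_nonneg (by positivity : 0 ≤ ‖x‖ + ‖z‖)]
      have h5 : |‖x‖ - ‖z‖| ≤ ‖x - c‖ + δ := (abs_norm_sub_norm_le x z).trans hxz
      have h6 : ‖x‖ + ‖z‖ ≤ 2 * R := by linarith [hx, hPn z hz]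
      calc lam / 2 * ((‖x‖ + ‖z‖) * |‖x‖ - ‖z‖|) ≤
          lam / 2 * ((2 * R) * (‖x - c‖ + δ)) := by gcongr
        _ = _ := by ring
    have hu1 : |lam / 2 * ‖x‖ ^ 2 - lam / 2 * ‖z‖ ^ 2| ≤ 1 := by
      refine hu.trans ?_
      have h7 : lam * R * (‖x - c‖ + δ) ≤ lam * R * (3 * R) := by
        have := norm_sub_le x c
        gcongr
        linarith
      have h8 : lam * R * (3 * R) = 3 * (lam * R ^ 2) := by ring
      rw [h8, hlamR] at h7
      linarith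
    rw [Real.norm_eq_abs]
    refine (Real.abs_exp_sub_one_le hu1).trans ?_
    linarith
  rw [hPm, ← h1, Real.norm_eq_abs] at h3
  have h9 : A / mi * Real.exp (lam / 2 * ‖x‖ ^ 2) - 1 =
      (A * Real.exp (lam / 2 * ‖x‖ ^ 2) - mi) / mi := by
    have := hmi.ne'
    field_simp
  rw [h9, abs_div, abs_of_pos hmi, div_le_iff₀ hmi]
  exact h3

lemma integral_lin {X : Type*} [MeasurableSpace X] (μ : Measure X) (f1 f2 f3 f4 f5 : X → ℝ)
    (h1 : Integrable f1 μ) (h2 : Integrable f2 μ) (h3 : Integrable f3 μ) (h4 : Integrable f4 μ)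
    (h5 : Integrable f5 μ) (c1 c2 c3 c4 : ℝ) :
    ∫ x, (c1 * f1 x + c2 * f2 x + c3 * f3 x - c4 * f4 x - f5 x) ∂μ =
      c1 * ∫ x, f1 x ∂μ + c2 * ∫ x, f2 x ∂μ + c3 * ∫ x, f3 x ∂μ - c4 * ∫ x, f4 x ∂μ -
        ∫ x, f5 x ∂μ := by
  have a1 : Integrable (fun x => c1 * f1 x) μ := h1.const_mul c1
  have a2 : Integrable (fun x => c2 * f2 x) μ := h2.const_mul c2
  have a3 : Integrable (fun x => c3 * f3 x) μ := h3.const_mul c3
  have a4 : Integrable (fun x => c4 * f4 x) μ := h4.const_mul c4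
  have b2 : Integrable (fun x => c1 * f1 x + c2 * f2 x) μ := a1.add a2
  have b3 : Integrable (fun x => c1 * f1 x + c2 * f2 x + c3 * f3 x) μ := b2.add a3
  have b4 : Integrable (fun x => c1 * f1 x + c2 * f2 x + c3 * f3 x - c4 * f4 x) μ := b3.sub a4
  rw [integral_sub b4 h5, integral_sub b3 a4, integral_add b2 a3, integral_add a1 a2,
    integral_const_mul, integral_const_mul, integral_const_mul, integral_const_mul]

/-- The integrated inequality for one cell. -/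
lemma cell_ineq (lam R δ : ℝ) (P' : Set (EuclideanSpace ℝ (Fin d))) (hPm' : MeasurableSet P')
    (c : EuclideanSpace ℝ (Fin d)) (q : EuclideanSpace ℝ (Fin d) → ℝ) (mi A B G H : ℝ)
    (hmi : 0 < mi) (hA0 : 0 < A) (hG0 : 0 < G) (hH0 : 0 ≤ H) (hPL : A * G ≤ H ^ 2)
    (hlam0 : 0 < lam) (hlamR : lam * R ^ 2 = 1 / 1024) (hδ0 : 0 ≤ δ) (hb : 1 / 2 ≤ A / mi)
    (hq : ∀ x, |q x| ≤ 1)
    (hβ : ∀ x ∈ P', |A / mi * Real.exp (lam / 2 * ‖x‖ ^ 2) - 1| ≤ 2 * lam * R * (‖x - c‖ + δ))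
    (hI1 : IntegrableOn (fun x : EuclideanSpace ℝ (Fin d) =>
      Real.exp (-(lam / 2 * ‖x‖ ^ 2) + lam / 4 * (max (‖x - c‖ - δ) 0) ^ 2)) P')
    (hI2 : IntegrableOn (fun x : EuclideanSpace ℝ (Fin d) => 1 + q x) P')
    (hI3 : IntegrableOn (fun x : EuclideanSpace ℝ (Fin d) => q x ^ 2) P')
    (hI4 : IntegrableOn (fun x : EuclideanSpace ℝ (Fin d) => (1 + q x) * ‖x - c‖ ^ 2) P')
    (hI5 : IntegrableOn (fun x : EuclideanSpace ℝ (Fin d) =>
      Real.exp (-(lam / 2 * ‖x‖ ^ 2))) P')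
    (hG : G = ∫ x in P', Real.exp (-(lam / 2 * ‖x‖ ^ 2) + lam / 4 * (max (‖x - c‖ - δ) 0) ^ 2))
    (hB : B = ∫ x in P', Real.exp (-(lam / 2 * ‖x‖ ^ 2)))
    (hm : ∫ x in P', (1 + q x) = mi) :
    lam / 32 * ∫ x in P', (1 + q x) * ‖x - c‖ ^ 2 ≤
      2 * H - A - B + 5 * lam / 32 * δ ^ 2 * mi + 2 * ∫ x in P', q x ^ 2 := by
  have hκ : 0 < G / A := div_pos hG0 hA0
  have hpt : ∀ x ∈ P', 0 ≤
      (G / A)⁻¹ * Real.exp (-(lam / 2 * ‖x‖ ^ 2) + lam / 4 * (max (‖x - c‖ - δ) 0) ^ 2) +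
      (A / mi * Real.log (G / A) + 5 * lam / 32 * δ ^ 2) * (1 + q x) +
      2 * q x ^ 2 - lam / 32 * ((1 + q x) * ‖x - c‖ ^ 2) -
      Real.exp (-(lam / 2 * ‖x‖ ^ 2)) := fun x hx =>
    pt_real lam R δ _ _ _ _ _ hlam0 hlamR hδ0 (norm_nonneg _) (by positivity) (hq x) hb hκ
      (hβ x hx)
  have hI := setIntegral_nonneg (μ := volume) hPm' hpt
  rw [integral_lin _ _ _ _ _ _ hI1 hI2 hI3 hI4 hI5, ← hG, ← hB, hm] at hI
  have h19 := log_le_of_mul_le A G H hA0 hG0 hH0 hPL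
  have h20 : (G / A)⁻¹ * G = A := by
    have h21 := hA0.ne'
    have h22 := hG0.ne'
    field_simp
  have h23 : (A / mi * Real.log (G / A) + 5 * lam / 32 * δ ^ 2) * mi =
      A * Real.log (G / A) + 5 * lam / 32 * δ ^ 2 * mi := by
    have := hmi.ne'
    field_simp
  rw [h20, h23] at hI
  linarith

end Aux

/-- Lemma T: stability of the optimal partition when the uniform source on a convex set is
perturbed to the density `1+q`; the cells of the unperturbed source are small. -/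
theorem lemma_T (d : ℕ) (R : ℝ) (hR : 0 < R) : ∃ C : ℝ, 0 ≤ C ∧
    ∀ K : Set (EuclideanSpace ℝ (Fin d)), MeasurableSet K → Convex ℝ K →
    K ⊆ Metric.closedBall 0 R →
    ∀ q : EuclideanSpace ℝ (Fin d) → ℝ, Measurable q → (∀ x, |q x| ≤ 1) →
    ∀ (ι : Type) [Fintype ι] [Nonempty ι] (y c : ι → EuclideanSpace ℝ (Fin d))
      (ψ ψ' m : ι → ℝ) (δ : ℝ), Function.Injective y → (∀ i, 0 < m i) → 0 ≤ δ → δ ≤ R →
      (∀ i, ‖c i‖ ≤ R) →
      (∀ i, volume.real (K ∩ cell y ψ i) = m i) →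
      (∀ i, K ∩ cell y ψ i ⊆ Metric.closedBall (c i) δ) →
      (∀ i, ∫ x in K ∩ cell y ψ' i, (1 + q x) = m i) →
      ∑ i, ∫ x in K ∩ cell y ψ' i, (1 + q x) * ‖x - c i‖ ^ 2 ≤
        C * ((∫ x in K, q x ^ 2) + δ * volume.real K) := by
  refine ⟨65536 * R ^ 2 + 5 * R, by positivity, ?_⟩
  intro K hKm hconv hKR q hqm hq ι _ _ y c ψ ψ' m δ hy hm hδ0 hδR hc hP1 hP2 hP3
  have hKfin : volume K ≠ ∞ :=
    ne_top_of_le_ne_top measure_closedBall_lt_top.ne (measure_mono hKR)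
  have hKn : ∀ x ∈ K, ‖x‖ ≤ R := fun x hx => by
    have := hKR hx
    rwa [mem_closedBall_zero_iff] at this
  obtain ⟨lam, hlam⟩ : ∃ lam : ℝ, lam = 1 / (1024 * R ^ 2) := ⟨_, rfl⟩
  have hlam0 : 0 < lam := by rw [hlam]; positivity
  have hlamR : lam * R ^ 2 = 1 / 1024 := by rw [hlam]; field_simp
  -- integrability
  have hint : ∀ F : EuclideanSpace ℝ (Fin d) → ℝ, Measurable F → ∀ M : ℝ, (∀ x ∈ K, |F x| ≤ M) →
      IntegrableOn F K := by
    intro F hF M hM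
    refine Measure.integrableOn_of_bounded hKfin hF.aestronglyMeasurable (M := M) ?_
    filter_upwards [ae_restrict_mem hKm] with x hx
    exact hM x hx
  have hmP : ∀ φ : ι → ℝ, ∀ i, MeasurableSet (K ∩ cell y φ i) :=
    fun φ i => hKm.inter (measurableSet_cell y φ i)
  have hPfin : ∀ φ : ι → ℝ, ∀ i, volume (K ∩ cell y φ i) < ∞ := fun φ i =>
    lt_of_le_of_lt (measure_mono Set.inter_subset_left) hKfin.lt_top
  -- V
  have hV0 : ∀ x : EuclideanSpace ℝ (Fin d), 0 ≤ lam / 2 * ‖x‖ ^ 2 := fun x => by positivity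
  have hV1 : ∀ x ∈ K, lam / 2 * ‖x‖ ^ 2 ≤ 1 / 2 := by
    intro x hx
    have h1 : ‖x‖ ^ 2 ≤ R ^ 2 := pow_le_pow_left₀ (norm_nonneg _) (hKn x hx) 2
    nlinarith
  have hexpV : ∀ x ∈ K, 1 / 2 ≤ Real.exp (-(lam / 2 * ‖x‖ ^ 2)) := by
    intro x hx
    have h1 := Real.add_one_le_exp (-(lam / 2 * ‖x‖ ^ 2))
    have h2 := hV1 x hx
    linarith
  have hexpV1 : ∀ x : EuclideanSpace ℝ (Fin d), Real.exp (-(lam / 2 * ‖x‖ ^ 2)) ≤ 1 := by
    intro x
    rw [Real.exp_le_one_iff]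
    linarith [hV0 x]
  have hIexp : IntegrableOn (fun x : EuclideanSpace ℝ (Fin d) =>
      Real.exp (-(lam / 2 * ‖x‖ ^ 2))) K := by
    refine hint _ (by fun_prop) 1 fun x _ => ?_
    rw [abs_of_pos (Real.exp_pos _)]
    exact hexpV1 x
  have hdist : ∀ x ∈ K, ∀ i, ‖x - c i‖ ≤ 2 * R := by
    intro x hx i
    calc ‖x - c i‖ ≤ ‖x‖ + ‖c i‖ := norm_sub_le _ _
      _ ≤ 2 * R := by linarith [hKn x hx, hc i]
  have hθ : ∀ x ∈ K, ∀ i, lam / 4 * (max (‖x - c i‖ - δ) 0) ^ 2 ≤ 1 := by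
    intro x hx i
    have h1 : max (‖x - c i‖ - δ) 0 ≤ 2 * R := max_le (by linarith [hdist x hx i]) (by positivity)
    have h2 : (max (‖x - c i‖ - δ) 0) ^ 2 ≤ (2 * R) ^ 2 :=
      pow_le_pow_left₀ (le_max_right _ _) h1 2
    nlinarith
  have hIg : ∀ i, IntegrableOn (fun x : EuclideanSpace ℝ (Fin d) =>
      Real.exp (-(lam / 2 * ‖x‖ ^ 2) + lam / 4 * (max (‖x - c i‖ - δ) 0) ^ 2)) K := by
    intro i
    refine hint _ (by fun_prop) (Real.exp 1) fun x hx => ?_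
    rw [abs_of_pos (Real.exp_pos _)]
    refine Real.exp_le_exp.mpr ?_
    linarith [hV0 x, hθ x hx i]
  have hIq : IntegrableOn (fun x : EuclideanSpace ℝ (Fin d) => 1 + q x) K := by
    refine hint _ (by fun_prop) 2 fun x _ => ?_
    calc |1 + q x| ≤ |1| + |q x| := abs_add_le _ _
      _ ≤ 2 := by rw [abs_one]; linarith [hq x]
  have hIq2 : IntegrableOn (fun x : EuclideanSpace ℝ (Fin d) => q x ^ 2) K := by
    refine hint _ (by fun_prop) 1 fun x _ => ?_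
    rw [abs_of_nonneg (sq_nonneg _)]
    exact (sq_le_one_iff_abs_le_one _).mpr (hq x)
  have hIs : ∀ i, IntegrableOn (fun x : EuclideanSpace ℝ (Fin d) =>
      (1 + q x) * ‖x - c i‖ ^ 2) K := by
    intro i
    refine hint _ (by fun_prop) (2 * (2 * R) ^ 2) fun x hx => ?_
    rw [abs_mul, abs_of_nonneg (sq_nonneg ‖x - c i‖)]
    refine mul_le_mul ?_ (pow_le_pow_left₀ (norm_nonneg _) (hdist x hx i) 2) (sq_nonneg _)
      (by norm_num)
    calc |1 + q x| ≤ |1| + |q x| := abs_add_le _ _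
      _ ≤ 2 := by rw [abs_one]; linarith [hq x]
  -- the quantities
  obtain ⟨A, hA⟩ : ∃ A : ι → ℝ, ∀ i, A i = ∫ x in K ∩ cell y ψ i,
    Real.exp (-(lam / 2 * ‖x‖ ^ 2)) := ⟨_, fun i => rfl⟩
  obtain ⟨B, hB⟩ : ∃ B : ι → ℝ, ∀ i, B i = ∫ x in K ∩ cell y ψ' i,
    Real.exp (-(lam / 2 * ‖x‖ ^ 2)) := ⟨_, fun i => rfl⟩
  obtain ⟨H, hH⟩ : ∃ H : ι → ℝ, ∀ i, H i = ∫ x in K ∩ cell y (fun j => (ψ j + ψ' j) / 2) i,
    Real.exp (-(lam / 2 * ‖x‖ ^ 2)) := ⟨_, fun i => rfl⟩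
  obtain ⟨G, hG⟩ : ∃ G : ι → ℝ, ∀ i, G i = ∫ x in K ∩ cell y ψ' i,
    Real.exp (-(lam / 2 * ‖x‖ ^ 2) + lam / 4 * (max (‖x - c i‖ - δ) 0) ^ 2) := ⟨_, fun i => rfl⟩
  have hsumA : ∑ i, A i = ∫ x in K, Real.exp (-(lam / 2 * ‖x‖ ^ 2)) := by
    simp only [hA]; exact sum_setIntegral_cell K hKm y hy ψ _ hIexp
  have hsumB : ∑ i, B i = ∫ x in K, Real.exp (-(lam / 2 * ‖x‖ ^ 2)) := by
    simp only [hB]; exact sum_setIntegral_cell K hKm y hy ψ' _ hIexp
  have hsumH : ∑ i, H i = ∫ x in K, Real.exp (-(lam / 2 * ‖x‖ ^ 2)) := by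
    simp only [hH]; exact sum_setIntegral_cell K hKm y hy _ _ hIexp
  have hsumm : ∑ i, m i = volume.real K := by
    have h1 : ∑ i, ∫ x in K ∩ cell y ψ i, (1 : ℝ) = ∫ x in K, (1 : ℝ) :=
      sum_setIntegral_cell K hKm y hy ψ _ (hint _ measurable_const 1 (by simp))
    simp only [setIntegral_const, smul_eq_mul, mul_one] at h1
    rw [← h1]
    exact Finset.sum_congr rfl fun i _ => (hP1 i).symm
  have hsumQ : ∑ i, ∫ x in K ∩ cell y ψ' i, q x ^ 2 = ∫ x in K, q x ^ 2 :=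
    sum_setIntegral_cell K hKm y hy ψ' _ hIq2
  have hA0 : ∀ i, m i / 2 ≤ A i := by
    intro i
    rw [hA i]
    calc m i / 2 = ∫ x in K ∩ cell y ψ i, (1 / 2 : ℝ) := by
          rw [setIntegral_const, hP1 i, smul_eq_mul]; ring
      _ ≤ _ := setIntegral_mono_on (integrableOn_const (hPfin ψ i).ne)
          (hIexp.mono_set Set.inter_subset_left) (hmP ψ i) fun x hx => hexpV x hx.1
  have hApos : ∀ i, 0 < A i := fun i => by linarith [hA0 i, hm i]
  have hG0 : ∀ i, 0 < G i := by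
    intro i
    have h1 : m i ≤ 4 * G i := by
      rw [← hP3 i, hG i, ← integral_const_mul]
      refine setIntegral_mono_on (hIq.mono_set Set.inter_subset_left)
        (((hIg i).mono_set Set.inter_subset_left).const_mul 4) (hmP ψ' i) fun x hx => ?_
      have h2 := hexpV x hx.1
      have h3 : Real.exp (-(lam / 2 * ‖x‖ ^ 2)) ≤
          Real.exp (-(lam / 2 * ‖x‖ ^ 2) + lam / 4 * (max (‖x - c i‖ - δ) 0) ^ 2) := by
        refine Real.exp_le_exp.mpr ?_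
        have : 0 ≤ lam / 4 * (max (‖x - c i‖ - δ) 0) ^ 2 := by positivity
        linarith
      have h4 := (abs_le.mp (hq x)).2
      linarith
    linarith [hm i]
  have hHnn : ∀ i, 0 ≤ H i := by
    intro i
    rw [hH i]
    exact setIntegral_nonneg (hmP _ i) fun x _ => (Real.exp_pos _).le
  -- Prékopa–Leindler for each cell
  have hPL : ∀ i, A i * G i ≤ H i ^ 2 := by
    intro i
    have h1 := pl_cell lam δ hlam0.le (K ∩ cell y ψ i) (K ∩ cell y ψ' i)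
      (K ∩ cell y (fun j => (ψ j + ψ' j) / 2) i) (hmP _ i) (hmP _ i) (hmP _ i) (c i) (hP2 i) ?_
    · rw [← ofReal_integral_eq_lintegral_ofReal (hIexp.mono_set Set.inter_subset_left)
          (Filter.Eventually.of_forall fun x => (Real.exp_pos _).le),
        ← ofReal_integral_eq_lintegral_ofReal ((hIg i).mono_set Set.inter_subset_left)
          (Filter.Eventually.of_forall fun x => (Real.exp_pos _).le),
        ← ofReal_integral_eq_lintegral_ofReal (hIexp.mono_set Set.inter_subset_left)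
          (Filter.Eventually.of_forall fun x => (Real.exp_pos _).le), ← hA i, ← hG i, ← hH i,
        ← ENNReal.ofReal_mul (hApos i).le, ← ENNReal.ofReal_pow (hHnn i)] at h1
      exact (ENNReal.ofReal_le_ofReal_iff (by positivity)).mp h1
    · intro x hx x' hx'
      refine ⟨?_, midpoint_mem_cell y ψ ψ' i hx.2 hx'.2⟩
      have := hconv hx.1 hx'.1 (show (0 : ℝ) ≤ 1 / 2 by norm_num)
        (show (0 : ℝ) ≤ 1 / 2 by norm_num) (by norm_num)
      rwa [← smul_add] at this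
  -- the inequality for each cell
  have hcell : ∀ i, lam / 32 * ∫ x in K ∩ cell y ψ' i, (1 + q x) * ‖x - c i‖ ^ 2 ≤
      2 * H i - A i - B i + 5 * lam / 32 * δ ^ 2 * m i +
        2 * ∫ x in K ∩ cell y ψ' i, q x ^ 2 := by
    intro i
    have hb : 1 / 2 ≤ A i / m i := by
      rw [le_div_iff₀ (hm i)]; linarith [hA0 i]
    exact cell_ineq lam R δ (K ∩ cell y ψ' i) (hmP ψ' i) (c i) q (m i) (A i) (B i) (G i) (H i)
      (hm i) (hApos i) (hG0 i) (hHnn i) (hPL i) hlam0 hlamR hδ0 hb hq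
      (fun x hx => beta_bound lam R δ hlam0 hlamR hR hδ0 hδR (K ∩ cell y ψ i) (hPfin ψ i) (c i) x
        (hc i) (hKn x hx.1) (fun z hz => hKn z hz.1) (hP2 i) (m i) (A i) (hm i) (hP1 i)
        (hIexp.mono_set Set.inter_subset_left) (hA i))
      ((hIg i).mono_set Set.inter_subset_left) (hIq.mono_set Set.inter_subset_left)
      (hIq2.mono_set Set.inter_subset_left) ((hIs i).mono_set Set.inter_subset_left)
      (hIexp.mono_set Set.inter_subset_left) (hG i) (hB i) (hP3 i)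
  -- sum up
  have htot := Finset.sum_le_sum fun i (_ : i ∈ Finset.univ) => hcell i
  rw [← Finset.mul_sum, Finset.sum_add_distrib, Finset.sum_add_distrib, Finset.sum_sub_distrib,
    Finset.sum_sub_distrib, ← Finset.mul_sum, ← Finset.mul_sum, ← Finset.mul_sum, hsumA, hsumB,
    hsumH, hsumm, hsumQ] at htot
  have hQ0 : 0 ≤ ∫ x in K, q x ^ 2 := setIntegral_nonneg hKm fun x _ => sq_nonneg _
  generalize (∑ i, ∫ x in K ∩ cell y ψ' i, (1 + q x) * ‖x - c i‖ ^ 2) = S at htot ⊢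
  generalize (∫ x in K, q x ^ 2) = Q at htot hQ0 ⊢
  have hv0 : 0 ≤ volume.real K := measureReal_nonneg
  have h1 : lam * S ≤ lam * (65536 * R ^ 2 * Q + 5 * δ ^ 2 * volume.real K) := by
    have h2 : lam * (65536 * R ^ 2 * Q) = 64 * Q := by
      have : lam * (65536 * R ^ 2 * Q) = 65536 * (lam * R ^ 2) * Q := by ring
      rw [this, hlamR]; ring
    nlinarith
  have h3 := le_of_mul_le_mul_left h1 hlam0
  have h4 : δ ^ 2 ≤ R * δ := by nlinarith
  nlinarith [mul_nonneg hδ0 hv0, mul_nonneg (sq_nonneg R) (mul_nonneg hδ0 hv0),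
    mul_le_mul_of_nonneg_right h4 hv0, mul_nonneg hR.le hQ0]

end P074
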