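import Vale.Agent.P074.Defs

open MeasureTheory
open scoped ENNReal NNReal RealInnerProductSpace

namespace P074

variable {d : ℕ}

/-- Shell estimate: few points of a convex body leave it under a small translation. -/
theorem shell (K : Set (EuclideanSpace ℝ (Fin d))) (hK : IsCompact K) (hconv : Convex ℝ K)
    (hint : (interior K).Nonempty) : ∃ C : ℝ, 0 < C ∧ ∀ v : EuclideanSpace ℝ (Fin d),
      volume.real {x ∈ K | x + v ∉ K} ≤ C * ‖v‖ := by
  obtain ⟨x₀, hx₀⟩ := hint
  obtain ⟨r₀, hr₀, hball⟩ := Metric.nhds_basis_closedBall.mem_iff.mp (mem_interior_iff_mem_nhds.mp hx₀)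
  have hfin : volume K ≠ ∞ := hK.measure_lt_top.ne
  set V : ℝ := volume.real K with hV
  have hV0 : 0 ≤ V := measureReal_nonneg
  have hx₀K : x₀ ∈ K := interior_subset hx₀
  refine ⟨(d + 1) * (V + 1) / r₀, by positivity, fun v => ?_⟩
  by_cases hv : ‖v‖ ≤ r₀
  · by_cases hv0 : v = 0
    · subst hv0
      have : {x ∈ K | x + 0 ∉ K} = ∅ := by
        ext x; simp
      rw [this]; simp
    have hvpos : 0 < ‖v‖ := norm_pos_iff.mpr hv0
    set θ : ℝ := ‖v‖ / r₀ with hθ
    have hθ0 : 0 < θ := div_pos hvpos hr₀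
    have hθ1 : θ ≤ 1 := (div_le_one hr₀).mpr hv
    -- the shrunken body
    set Kθ : Set (EuclideanSpace ℝ (Fin d)) := AffineMap.homothety x₀ (1 - θ) '' K with hKθ
    have hmem : ∀ x ∈ K, AffineMap.homothety x₀ (1 - θ) x = (1 - θ) • x + θ • x₀ := by
      intro x _
      simp only [AffineMap.homothety_apply, vsub_eq_sub, vadd_eq_add]
      module
    have hsub : Kθ ⊆ {x ∈ K | x + v ∈ K} := by
      rintro _ ⟨x, hx, rfl⟩
      rw [hmem x hx]
      constructor
      · exact hconv hx hx₀K (by linarith) hθ0.le (by ring)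
      · have hy : x₀ + θ⁻¹ • v ∈ K := by
          apply hball
          rw [Metric.mem_closedBall, dist_eq_norm, add_sub_cancel_left, norm_smul, norm_inv,
            Real.norm_of_nonneg hθ0.le, hθ, inv_div, div_mul_cancel₀ _ hvpos.ne']
        have := hconv hx hy (by linarith : (0 : ℝ) ≤ 1 - θ) hθ0.le (by ring)
        have e : (1 - θ) • x + θ • (x₀ + θ⁻¹ • v) = (1 - θ) • x + θ • x₀ + v := by
          rw [smul_add, smul_smul, mul_inv_cancel₀ hθ0.ne', one_smul]; abel
        rwa [e] at this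
    have hvolθ : volume.real Kθ = (1 - θ) ^ d * V := by
      rw [hKθ, Measure.real, Measure.addHaar_image_homothety, ENNReal.toReal_mul,
        ENNReal.toReal_ofReal (by positivity), finrank_euclideanSpace_fin, abs_pow,
        abs_of_nonneg (by linarith : (0 : ℝ) ≤ 1 - θ)]
      rfl
    have hbern : 1 - d * θ ≤ (1 - θ) ^ d := by
      have := one_add_mul_le_pow (show (-2 : ℝ) ≤ -θ by linarith) d
      have e : (1 : ℝ) + d * -θ = 1 - d * θ := by ring
      rw [e] at this
      exact this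
    have hsplit : volume.real {x ∈ K | x + v ∉ K} + volume.real {x ∈ K | x + v ∈ K} = V := by
      have hm : MeasurableSet ((fun x => x + v) ⁻¹' K) :=
        (measurable_add_const v) hK.measurableSet
      have := measureReal_inter_add_sdiff (μ := volume) (s := K) hm hfin
      have e1 : K ∩ (fun x => x + v) ⁻¹' K = {x ∈ K | x + v ∈ K} := rfl
      have e2 : K \ (fun x => x + v) ⁻¹' K = {x ∈ K | x + v ∉ K} := rfl
      rw [e1, e2] at this
      linarith
    have hle : volume.real Kθ ≤ volume.real {x ∈ K | x + v ∈ K} :=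
      measureReal_mono hsub (ne_top_of_le_ne_top hfin (measure_mono fun x hx => hx.1))
    have h1 : volume.real {x ∈ K | x + v ∉ K} ≤ d * θ * V := by
      have h2 : (1 - d * θ) * V ≤ (1 - θ) ^ d * V := mul_le_mul_of_nonneg_right hbern hV0
      rw [← hvolθ] at h2
      linarith
    refine h1.trans ?_
    rw [hθ]
    have : (d : ℝ) * (‖v‖ / r₀) * V = (d * V / r₀) * ‖v‖ := by ring
    rw [this]
    have h3 : (d : ℝ) * V ≤ (d + 1) * (V + 1) := by nlinarith [Nat.cast_nonneg (α := ℝ) d]
    gcongr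
  · have h1 : volume.real {x ∈ K | x + v ∉ K} ≤ V := measureReal_mono (fun x hx => hx.1) hfin
    have h2 : 1 ≤ ‖v‖ / r₀ := (one_le_div hr₀).mpr (le_of_lt (not_le.mp hv))
    have h3 : (1 : ℝ) ≤ d + 1 := by linarith [Nat.cast_nonneg (α := ℝ) d]
    calc volume.real {x ∈ K | x + v ∉ K} ≤ V := h1
      _ ≤ 1 * (V + 1) * 1 := by linarith
      _ ≤ (d + 1) * (V + 1) * (‖v‖ / r₀) := by gcongr
      _ = (d + 1) * (V + 1) / r₀ * ‖v‖ := by ring

end P074
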