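import Vale.Agent.P074.ContFour
import Vale.Agent.P074.Shell

open MeasureTheory
open scoped ENNReal NNReal RealInnerProductSpace

namespace P074

variable {d : ℕ}

section Shift

variable (K A : Set (EuclideanSpace ℝ (Fin d))) (v : EuclideanSpace ℝ (Fin d))

open Classical in
/-- move the points of `A` by `v` -/
noncomputable def shift (x : EuclideanSpace ℝ (Fin d)) : EuclideanSpace ℝ (Fin d) :=
  if x ∈ A then x + v else x

/-- the corresponding density perturbation -/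
noncomputable def qq (x : EuclideanSpace ℝ (Fin d)) : ℝ :=
  A.indicator (fun _ => 1) (x - v) - A.indicator (fun _ => 1) x

lemma measurable_shift (hA : MeasurableSet A) : Measurable (shift A v) := by
  unfold shift
  exact Measurable.ite hA (measurable_add_const v) measurable_id

lemma measurable_qq (hA : MeasurableSet A) : Measurable (qq A v) := by
  unfold qq
  exact ((measurable_const.indicator hA).comp (measurable_sub_const v)).sub
    (measurable_const.indicator hA)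

lemma abs_qq_le (x : EuclideanSpace ℝ (Fin d)) : |qq A v x| ≤ 1 := by
  classical
  unfold qq
  by_cases h1 : x - v ∈ A <;> by_cases h2 : x ∈ A <;> simp [h1, h2]

lemma qq_sq_le (x : EuclideanSpace ℝ (Fin d)) :
    qq A v x ^ 2 ≤ A.indicator (fun _ => (1 : ℝ)) (x - v) + A.indicator (fun _ => (1 : ℝ)) x := by
  classical
  unfold qq
  by_cases h1 : x - v ∈ A <;> by_cases h2 : x ∈ A <;> simp [h1, h2]

lemma one_add_qq (x : EuclideanSpace ℝ (Fin d)) :
    ENNReal.ofReal (1 + qq A v x) =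
      A.indicator (fun _ => (1 : ℝ≥0∞)) (x - v) + Aᶜ.indicator (fun _ => (1 : ℝ≥0∞)) x := by
  classical
  unfold qq
  by_cases h1 : x - v ∈ A <;> by_cases h2 : x ∈ A <;> simp [h1, h2]
  norm_num

lemma vol_shift (s : Set (EuclideanSpace ℝ (Fin d))) :
    volume {x | x - v ∈ s} = volume s := by
  have : {x | x - v ∈ s} = (fun x => x + (-v)) ⁻¹' s := by
    ext x; simp [sub_eq_add_neg]
  rw [this, measure_preimage_add_right]

lemma map_shift (hK : MeasurableSet K) (hA : MeasurableSet A) (hAK : A ⊆ K)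
    (hAv : ∀ x ∈ A, x + v ∈ K) :
    Measure.map (shift A v) (volume.restrict K) = pert K (qq A v) := by
  classical
  ext s hs
  rw [Measure.map_apply (measurable_shift A v hA) hs, pert_apply K _ hs,
    Measure.restrict_apply ((measurable_shift A v hA) hs)]
  simp only [one_add_qq]
  have m1 : Measurable fun x => A.indicator (fun _ => (1 : ℝ≥0∞)) (x - v) :=
    (measurable_const.indicator hA).comp (measurable_sub_const v)
  rw [lintegral_add_left m1]
  have e1 : ∫⁻ x in K ∩ s, A.indicator (fun _ => (1 : ℝ≥0∞)) (x - v) =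
      volume {x | x - v ∈ A ∩ {y | y + v ∈ s}} := by
    have : (fun x => A.indicator (fun _ => (1 : ℝ≥0∞)) (x - v))
        = ({x | x - v ∈ A} : Set (EuclideanSpace ℝ (Fin d))).indicator (fun _ => (1 : ℝ≥0∞)) := by
      ext x; by_cases h : x - v ∈ A <;> simp [h]
    have hm : MeasurableSet {x : EuclideanSpace ℝ (Fin d) | x - v ∈ A} :=
      (measurable_sub_const v) hA
    rw [this, lintegral_indicator_const hm, one_mul, Measure.restrict_apply hm]
    congr 1
    ext x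
    simp only [Set.mem_inter_iff, Set.mem_ofPred_eq, sub_add_cancel]
    constructor
    · rintro ⟨h1, h2, h3⟩; exact ⟨h1, h3⟩
    · rintro ⟨h1, h3⟩
      refine ⟨h1, ?_, h3⟩
      have := hAv _ h1
      simpa using this
  have e2 : ∫⁻ x in K ∩ s, Aᶜ.indicator (fun _ => (1 : ℝ≥0∞)) x = volume ((K ∩ s) \ A) := by
    rw [lintegral_indicator_const hA.compl, one_mul, Measure.restrict_apply hA.compl]
    congr 1
    ext x
    simp only [Set.mem_inter_iff, Set.mem_compl_iff, Set.mem_sdiff]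
    tauto
  rw [e1, e2, vol_shift v]
  have e3 : (shift A v) ⁻¹' s ∩ K = (A ∩ {y | y + v ∈ s}) ∪ ((K ∩ s) \ A) := by
    ext x
    simp only [Set.mem_inter_iff, Set.mem_preimage, Set.mem_union, Set.mem_ofPred_eq,
      Set.mem_sdiff, shift]
    by_cases h : x ∈ A
    · simp only [h, if_true, true_and, not_true, and_false, or_false]
      exact ⟨fun h1 => h1.1, fun h1 => ⟨h1, hAK h⟩⟩
    · simp only [h, if_false, false_and, false_or, not_false_iff, and_true]
      exact ⟨fun h1 => ⟨h1.2, h1.1⟩, fun h1 => ⟨h1.2, h1.1⟩⟩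
  rw [e3, measure_union]
  · rw [Set.disjoint_left]
    rintro x ⟨h1, _⟩ ⟨_, h2⟩
    exact h2 h1
  · exact (hK.inter hs).diff hA

lemma integral_ind_shift (hK : IsCompact K) (hA : MeasurableSet A)
    (hAv : ∀ x ∈ A, x + v ∈ K) :
    IntegrableOn (fun x => A.indicator (fun _ => (1 : ℝ)) (x - v)) K ∧
    ∫ x in K, A.indicator (fun _ => (1 : ℝ)) (x - v) = volume.real A := by
  have e : (fun x => A.indicator (fun _ => (1 : ℝ)) (x - v))
      = ({x | x - v ∈ A} : Set (EuclideanSpace ℝ (Fin d))).indicator (fun _ => (1 : ℝ)) := by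
    ext x; by_cases h : x - v ∈ A <;> simp [h]
  have hm : MeasurableSet {x : EuclideanSpace ℝ (Fin d) | x - v ∈ A} :=
    (measurable_sub_const v) hA
  have hfin : IsFiniteMeasure (volume.restrict K) := ⟨by
    rw [Measure.restrict_apply_univ]; exact hK.measure_lt_top⟩
  rw [e]
  refine ⟨(integrable_const (1 : ℝ)).indicator hm, ?_⟩
  rw [integral_indicator_const _ hm, smul_eq_mul, mul_one, Measure.real,
    Measure.restrict_apply hm]
  have : {x : EuclideanSpace ℝ (Fin d) | x - v ∈ A} ∩ K = {x | x - v ∈ A} := by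
    ext x
    simp only [Set.mem_inter_iff, Set.mem_ofPred_eq, and_iff_left_iff_imp]
    intro h
    have := hAv _ h
    simpa using this
  rw [this, vol_shift v]; rfl

lemma integral_ind (hK : IsCompact K) (hA : MeasurableSet A) (hAK : A ⊆ K) :
    IntegrableOn (A.indicator (fun _ => (1 : ℝ))) K ∧
    ∫ x in K, A.indicator (fun _ => (1 : ℝ)) x = volume.real A := by
  have hfin : IsFiniteMeasure (volume.restrict K) := ⟨by
    rw [Measure.restrict_apply_univ]; exact hK.measure_lt_top⟩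
  refine ⟨(integrable_const (1 : ℝ)).indicator hA, ?_⟩
  rw [integral_indicator_const _ hA, smul_eq_mul, mul_one, Measure.real,
    Measure.restrict_apply hA, Set.inter_eq_left.mpr hAK]; rfl

end Shift

/-- translation defect of the integral of a bounded monotone map -/
lemma defect (K : Set (EuclideanSpace ℝ (Fin d))) (hK : IsCompact K) (Cs : ℝ)
    (hshell : ∀ v : EuclideanSpace ℝ (Fin d), volume.real {x ∈ K | x + v ∉ K} ≤ Cs * ‖v‖)
    (L : ℝ) (hL : 0 ≤ L) (g : EuclideanSpace ℝ (Fin d) → ℝ) (hg : Measurable g)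
    (hgL : ∀ᵐ x ∂(volume.restrict K), |g x| ≤ L) (v : EuclideanSpace ℝ (Fin d)) :
    ∫ x in {x ∈ K | x + v ∈ K}, (g (x + v) - g x) ≤ 2 * L * Cs * ‖v‖ := by
  have hfin : IsFiniteMeasure (volume.restrict K) := ⟨by
    rw [Measure.restrict_apply_univ]; exact hK.measure_lt_top⟩
  have hgi : IntegrableOn g K := Integrable.of_bound hg.aestronglyMeasurable L hgL
  have hmD : MeasurableSet {x ∈ K | x + v ∈ K} :=
    hK.measurableSet.inter ((measurable_add_const v) hK.measurableSet)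
  have hmD' : MeasurableSet {x ∈ K | x + (-v) ∈ K} :=
    hK.measurableSet.inter ((measurable_add_const (-v)) hK.measurableSet)
  have hDK : {x ∈ K | x + v ∈ K} ⊆ K := fun x hx => hx.1
  have hDK' : {x ∈ K | x + (-v) ∈ K} ⊆ K := fun x hx => hx.1
  have hmp := measurePreserving_add_right (volume : Measure (EuclideanSpace ℝ (Fin d))) v
  have hpre : (fun x => x + v) ⁻¹' {x ∈ K | x + (-v) ∈ K} = {x ∈ K | x + v ∈ K} := by
    ext x
    simp only [Set.mem_preimage, Set.mem_ofPred_eq, add_neg_cancel_right]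
    exact ⟨fun h => ⟨h.2, h.1⟩, fun h => ⟨h.2, h.1⟩⟩
  have e1 : ∫ x in {x ∈ K | x + v ∈ K}, g (x + v) = ∫ x in {x ∈ K | x + (-v) ∈ K}, g x := by
    rw [← hpre]
    exact hmp.setIntegral_preimage_emb (MeasurableEquiv.addRight v).measurableEmbedding g _
  have hi1 : IntegrableOn (fun x => g (x + v)) {x ∈ K | x + v ∈ K} := by
    rw [← hpre]
    exact (hmp.integrableOn_comp_preimage (MeasurableEquiv.addRight v).measurableEmbedding).mpr
      (hgi.mono_set hDK')
  rw [integral_sub hi1 (hgi.mono_set hDK), e1]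
  have s1 : ∫ x in K, g x = (∫ x in {x ∈ K | x + v ∈ K}, g x) + ∫ x in K \ {x ∈ K | x + v ∈ K}, g x := by
    rw [← integral_inter_add_sdiff hmD hgi, Set.inter_eq_right.mpr hDK]
  have s2 : ∫ x in K, g x = (∫ x in {x ∈ K | x + (-v) ∈ K}, g x)
      + ∫ x in K \ {x ∈ K | x + (-v) ∈ K}, g x := by
    rw [← integral_inter_add_sdiff hmD' hgi, Set.inter_eq_right.mpr hDK']
  have hb : ∀ D : Set (EuclideanSpace ℝ (Fin d)), D ⊆ K → MeasurableSet D →
      |∫ x in D, g x| ≤ L * volume.real D := by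
    intro D hD hDm
    have h1 : ∀ᵐ x ∂volume, x ∈ D → ‖g x‖ ≤ L := by
      have := (ae_restrict_iff' hK.measurableSet).mp hgL
      filter_upwards [this] with x hx hxD using hx (hD hxD)
    have h2 : volume D < ∞ := (measure_mono hD).trans_lt hK.measure_lt_top
    exact norm_setIntegral_le_of_norm_le_const_ae' h2 h1
  have d1 : K \ {x ∈ K | x + v ∈ K} = {x ∈ K | x + v ∉ K} := by
    ext x; simp only [Set.mem_sdiff, Set.mem_ofPred_eq]; tauto
  have d2 : K \ {x ∈ K | x + (-v) ∈ K} = {x ∈ K | x + (-v) ∉ K} := by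
    ext x; simp only [Set.mem_sdiff, Set.mem_ofPred_eq]; tauto
  have b1 := abs_le.mp (hb _ Set.sdiff_subset (hK.measurableSet.diff hmD))
  have b2 := abs_le.mp (hb _ Set.sdiff_subset (hK.measurableSet.diff hmD'))
  rw [d1] at b1 s1
  rw [d2] at b2 s2
  have t1 : L * volume.real {x ∈ K | x + v ∉ K} ≤ L * (Cs * ‖v‖) :=
    mul_le_mul_of_nonneg_left (hshell v) hL
  have t2 : L * volume.real {x ∈ K | x + (-v) ∉ K} ≤ L * (Cs * ‖v‖) := by
    have := hshell (-v)
    rw [norm_neg] at this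
    exact mul_le_mul_of_nonneg_left this hL
  linarith [b1.1, b1.2, b2.1, b2.2]


/-- volume of the set where the translate of a monotone function is much larger -/
lemma jump_vol (K : Set (EuclideanSpace ℝ (Fin d))) (hK : IsCompact K) (Cs : ℝ)
    (hshell : ∀ v : EuclideanSpace ℝ (Fin d), volume.real {x ∈ K | x + v ∉ K} ≤ Cs * ‖v‖)
    (L : ℝ) (hL : 0 ≤ L) (g : EuclideanSpace ℝ (Fin d) → ℝ) (hgm : Measurable g)
    (hgL : ∀ᵐ x ∂(volume.restrict K), |g x| ≤ L) (v : EuclideanSpace ℝ (Fin d))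
    (hmono : ∀ᵐ x ∂(volume : Measure (EuclideanSpace ℝ (Fin d))), x ∈ K → x + v ∈ K →
      g x ≤ g (x + v)) (r : ℝ) (hr : 0 < r) :
    volume.real {x ∈ {x ∈ K | x + v ∈ K} | r / 2 ≤ g (x + v) - g x} ≤
      4 * L * Cs * ‖v‖ / r := by
  have hmv : Measurable fun x : EuclideanSpace ℝ (Fin d) => x + v := measurable_add_const v
  have hquasi := (measurePreserving_add_right (volume : Measure (EuclideanSpace ℝ (Fin d))) v)
  set D : Set (EuclideanSpace ℝ (Fin d)) := {x ∈ K | x + v ∈ K} with hD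
  have hDm : MeasurableSet D := hK.measurableSet.inter (hmv hK.measurableSet)
  have hgd : Measurable fun x => g (x + v) - g x := (hgm.comp hmv).sub hgm
  have hdef := defect K hK Cs hshell L hL g hgm hgL v
  have hnn : 0 ≤ᵐ[volume.restrict D] fun x => g (x + v) - g x := by
    rw [Filter.EventuallyLE, ae_restrict_iff' hDm]
    filter_upwards [hmono] with x hx hxD
    have := hx hxD.1 hxD.2
    simp only [Pi.zero_apply]; linarith
  have hint2 : IntegrableOn (fun x => g (x + v) - g x) D := by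
    have hb : ∀ᵐ x ∂(volume.restrict D), ‖g (x + v) - g x‖ ≤ 2 * L := by
      rw [ae_restrict_iff' hDm]
      have k1 := (ae_restrict_iff' hK.measurableSet).mp hgL
      have k2 := hquasi.quasiMeasurePreserving.ae k1
      filter_upwards [k1, k2] with x h1 h2 hxD
      have h3 := abs_le.mp (h1 hxD.1)
      have h4 := abs_le.mp (h2 hxD.2)
      rw [Real.norm_eq_abs, abs_le]
      constructor <;> linarith
    have hfD : IsFiniteMeasure (volume.restrict D) := ⟨by
      rw [Measure.restrict_apply_univ]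
      exact (measure_mono (fun x hx => hx.1)).trans_lt hK.measure_lt_top⟩
    exact Integrable.of_bound hgd.aestronglyMeasurable (2 * L) hb
  have hmark := mul_meas_ge_le_integral_of_nonneg hnn hint2 (r / 2)
  have e1 : (volume.restrict D).real {x | r / 2 ≤ g (x + v) - g x} =
      volume.real {x ∈ D | r / 2 ≤ g (x + v) - g x} := by
    have hmm : MeasurableSet {x | r / 2 ≤ g (x + v) - g x} :=
      measurableSet_le measurable_const hgd
    rw [Measure.real, Measure.real, Measure.restrict_apply hmm]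
    congr 2
    ext x
    simp only [Set.mem_inter_iff, Set.mem_ofPred_eq]
    exact and_comm
  rw [e1] at hmark
  rw [le_div_iff₀ hr]
  linarith

/-- lower bound for the four-point functional at a translated piece -/
lemma low_bound (K : Set (EuclideanSpace ℝ (Fin d))) (hK : IsCompact K) (R L : ℝ) (hR : 0 < R)
    (hKR : K ⊆ Metric.closedBall 0 R) (S : EuclideanSpace ℝ (Fin d) → EuclideanSpace ℝ (Fin d))
    (hS : Measurable S) (hSL : ∀ᵐ x ∂(volume.restrict K), ‖S x‖ ≤ L)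
    (φ₀ : EuclideanSpace ℝ (Fin d) → ℝ) (hφ₀ : Continuous φ₀)
    (A' : Set (EuclideanSpace ℝ (Fin d))) (hA'm : MeasurableSet A') (hA'K : A' ⊆ K)
    (v : EuclideanSpace ℝ (Fin d)) (hA'v : ∀ x ∈ A', x + v ∈ K) (c : ℝ)
    (hc : ∀ᵐ x ∂(volume.restrict K), x ∈ A' → c ≤ ⟪v, S x⟫ - (φ₀ (x + v) - φ₀ x)) :
    c * volume.real A' ≤ ((∫ x in K, ⟪shift A' v x, S x⟫) - ∫ x in K, ⟪x, S x⟫)
        - ((∫ x in K, φ₀ (shift A' v x)) - ∫ x in K, φ₀ x) := by
  have hfin : IsFiniteMeasure (volume.restrict K) := ⟨by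
    rw [Measure.restrict_apply_univ]; exact hK.measure_lt_top⟩
  obtain ⟨i2, j2⟩ := integral_ind K A' hK hA'm hA'K
  have hshm := measurable_shift A' v hA'm
  have hshK : ∀ x ∈ K, shift A' v x ∈ K := fun x hx => by
    unfold shift; split_ifs with h
    · exact hA'v x h
    · exact hx
  have hin : ∀ ζ : EuclideanSpace ℝ (Fin d) → EuclideanSpace ℝ (Fin d), Measurable ζ →
      (∀ x ∈ K, ζ x ∈ K) → IntegrableOn (fun x => ⟪ζ x, S x⟫) K := by
    intro ζ hζ hζK
    refine Integrable.of_bound (hζ.inner hS).aestronglyMeasurable (R * L) ?_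
    filter_upwards [hSL, ae_restrict_mem hK.measurableSet] with x hx hx'
    have h1 : ‖ζ x‖ ≤ R := by simpa using hKR (hζK x hx')
    exact (norm_inner_le_norm _ _).trans (mul_le_mul h1 hx (norm_nonneg _) hR.le)
  have hphi : ∀ ζ : EuclideanSpace ℝ (Fin d) → EuclideanSpace ℝ (Fin d), Measurable ζ →
      (∀ x ∈ K, ζ x ∈ K) → IntegrableOn (fun x => φ₀ (ζ x)) K := by
    intro ζ hζ hζK
    obtain ⟨Bd, hBd⟩ := hK.exists_bound_of_continuousOn hφ₀.continuousOn
    refine Integrable.of_bound (hφ₀.measurable.comp hζ).aestronglyMeasurable Bd ?_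
    filter_upwards [ae_restrict_mem hK.measurableSet] with x hx using hBd _ (hζK x hx)
  have k1 : IntegrableOn (fun x => ⟪shift A' v x, S x⟫) K := hin _ hshm hshK
  have k2 : IntegrableOn (fun x => ⟪x, S x⟫) K := hin id measurable_id (fun x hx => hx)
  have k3 : IntegrableOn (fun x => φ₀ (shift A' v x)) K := hphi _ hshm hshK
  have k4 : IntegrableOn (fun x => φ₀ x) K := hphi id measurable_id (fun x hx => hx)
  have k12 : IntegrableOn (fun x => ⟪shift A' v x, S x⟫ - ⟪x, S x⟫) K := k1.sub k2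
  have k34 : IntegrableOn (fun x => φ₀ (shift A' v x) - φ₀ x) K := k3.sub k4
  have k5 : IntegrableOn (fun x => ⟪shift A' v x, S x⟫ - ⟪x, S x⟫ -
    (φ₀ (shift A' v x) - φ₀ x)) K := k12.sub k34
  rw [← integral_sub k1 k2, ← integral_sub k3 k4, ← integral_sub k12 k34]
  have e1 : c * volume.real A' = ∫ x in K, c * A'.indicator (fun _ => (1 : ℝ)) x := by
    rw [integral_const_mul, j2]
  rw [e1]
  refine integral_mono_ae (i2.const_mul _) k5 ?_
  filter_upwards [hc, ae_restrict_mem hK.measurableSet] with x hx hxK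
  by_cases hxA : x ∈ A'
  · have h1 := hx hxA
    have e2 : shift A' v x = x + v := by unfold shift; rw [if_pos hxA]
    rw [Set.indicator_of_mem hxA, e2, inner_add_left, mul_one]
    linarith
  · have e2 : shift A' v x = x := by unfold shift; rw [if_neg hxA]
    rw [Set.indicator_of_notMem hxA, e2]
    simp

lemma level_algebra (a a' r Cs L C₁ V w2 q2 τ : ℝ) (ha : 0 < a) (ha' : a / 2 ≤ a') (hr : 0 < r)
    (hCs : 0 < Cs) (hL : 0 < L) (hC₁ : 0 ≤ C₁) (hV : 0 < V) (hw2 : 0 ≤ w2)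
    (hτ : τ = a * r / (12 * Cs * L)) (hq2 : q2 ≤ 2 * a')
    (hX : τ * (r / 2) * a' ≤ C₁ * Real.sqrt q2 * Real.sqrt (V * w2)) :
    a ^ 3 * r ^ 4 ≤ 16 * (12 * Cs * L) ^ 2 * C₁ ^ 2 * V * w2 := by
  have hτ0 : 0 < τ := by rw [hτ]; positivity
  have ha'pos : 0 < a' := by linarith
  have hsq : τ * (r / 2) * a' ≤ C₁ * Real.sqrt (2 * a') * Real.sqrt (V * w2) := by
    refine hX.trans ?_
    have := Real.sqrt_le_sqrt hq2
    gcongr
  have hsq2 : (τ * (r / 2) * a') ^ 2 ≤ C₁ ^ 2 * (2 * a') * (V * w2) := by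
    have h0 : 0 ≤ τ * (r / 2) * a' := by positivity
    have h1 := pow_le_pow_left₀ h0 hsq 2
    have h2 : (C₁ * Real.sqrt (2 * a') * Real.sqrt (V * w2)) ^ 2
        = C₁ ^ 2 * (2 * a') * (V * w2) := by
      rw [mul_pow, mul_pow, Real.sq_sqrt (by positivity), Real.sq_sqrt (by positivity)]
    rwa [h2] at h1
  have hsq3 : τ ^ 2 * r ^ 2 * a' ≤ 8 * C₁ ^ 2 * V * w2 := by
    have h1 : (τ ^ 2 * r ^ 2 * a') * a' ≤ (8 * C₁ ^ 2 * V * w2) * a' := by
      have e1 : (τ ^ 2 * r ^ 2 * a') * a' = 4 * (τ * (r / 2) * a') ^ 2 := by ring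
      have e2 : (8 * C₁ ^ 2 * V * w2) * a' = 4 * (C₁ ^ 2 * (2 * a') * (V * w2)) := by ring
      rw [e1, e2]
      linarith
    exact le_of_mul_le_mul_right h1 ha'pos
  have hτ2 : τ ^ 2 * (12 * Cs * L) ^ 2 = a ^ 2 * r ^ 2 := by
    rw [hτ]; field_simp
  have h1 : a ^ 3 * r ^ 4 ≤ 2 * ((12 * Cs * L) ^ 2 * (τ ^ 2 * r ^ 2 * a')) := by
    have e1 : 2 * ((12 * Cs * L) ^ 2 * (τ ^ 2 * r ^ 2 * a')) =
        (τ ^ 2 * (12 * Cs * L) ^ 2) * r ^ 2 * (2 * a') := by ring
    rw [e1, hτ2]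
    have e2 : a ^ 3 * r ^ 4 = (a ^ 2 * r ^ 2) * r ^ 2 * a := by ring
    rw [e2]
    exact mul_le_mul_of_nonneg_left (by linarith) (by positivity)
  calc a ^ 3 * r ^ 4 ≤ 2 * ((12 * Cs * L) ^ 2 * (τ ^ 2 * r ^ 2 * a')) := h1
    _ ≤ 2 * ((12 * Cs * L) ^ 2 * (8 * C₁ ^ 2 * V * w2)) := by gcongr
    _ = 16 * (12 * Cs * L) ^ 2 * C₁ ^ 2 * V * w2 := by ring

/-- a.e. information at a translated pair of points -/
lemma mono_ae (K : Set (EuclideanSpace ℝ (Fin d))) (hK : IsCompact K)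
    (T : EuclideanSpace ℝ (Fin d) → EuclideanSpace ℝ (Fin d))
    (φ₀ : EuclideanSpace ℝ (Fin d) → ℝ)
    (hpT : ∀ᵐ x ∂(volume.restrict K), ∀ z, φ₀ x + ⟪T x, z - x⟫ ≤ φ₀ z)
    (e : EuclideanSpace ℝ (Fin d)) (τ : ℝ) (hτ0 : 0 < τ) :
    ∀ᵐ x ∂(volume : Measure (EuclideanSpace ℝ (Fin d))), x ∈ K → x + τ • e ∈ K →
      ⟪T x, e⟫ ≤ ⟪T (x + τ • e), e⟫ ∧ φ₀ (x + τ • e) - φ₀ x ≤ τ * ⟪T (x + τ • e), e⟫ := by
  have hquasi := (measurePreserving_add_right (volume : Measure (EuclideanSpace ℝ (Fin d)))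
    (τ • e))
  have h1 := (ae_restrict_iff' hK.measurableSet).mp hpT
  have hpT' : ∀ᵐ x ∂(volume : Measure (EuclideanSpace ℝ (Fin d))),
      x + τ • e ∈ K → ∀ z, φ₀ (x + τ • e) + ⟪T (x + τ • e), z - (x + τ • e)⟫ ≤ φ₀ z :=
    hquasi.quasiMeasurePreserving.ae h1
  filter_upwards [h1, hpT'] with x h1 h2 hx hxv
  have h3 := h1 hx (x + τ • e)
  have h4 := h2 hxv x
  have e3 : ⟪T x, x + τ • e - x⟫ = τ * ⟪T x, e⟫ := by
    rw [add_sub_cancel_left, inner_smul_right]
  have e4 : ⟪T (x + τ • e), x - (x + τ • e)⟫ = -(τ * ⟪T (x + τ • e), e⟫) := by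
    rw [show x - (x + τ • e) = -(τ • e) by abel, inner_neg_right, inner_smul_right]
  rw [e3] at h3
  rw [e4] at h4
  refine ⟨?_, by linarith⟩
  have h5 : τ * ⟪T x, e⟫ ≤ τ * ⟪T (x + τ • e), e⟫ := by linarith
  exact le_of_mul_le_mul_left h5 hτ0

/-- the good part of a level set keeps at least half of its volume -/
lemma good_part (K : Set (EuclideanSpace ℝ (Fin d))) (hK : IsCompact K) (Cs : ℝ) (hCs : 0 < Cs)
    (hshell : ∀ v : EuclideanSpace ℝ (Fin d), volume.real {x ∈ K | x + v ∉ K} ≤ Cs * ‖v‖)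
    (L : ℝ) (hL : 0 < L) (g : EuclideanSpace ℝ (Fin d) → ℝ) (hgm : Measurable g)
    (hgL : ∀ᵐ x ∂(volume.restrict K), |g x| ≤ L) (v : EuclideanSpace ℝ (Fin d))
    (hmono : ∀ᵐ x ∂(volume : Measure (EuclideanSpace ℝ (Fin d))), x ∈ K → x + v ∈ K →
      g x ≤ g (x + v)) (r : ℝ) (hr : 0 < r) (hrL : r ≤ 2 * L)
    (A : Set (EuclideanSpace ℝ (Fin d))) (hAK : A ⊆ K)
    (hvn : ‖v‖ = volume.real A * r / (12 * Cs * L)) :
    volume.real A / 2 ≤ volume.real {x ∈ A | x + v ∈ K ∧ g (x + v) ≤ g x + r / 2} := by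
  have hBvol := jump_vol K hK Cs hshell L hL.le g hgm hgL v hmono r hr
  have ha0 : 0 ≤ volume.real A := measureReal_nonneg
  set A' : Set (EuclideanSpace ℝ (Fin d)) := {x ∈ A | x + v ∈ K ∧ g (x + v) ≤ g x + r / 2}
    with hA'
  set B : Set (EuclideanSpace ℝ (Fin d)) :=
    {x ∈ {x ∈ K | x + v ∈ K} | r / 2 ≤ g (x + v) - g x} with hB
  have hcover : A ⊆ A' ∪ ({x ∈ K | x + v ∉ K} ∪ B) := by
    intro x hx
    by_cases h1 : x + v ∈ K
    · by_cases h2 : g (x + v) ≤ g x + r / 2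
      · exact Or.inl ⟨hx, h1, h2⟩
      · refine Or.inr (Or.inr ⟨⟨hAK hx, h1⟩, ?_⟩)
        have := not_le.mp h2
        linarith
    · exact Or.inr (Or.inl ⟨hAK hx, h1⟩)
  have hsubs : A' ∪ ({x ∈ K | x + v ∉ K} ∪ B) ⊆ K := by
    rintro x (h | h | h)
    · exact hAK h.1
    · exact h.1
    · exact h.1.1
  have hfinK : volume (A' ∪ ({x ∈ K | x + v ∉ K} ∪ B)) ≠ ∞ :=
    ((measure_mono hsubs).trans_lt hK.measure_lt_top).ne
  have h1 : volume.real A ≤ volume.real (A' ∪ ({x ∈ K | x + v ∉ K} ∪ B)) :=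
    measureReal_mono hcover hfinK
  have h2 := measureReal_union_le (μ := volume) A' ({x ∈ K | x + v ∉ K} ∪ B)
  have h3 := measureReal_union_le (μ := volume) {x ∈ K | x + v ∉ K} B
  have h4 := hshell v
  have h5 : Cs * ‖v‖ + 4 * L * Cs * ‖v‖ / r ≤ volume.real A / 2 := by
    rw [hvn]
    set a := volume.real A
    have e1 : Cs * (a * r / (12 * Cs * L)) = a * r / (12 * L) := by field_simp
    have e2 : 4 * L * Cs * (a * r / (12 * Cs * L)) / r = a / 3 := by field_simp; ring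
    rw [e1, e2]
    have : a * r / (12 * L) ≤ a / 6 := by
      rw [div_le_div_iff₀ (by positivity) (by norm_num)]
      nlinarith
    linarith
  linarith

/-- Level-set bound: the set where the maps differ by at least `r` in direction `e` is small. -/
theorem level_bound (K : Set (EuclideanSpace ℝ (Fin d))) (hK : IsCompact K)
    (hconv : Convex ℝ K) (hint : (interior K).Nonempty) (L : ℝ) (hL : 0 < L) :
    ∃ C : ℝ, 0 ≤ C ∧ ∀ (T S : EuclideanSpace ℝ (Fin d) → EuclideanSpace ℝ (Fin d))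
      (φ₀ φ₁ : EuclideanSpace ℝ (Fin d) → ℝ)
      (π : Measure (EuclideanSpace ℝ (Fin d) × EuclideanSpace ℝ (Fin d))),
      Measurable T → Measurable S → Continuous φ₀ → Continuous φ₁ →
      (∀ᵐ x ∂(volume.restrict K), ‖T x‖ ≤ L) → (∀ᵐ x ∂(volume.restrict K), ‖S x‖ ≤ L) →
      (∀ᵐ x ∂(volume.restrict K), ∀ z, φ₀ x + ⟪T x, z - x⟫ ≤ φ₀ z) →
      (∀ᵐ x ∂(volume.restrict K), ∀ z, φ₁ x + ⟪S x, z - x⟫ ≤ φ₁ z) →
      π.fst = Measure.map T (unif K) → π.snd = Measure.map S (unif K) →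
      ∀ (e : EuclideanSpace ℝ (Fin d)), ‖e‖ = 1 → ∀ r : ℝ, 0 < r → r ≤ 2 * L →
      (volume.real {x ∈ K | r ≤ ⟪S x - T x, e⟫}) ^ 3 * r ^ 4 ≤ C * ∫ z, ‖z.1 - z.2‖ ^ 2 ∂π := by
  obtain ⟨Cs, hCs, hshell⟩ := shell K hK hconv hint
  obtain ⟨R, hR, hKR⟩ := hK.isBounded.subset_closedBall_lt 0 0
  obtain ⟨C₁, hC₁, hfour⟩ := cont_four d R hR
  have hvol : 0 < volume.real K := by
    rw [Measure.real, ENNReal.toReal_pos_iff]
    exact ⟨(isOpen_interior.measure_pos volume hint).trans_le (measure_mono interior_subset),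
      hK.measure_lt_top⟩
  refine ⟨16 * (12 * Cs * L) ^ 2 * C₁ ^ 2 * volume.real K, by positivity, ?_⟩
  intro T S φ₀ φ₁ π hT hS hφ₀ hφ₁ hTL hSL hpT hpS hfst hsnd e he r hr hrL
  have hw20 : 0 ≤ ∫ z, ‖z.1 - z.2‖ ^ 2 ∂π := integral_nonneg fun z => sq_nonneg _
  set A : Set (EuclideanSpace ℝ (Fin d)) := {x ∈ K | r ≤ ⟪S x - T x, e⟫} with hA
  have hm1 : Measurable fun x => ⟪S x - T x, e⟫ := (hS.sub hT).inner measurable_const
  have hAm : MeasurableSet A := hK.measurableSet.inter (measurableSet_le measurable_const hm1)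
  have hAK : A ⊆ K := fun x hx => hx.1
  have ha0 : 0 ≤ volume.real A := measureReal_nonneg
  rcases ha0.eq_or_lt with ha00 | hapos
  · have h0 : volume.real A ^ 3 * r ^ 4 = 0 := by rw [← ha00, zero_pow (by norm_num), zero_mul]
    rw [h0]; exact mul_nonneg (by positivity) hw20
  obtain ⟨τ, hτ⟩ : ∃ τ : ℝ, τ = volume.real A * r / (12 * Cs * L) := ⟨_, rfl⟩
  have hτ0 : 0 < τ := by rw [hτ]; positivity
  have hvn : ‖τ • e‖ = τ := by rw [norm_smul, he, mul_one, Real.norm_of_nonneg hτ0.le]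
  have hmono := mono_ae K hK T φ₀ hpT e τ hτ0
  have hgm : Measurable fun x => ⟪T x, e⟫ := hT.inner measurable_const
  have hgL : ∀ᵐ x ∂(volume.restrict K), |⟪T x, e⟫| ≤ L := by
    filter_upwards [hTL] with x hx
    have := abs_real_inner_le_norm (T x) e
    rw [he, mul_one] at this
    exact this.trans hx
  have hgood := good_part K hK Cs hCs hshell L hL (fun x => ⟪T x, e⟫) hgm hgL (τ • e)
    (hmono.mono fun x hx h1 h2 => (hx h1 h2).1) r hr hrL A hAK (hvn.trans hτ)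
  set A' : Set (EuclideanSpace ℝ (Fin d)) :=
    {x ∈ A | x + τ • e ∈ K ∧ ⟪T (x + τ • e), e⟫ ≤ ⟪T x, e⟫ + r / 2} with hA'
  have hmv : Measurable fun x : EuclideanSpace ℝ (Fin d) => x + τ • e :=
    measurable_add_const (τ • e)
  have hTve : Measurable fun x => ⟪T (x + τ • e), e⟫ := (hT.comp hmv).inner measurable_const
  have hA'm : MeasurableSet A' :=
    hAm.inter ((hmv hK.measurableSet).inter (measurableSet_le hTve (hgm.add_const _)))
  have hA'K : A' ⊆ K := fun x hx => hAK hx.1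
  have hA'v : ∀ x ∈ A', x + τ • e ∈ K := fun x hx => hx.2.1
  obtain ⟨i1, j1⟩ := integral_ind_shift K A' (τ • e) hK hA'm hA'v
  obtain ⟨i2, j2⟩ := integral_ind K A' hK hA'm hA'K
  have hq0 : ∫ x in K, qq A' (τ • e) x = 0 := by
    unfold qq
    rw [integral_sub i1 i2, j1, j2, sub_self]
  have hq2 : ∫ x in K, qq A' (τ • e) x ^ 2 ≤ 2 * volume.real A' := by
    have h1 : ∫ x in K, qq A' (τ • e) x ^ 2 ≤
        ∫ x in K, (A'.indicator (fun _ => (1 : ℝ)) (x - τ • e) +
          A'.indicator (fun _ => (1 : ℝ)) x) :=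
      integral_mono_of_nonneg (Filter.Eventually.of_forall fun x => sq_nonneg _)
        (i1.add i2) (Filter.Eventually.of_forall fun x => qq_sq_le A' (τ • e) x)
    rw [integral_add i1 i2, j1, j2] at h1
    linarith
  have hshK : ∀ x ∈ K, shift A' (τ • e) x ∈ K := fun x hx => by
    unfold shift; split_ifs with h
    · exact hA'v x h
    · exact hx
  have hX := hfour K hK hconv hKR hvol (qq A' (τ • e)) (measurable_qq A' (τ • e) hA'm)
    (abs_qq_le A' (τ • e)) hq0
    L T S (shift A' (τ • e)) φ₀ φ₁ π hL.le hT hS (measurable_shift A' (τ • e) hA'm) hφ₀ hφ₁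
    hTL hSL hpT hpS hfst hsnd hshK
    (map_shift K A' (τ • e) hK.measurableSet hA'm hA'K hA'v)
  have hlow : τ * (r / 2) * volume.real A' ≤
      ((∫ x in K, ⟪shift A' (τ • e) x, S x⟫) - ∫ x in K, ⟪x, S x⟫)
        - ((∫ x in K, φ₀ (shift A' (τ • e) x)) - ∫ x in K, φ₀ x) := by
    refine low_bound K hK R L hR hKR S hS hSL φ₀ hφ₀ A' hA'm hA'K (τ • e) hA'v _ ?_
    filter_upwards [ae_restrict_of_ae hmono, ae_restrict_mem hK.measurableSet] with x hx hxK hxA
    have h1 := (hx hxK (hA'v x hxA)).2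
    have h2 : ⟪T (x + τ • e), e⟫ ≤ ⟪T x, e⟫ + r / 2 := hxA.2.2
    have h3 : r ≤ ⟪S x - T x, e⟫ := hxA.1.2
    rw [inner_sub_left] at h3
    have e3 : ⟪τ • e, S x⟫ = τ * ⟪S x, e⟫ := by
      rw [real_inner_smul_left, real_inner_comm]
    rw [e3]
    have h4 : τ * (r / 2) ≤ τ * (⟪S x, e⟫ - ⟪T (x + τ • e), e⟫) :=
      mul_le_mul_of_nonneg_left (by linarith) hτ0.le
    linarith
  exact level_algebra (volume.real A) (volume.real A') r Cs L C₁ (volume.real K) _ _ τ hapos
    hgood hr hCs hL hC₁ hvol hw20 hτ hq2 (hlow.trans hX)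

end P074
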