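import Vale.Agent.P074.Level

open MeasureTheory
open scoped ENNReal NNReal RealInnerProductSpace

namespace P074

/-- weak-type bound of order `4/3` on `(0, M]` gives an `L²` bound -/
lemma layer {α : Type*} [MeasurableSpace α] (μ : Measure α) (f : α → ℝ) (hf : Measurable f)
    (M : ℝ) (hM : 0 < M) (hfM : ∀ᵐ x ∂μ, f x ≤ M) (B : ℝ) (hB : 0 ≤ B)
    (hlev : ∀ r : ℝ, 0 < r → r ≤ M →
      μ {x | r ≤ f x} ≤ ENNReal.ofReal (B * r ^ (-(4 / 3) : ℝ))) :
    ∫⁻ x, ENNReal.ofReal ((max (f x) 0) ^ (2 : ℝ)) ∂μ ≤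
      ENNReal.ofReal (3 * B * M ^ (2 / 3 : ℝ)) := by
  have h0 : 0 ≤ᵐ[μ] fun x => max (f x) 0 := Filter.Eventually.of_forall fun x => le_max_right _ _
  have hm : AEMeasurable (fun x => max (f x) 0) μ := (hf.max measurable_const).aemeasurable
  rw [lintegral_rpow_eq_lintegral_meas_le_mul μ h0 hm (by norm_num : (0 : ℝ) < 2)]
  have hint : IntegrableOn (fun t : ℝ => B * t ^ (-(1 / 3) : ℝ)) (Set.Ioc 0 M) := by
    have := (intervalIntegral.intervalIntegrable_rpow' (a := 0) (b := M)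
      (by norm_num : (-1 : ℝ) < -(1 / 3))).const_mul B
    rwa [intervalIntegrable_iff_integrableOn_Ioc_of_le hM.le] at this
  have hval : ∫ t in Set.Ioc 0 M, B * t ^ (-(1 / 3) : ℝ) = B * (3 / 2 * M ^ (2 / 3 : ℝ)) := by
    rw [integral_const_mul, ← intervalIntegral.integral_of_le hM.le,
      integral_rpow (Or.inl (by norm_num))]
    have e1 : (-(1 / 3) + 1 : ℝ) = 2 / 3 := by norm_num
    rw [e1, Real.zero_rpow (by norm_num)]
    ring
  have hb : ∫⁻ t in Set.Ioi (0 : ℝ), μ {a | t ≤ max (f a) 0} * ENNReal.ofReal (t ^ (2 - 1 : ℝ)) ≤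
      ∫⁻ t in Set.Ioc (0 : ℝ) M, ENNReal.ofReal (B * t ^ (-(1 / 3) : ℝ)) := by
    have h1 : ∫⁻ t in Set.Ioi (0 : ℝ), μ {a | t ≤ max (f a) 0} * ENNReal.ofReal (t ^ (2 - 1 : ℝ)) ≤
        ∫⁻ t in Set.Ioi (0 : ℝ), (Set.Ioc (0 : ℝ) M).indicator
          (fun t => ENNReal.ofReal (B * t ^ (-(1 / 3) : ℝ))) t := by
      refine setLIntegral_mono' measurableSet_Ioi fun t ht => ?_
      have ht0 : (0 : ℝ) < t := ht
      have hset : {a | t ≤ max (f a) 0} = {a | t ≤ f a} := by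
        ext a
        simp only [Set.mem_ofPred_eq, le_max_iff]
        constructor
        · rintro (h | h)
          · exact h
          · exact absurd h (not_le.mpr ht0)
        · exact Or.inl
      rw [hset]
      by_cases htM : t ≤ M
      · rw [Set.indicator_of_mem (show t ∈ Set.Ioc 0 M from ⟨ht0, htM⟩)]
        calc μ {a | t ≤ f a} * ENNReal.ofReal (t ^ (2 - 1 : ℝ))
            ≤ ENNReal.ofReal (B * t ^ (-(4 / 3) : ℝ)) * ENNReal.ofReal (t ^ (2 - 1 : ℝ)) := by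
              gcongr
              exact hlev t ht0 htM
          _ = ENNReal.ofReal (B * t ^ (-(1 / 3) : ℝ)) := by
              rw [← ENNReal.ofReal_mul (by positivity)]
              congr 1
              rw [mul_assoc, ← Real.rpow_add ht0]
              norm_num
      · have hz : μ {a | t ≤ f a} = 0 := by
          rw [← nonpos_iff_eq_zero]
          calc μ {a | t ≤ f a} ≤ μ {a | ¬ f a ≤ M} :=
                measure_mono fun a (ha : t ≤ f a) => not_le.mpr ((not_le.mp htM).trans_le ha)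
            _ = 0 := hfM
        rw [hz, zero_mul]
        exact zero_le
    refine h1.trans ?_
    rw [lintegral_indicator measurableSet_Ioc, Measure.restrict_restrict measurableSet_Ioc,
      Set.inter_eq_left.mpr (fun x hx => hx.1)]
  refine (mul_le_mul_right hb _).trans ?_
  rw [← ofReal_integral_eq_lintegral_ofReal hint, hval, ← ENNReal.ofReal_mul (by norm_num)]
  · refine le_of_eq ?_
    congr 1
    ring
  · rw [Filter.EventuallyLE, ae_restrict_iff' measurableSet_Ioc]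
    refine Filter.Eventually.of_forall fun t ht => ?_
    have : (0 : ℝ) < t := ht.1
    simp only [Pi.zero_apply]
    positivity

variable {d : ℕ}

lemma sq_norm_eq_parts (x : EuclideanSpace ℝ (Fin d)) :
    ‖x‖ₑ ^ (2 : ℝ) = ∑ i : Fin d, (ENNReal.ofReal ((max (⟪x, EuclideanSpace.single i 1⟫) 0) ^ (2 : ℝ)) +
      ENNReal.ofReal ((max (⟪x, -EuclideanSpace.single i 1⟫) 0) ^ (2 : ℝ))) := by
  have h1 : ∀ a : ℝ, (max a 0) ^ (2 : ℝ) + (max (-a) 0) ^ (2 : ℝ) = a ^ 2 := by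
    intro a
    rw [Real.rpow_two, Real.rpow_two]
    rcases le_total a 0 with h | h
    · rw [max_eq_right h, max_eq_left (by linarith)]; ring
    · rw [max_eq_left h, max_eq_right (by linarith)]; ring
  have h2 : ∀ i : Fin d, ENNReal.ofReal ((max (⟪x, EuclideanSpace.single i 1⟫) 0) ^ (2 : ℝ)) +
      ENNReal.ofReal ((max (⟪x, -EuclideanSpace.single i 1⟫) 0) ^ (2 : ℝ)) =
      ENNReal.ofReal (x i ^ 2) := by
    intro i
    rw [← ENNReal.ofReal_add (by positivity) (by positivity), inner_neg_right, h1,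
      EuclideanSpace.inner_single_right]
    simp
  rw [Finset.sum_congr rfl fun i _ => h2 i, ← ENNReal.ofReal_sum_of_nonneg (fun i _ => sq_nonneg _),
    ← ofReal_norm, ENNReal.ofReal_rpow_of_nonneg (norm_nonneg _) (by norm_num),
    Real.rpow_two, EuclideanSpace.norm_sq_eq]
  simp

/-- The cubic-root stability bound for maps with potentials. -/
theorem main_bound (K : Set (EuclideanSpace ℝ (Fin d))) (hK : IsCompact K)
    (hconv : Convex ℝ K) (hint : (interior K).Nonempty) (L : ℝ) (hL : 0 ≤ L) :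
    ∃ C : ℝ≥0, ∀ (T S : EuclideanSpace ℝ (Fin d) → EuclideanSpace ℝ (Fin d))
      (φ₀ φ₁ : EuclideanSpace ℝ (Fin d) → ℝ)
      (π : Measure (EuclideanSpace ℝ (Fin d) × EuclideanSpace ℝ (Fin d))),
      Measurable T → Measurable S →
      LipschitzWith L.toNNReal φ₀ → LipschitzWith L.toNNReal φ₁ →
      (∀ᵐ x ∂(volume.restrict K), ‖T x‖ ≤ L) → (∀ᵐ x ∂(volume.restrict K), ‖S x‖ ≤ L) →
      (∀ᵐ x ∂(volume.restrict K), ∀ z, φ₀ x + ⟪T x, z - x⟫ ≤ φ₀ z) →
      (∀ᵐ x ∂(volume.restrict K), ∀ z, φ₁ x + ⟪S x, z - x⟫ ≤ φ₁ z) →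
      π.fst = Measure.map T (unif K) → π.snd = Measure.map S (unif K) →
      eLpNorm (fun x => T x - S x) 2 (unif K) ≤
        C * ((∫⁻ z, ‖z.1 - z.2‖ₑ ^ 2 ∂π) ^ (1 / 2 : ℝ)) ^ (1 / 3 : ℝ) := by
  obtain ⟨C, hC, hlev⟩ := level_bound K hK hconv hint (L + 1) (by linarith)
  have hvol0 : volume K ≠ 0 :=
    ((isOpen_interior.measure_pos volume hint).trans_le (measure_mono interior_subset)).ne'
  have hvoltop : volume K ≠ ∞ := hK.measure_lt_top.ne
  set M : ℝ := 2 * (L + 1) with hM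
  have hM0 : 0 < M := by rw [hM]; linarith
  set Z : ℝ≥0∞ := (volume K)⁻¹ * ((d : ℝ≥0∞) * (2 * ENNReal.ofReal
    (3 * C ^ (1 / 3 : ℝ) * M ^ (2 / 3 : ℝ)))) with hZ
  have hZtop : Z ≠ ∞ := by
    rw [hZ]
    refine ENNReal.mul_ne_top (ENNReal.inv_ne_top.mpr hvol0) (ENNReal.mul_ne_top
      (ENNReal.natCast_ne_top d) (ENNReal.mul_ne_top (by norm_num) ENNReal.ofReal_ne_top))
  refine ⟨(Z ^ (1 / 2 : ℝ)).toNNReal, ?_⟩
  intro T S φ₀ φ₁ π hT hS hφ₀ hφ₁ hTL hSL hpT hpS hfst hsnd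
  rw [ENNReal.coe_toNNReal (ENNReal.rpow_ne_top_of_nonneg (by norm_num) hZtop)]
  set w2 : ℝ := ∫ z, ‖z.1 - z.2‖ ^ 2 ∂π with hw2
  have hw20 : 0 ≤ w2 := integral_nonneg fun z => sq_nonneg _
  have hw2le : ENNReal.ofReal w2 ≤ ∫⁻ z, ‖z.1 - z.2‖ₑ ^ 2 ∂π := by
    rw [hw2, integral_eq_lintegral_of_nonneg_ae (Filter.Eventually.of_forall fun z => sq_nonneg _)
      (by fun_prop)]
    refine ENNReal.ofReal_toReal_le.trans (le_of_eq ?_)
    refine lintegral_congr fun z => ?_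
    rw [ENNReal.ofReal_pow (norm_nonneg _), ofReal_norm]
  set B : ℝ := (C * w2) ^ (1 / 3 : ℝ) with hB
  have hB0 : 0 ≤ B := by positivity
  -- directional bound
  have hdir : ∀ e : EuclideanSpace ℝ (Fin d), ‖e‖ = 1 →
      ∫⁻ x in K, ENNReal.ofReal ((max (⟪S x - T x, e⟫) 0) ^ (2 : ℝ)) ≤
        ENNReal.ofReal (3 * B * M ^ (2 / 3 : ℝ)) := by
    intro e he
    have hfm : Measurable fun x => ⟪S x - T x, e⟫ := (hS.sub hT).inner measurable_const
    refine layer (volume.restrict K) _ hfm M hM0 ?_ B hB0 ?_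
    · filter_upwards [hTL, hSL] with x h1 h2
      have h3 := real_inner_le_norm (S x - T x) e
      rw [he, mul_one] at h3
      have h4 := norm_sub_le (S x) (T x)
      rw [hM]; linarith
    · intro r hr hrM
      have h1 := hlev T S φ₀ φ₁ π hT hS hφ₀.continuous hφ₁.continuous
        (hTL.mono fun x hx => hx.trans (by linarith)) (hSL.mono fun x hx => hx.trans (by linarith))
        hpT hpS hfst hsnd e he r hr hrM
      have hms : MeasurableSet {x | r ≤ ⟪S x - T x, e⟫} := measurableSet_le measurable_const hfm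
      rw [Measure.restrict_apply hms]
      have hset : {x | r ≤ ⟪S x - T x, e⟫} ∩ K = {x ∈ K | r ≤ ⟪S x - T x, e⟫} := by
        ext x; simp only [Set.mem_inter_iff, Set.mem_ofPred_eq]; exact and_comm
      rw [hset]
      set A : Set (EuclideanSpace ℝ (Fin d)) := {x ∈ K | r ≤ ⟪S x - T x, e⟫} with hA
      have hAtop : volume A ≠ ∞ :=
        ((measure_mono (fun x hx => hx.1)).trans_lt hK.measure_lt_top).ne
      rw [← ENNReal.ofReal_toReal hAtop]
      refine ENNReal.ofReal_le_ofReal ?_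
      change volume.real A ≤ _
      have ha0 : 0 ≤ volume.real A := measureReal_nonneg
      have h2 : (volume.real A * r ^ (4 / 3 : ℝ)) ^ 3 ≤ C * w2 := by
        rw [mul_pow, ← Real.rpow_natCast (r ^ (4 / 3 : ℝ)), ← Real.rpow_mul hr.le]
        have : (4 / 3 * ((3 : ℕ) : ℝ) : ℝ) = ((4 : ℕ) : ℝ) := by norm_num
        rw [this, Real.rpow_natCast]
        exact h1
      have h3 : volume.real A * r ^ (4 / 3 : ℝ) ≤ B := by
        have h4 := Real.rpow_le_rpow (by positivity) h2 (by norm_num : (0 : ℝ) ≤ 1 / 3)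
        rw [← Real.rpow_natCast, ← Real.rpow_mul (by positivity)] at h4
        have : (((3 : ℕ) : ℝ) * (1 / 3) : ℝ) = 1 := by norm_num
        rwa [this, Real.rpow_one] at h4
      have hr43 : 0 < r ^ (4 / 3 : ℝ) := Real.rpow_pos_of_pos hr _
      rw [Real.rpow_neg hr.le, ← div_eq_mul_inv, le_div_iff₀ hr43]
      exact h3
  have hsum : ∫⁻ x in K, ‖T x - S x‖ₑ ^ (2 : ℝ) ≤
      (d : ℝ≥0∞) * (2 * ENNReal.ofReal (3 * B * M ^ (2 / 3 : ℝ))) := by
    have e1 : ∀ x, ‖T x - S x‖ₑ ^ (2 : ℝ) = ∑ i : Fin d,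
        (ENNReal.ofReal ((max (⟪S x - T x, EuclideanSpace.single i 1⟫) 0) ^ (2 : ℝ)) +
        ENNReal.ofReal ((max (⟪S x - T x, -EuclideanSpace.single i 1⟫) 0) ^ (2 : ℝ))) := by
      intro x
      rw [enorm_sub_rev]
      exact sq_norm_eq_parts _
    have hmm : ∀ e : EuclideanSpace ℝ (Fin d),
        Measurable fun x => ENNReal.ofReal ((max (⟪S x - T x, e⟫) 0) ^ (2 : ℝ)) := by
      intro e
      have hfm : Measurable fun x => ⟪S x - T x, e⟫ := (hS.sub hT).inner measurable_const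
      exact ENNReal.measurable_ofReal.comp ((hfm.max measurable_const).pow_const 2)
    have hmm2 : ∀ e e' : EuclideanSpace ℝ (Fin d), Measurable fun x =>
        ENNReal.ofReal ((max (⟪S x - T x, e⟫) 0) ^ (2 : ℝ)) +
        ENNReal.ofReal ((max (⟪S x - T x, e'⟫) 0) ^ (2 : ℝ)) := fun e e' => (hmm e).add (hmm e')
    simp only [e1]
    rw [lintegral_finsetSum _ fun i _ => hmm2 _ _]
    calc ∑ i : Fin d, ∫⁻ x in K,
        (ENNReal.ofReal ((max (⟪S x - T x, EuclideanSpace.single i 1⟫) 0) ^ (2 : ℝ)) +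
        ENNReal.ofReal ((max (⟪S x - T x, -EuclideanSpace.single i 1⟫) 0) ^ (2 : ℝ)))
        ≤ ∑ i : Fin d, 2 * ENNReal.ofReal (3 * B * M ^ (2 / 3 : ℝ)) := by
          refine Finset.sum_le_sum fun i _ => ?_
          rw [lintegral_add_left (hmm _), two_mul]
          exact add_le_add (hdir _ (by simp)) (hdir _ (by simp))
      _ = _ := by simp
  rw [eLpNorm_eq_lintegral_rpow_enorm_toReal (by norm_num) (by norm_num)]
  simp only [ENNReal.toReal_ofNat]
  unfold unif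
  rw [lintegral_smul_measure, smul_eq_mul]
  calc ((volume K)⁻¹ * ∫⁻ x in K, ‖T x - S x‖ₑ ^ (2 : ℝ)) ^ (1 / 2 : ℝ)
      ≤ ((volume K)⁻¹ * ((d : ℝ≥0∞) * (2 * ENNReal.ofReal (3 * B * M ^ (2 / 3 : ℝ))))) ^
        (1 / 2 : ℝ) := by gcongr
    _ = (Z * (ENNReal.ofReal w2) ^ (1 / 3 : ℝ)) ^ (1 / 2 : ℝ) := by
        congr 1
        have e2 : 3 * B * M ^ (2 / 3 : ℝ) =
            (3 * C ^ (1 / 3 : ℝ) * M ^ (2 / 3 : ℝ)) * w2 ^ (1 / 3 : ℝ) := by
          rw [hB, Real.mul_rpow hC hw20]; ring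
        rw [e2, ENNReal.ofReal_mul (by positivity), hZ,
          ← ENNReal.ofReal_rpow_of_nonneg hw20 (by norm_num)]
        ring
    _ = Z ^ (1 / 2 : ℝ) * ((ENNReal.ofReal w2) ^ (1 / 2 : ℝ)) ^ (1 / 3 : ℝ) := by
        rw [ENNReal.mul_rpow_of_nonneg _ _ (by norm_num), ← ENNReal.rpow_mul, ← ENNReal.rpow_mul,
          mul_comm (1 / 3 : ℝ)]
    _ ≤ Z ^ (1 / 2 : ℝ) * ((∫⁻ z, ‖z.1 - z.2‖ₑ ^ 2 ∂π) ^ (1 / 2 : ℝ)) ^ (1 / 3 : ℝ) := by
        gcongr

end P074
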