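import Vale.Agent.P074.Defs

open MeasureTheory
open scoped ENNReal NNReal RealInnerProductSpace

namespace P074

variable {d : ℕ} {ι : Type} [Fintype ι] [Nonempty ι]

omit [Fintype ι] [Nonempty ι] in
lemma continuous_sc (y : ι → EuclideanSpace ℝ (Fin d)) (ψ : ι → ℝ) (i : ι) :
    Continuous (sc y ψ i) := by
  unfold sc
  fun_prop

omit [Nonempty ι] in
lemma sc_le_pot (y : ι → EuclideanSpace ℝ (Fin d)) (ψ : ι → ℝ) (i : ι)
    (x : EuclideanSpace ℝ (Fin d)) : sc y ψ i x ≤ pot y ψ x :=
  le_ciSup (Set.finite_range fun i => sc y ψ i x).bddAbove i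

omit [Fintype ι] in
lemma pot_le (y : ι → EuclideanSpace ℝ (Fin d)) (ψ : ι → ℝ) (x : EuclideanSpace ℝ (Fin d))
    (a : ℝ) (h : ∀ i, sc y ψ i x ≤ a) : pot y ψ x ≤ a :=
  ciSup_le h

lemma exists_pot_eq (y : ι → EuclideanSpace ℝ (Fin d)) (ψ : ι → ℝ)
    (x : EuclideanSpace ℝ (Fin d)) : ∃ i, pot y ψ x = sc y ψ i x := by
  obtain ⟨i, hi⟩ := exists_eq_ciSup_of_finite (f := fun i => sc y ψ i x)
  exact ⟨i, hi.symm⟩

lemma pot_eq_of_mem (y : ι → EuclideanSpace ℝ (Fin d)) (ψ : ι → ℝ) (i : ι)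
    {x : EuclideanSpace ℝ (Fin d)} (hx : x ∈ cell y ψ i) : pot y ψ x = sc y ψ i x := by
  refine le_antisymm (pot_le y ψ x _ fun j => ?_) (sc_le_pot y ψ i x)
  by_cases hj : j = i
  · rw [hj]
  · exact (hx j hj).le

omit [Nonempty ι] in
lemma measurable_pot (y : ι → EuclideanSpace ℝ (Fin d)) (ψ : ι → ℝ) :
    Measurable (pot y ψ) :=
  Measurable.iSup fun i => (continuous_sc y ψ i).measurable

/-- a common bound for the norms of the sites -/
lemma exists_bound (y : ι → EuclideanSpace ℝ (Fin d)) : ∃ L : ℝ, 0 ≤ L ∧ ∀ i, ‖y i‖ ≤ L :=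
  ⟨∑ i, ‖y i‖, Finset.sum_nonneg fun i _ => norm_nonneg _, fun i =>
    Finset.single_le_sum (f := fun i => ‖y i‖) (fun j _ => norm_nonneg _) (Finset.mem_univ i)⟩

lemma ae_norm_le (r : Measure (EuclideanSpace ℝ (Fin d))) (R : ℝ)
    (hR : r (Metric.closedBall 0 R)ᶜ = 0) : ∀ᵐ x ∂r, ‖x‖ ≤ R := by
  filter_upwards [measure_eq_zero_iff_ae_notMem.mp hR] with x hx
  simpa using hx

lemma integrable_inner (r : Measure (EuclideanSpace ℝ (Fin d))) [IsFiniteMeasure r] (R : ℝ)
    (hR : r (Metric.closedBall 0 R)ᶜ = 0) (v : EuclideanSpace ℝ (Fin d)) :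
    Integrable (fun x : EuclideanSpace ℝ (Fin d) => ⟪x, v⟫) r := by
  refine Integrable.of_bound (by fun_prop) (R * ‖v‖) ?_
  filter_upwards [ae_norm_le r R hR] with x hx
  exact (norm_inner_le_norm x v).trans (by gcongr)

lemma integrable_sc (r : Measure (EuclideanSpace ℝ (Fin d))) [IsFiniteMeasure r] (R : ℝ)
    (hR : r (Metric.closedBall 0 R)ᶜ = 0) (y : ι → EuclideanSpace ℝ (Fin d)) (ψ : ι → ℝ) (i : ι) :
    Integrable (sc y ψ i) r :=
  (integrable_inner r R hR (y i)).sub (integrable_const _)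

lemma abs_pot_le (y : ι → EuclideanSpace ℝ (Fin d)) (ψ : ι → ℝ) (x : EuclideanSpace ℝ (Fin d)) :
    |pot y ψ x| ≤ ∑ i, |sc y ψ i x| := by
  obtain ⟨i, hi⟩ := exists_pot_eq y ψ x
  rw [hi]
  exact Finset.single_le_sum (f := fun i => |sc y ψ i x|) (fun j _ => abs_nonneg _)
    (Finset.mem_univ i)

lemma integrable_pot (r : Measure (EuclideanSpace ℝ (Fin d))) [IsFiniteMeasure r] (R : ℝ)
    (hR : r (Metric.closedBall 0 R)ᶜ = 0) (y : ι → EuclideanSpace ℝ (Fin d)) (ψ : ι → ℝ) :
    Integrable (pot y ψ) r := by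
  refine Integrable.mono' (g := fun x => ∑ i, |sc y ψ i x|)
    (integrable_finsetSum _ fun i _ => (integrable_sc r R hR y ψ i).abs)
    (measurable_pot y ψ).aestronglyMeasurable (Filter.Eventually.of_forall fun x => ?_)
  exact abs_pot_le y ψ x

/-- cells are measurable -/
theorem measurableSet_cell (y : ι → EuclideanSpace ℝ (Fin d)) (ψ : ι → ℝ) (i : ι) :
    MeasurableSet (cell y ψ i) := by
  have h : cell y ψ i = ⋂ j, {x | j ≠ i → sc y ψ j x < sc y ψ i x} := by
    ext x; simp [cell]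
  rw [h]
  refine MeasurableSet.iInter fun j => ?_
  by_cases hj : j = i
  · simp [hj]
  · simp only [ne_eq, hj, not_false_eq_true, forall_const]
    exact measurableSet_lt (continuous_sc y ψ j).measurable (continuous_sc y ψ i).measurable

/-- distinct cells are disjoint -/
theorem disjoint_cell (y : ι → EuclideanSpace ℝ (Fin d)) (ψ : ι → ℝ) {i j : ι} (h : i ≠ j) :
    Disjoint (cell y ψ i) (cell y ψ j) := by
  rw [Set.disjoint_left]
  intro x hi hj
  exact lt_asymm (hi j h.symm) (hj i h)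

/-- affine hyperplanes are null sets -/
lemma hyperplane_null (v : EuclideanSpace ℝ (Fin d)) (hv : v ≠ 0) (c : ℝ) :
    volume {x : EuclideanSpace ℝ (Fin d) | ⟪x, v⟫ = c} = 0 := by
  rcases Set.eq_empty_or_nonempty {x : EuclideanSpace ℝ (Fin d) | ⟪x, v⟫ = c} with h | ⟨x0, hx0⟩
  · rw [h, measure_empty]
  · have hx0' : ⟪x0, v⟫ = c := hx0
    have h1 : {x : EuclideanSpace ℝ (Fin d) | ⟪x, v⟫ = c} =
        (fun x => x + (-x0)) ⁻¹' (LinearMap.ker (innerSL ℝ v).toLinearMap : Set _) := by
      ext x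
      show ⟪x, v⟫ = c ↔ innerSL ℝ v (x + -x0) = 0
      rw [innerSL_apply_apply, inner_add_right, inner_neg_right, real_inner_comm x v,
        real_inner_comm x0 v, hx0']
      constructor <;> intro h <;> linarith
    rw [h1, measure_preimage_add_right]
    refine Measure.addHaar_submodule _ _ ?_
    intro htop
    have h2 : v ∈ LinearMap.ker (innerSL ℝ v).toLinearMap := by rw [htop]; trivial
    rw [LinearMap.mem_ker] at h2
    simp only [ContinuousLinearMap.coe_coe, innerSL_apply_apply, real_inner_self_eq_norm_sq] at h2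
    exact hv (by simpa using h2)

/-- the cells cover everything up to a null set when the sites are distinct -/
theorem ae_mem_cell (y : ι → EuclideanSpace ℝ (Fin d)) (hy : Function.Injective y) (ψ : ι → ℝ) :
    ∀ᵐ x ∂(volume : Measure (EuclideanSpace ℝ (Fin d))), ∃ i, x ∈ cell y ψ i := by
  have h1 : ∀ i j, ∀ᵐ x ∂(volume : Measure (EuclideanSpace ℝ (Fin d))),
      i ≠ j → sc y ψ i x ≠ sc y ψ j x := by
    intro i j
    by_cases hij : i = j
    · exact Filter.Eventually.of_forall fun x h => absurd hij h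
    have hv : y i - y j ≠ 0 := sub_ne_zero.mpr fun h => hij (hy h)
    have h2 := measure_eq_zero_iff_ae_notMem.mp (hyperplane_null (y i - y j) hv (ψ i - ψ j))
    filter_upwards [h2] with x hx _ heq
    refine hx ?_
    show ⟪x, y i - y j⟫ = ψ i - ψ j
    rw [inner_sub_right]
    unfold sc at heq
    linarith
  have h2 : ∀ᵐ x ∂(volume : Measure (EuclideanSpace ℝ (Fin d))),
      ∀ i j, i ≠ j → sc y ψ i x ≠ sc y ψ j x := by
    rw [ae_all_iff]; intro i; rw [ae_all_iff]; exact h1 i
  filter_upwards [h2] with x hx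
  obtain ⟨i, hi⟩ := exists_pot_eq y ψ x
  refine ⟨i, fun j hj => lt_of_le_of_ne ?_ (hx j i hj)⟩
  rw [← hi]
  exact sc_le_pot y ψ j x

/-- midpoints of points of the cells of `ψ` and `ψ'` lie in the cell of the averaged weights -/
theorem midpoint_mem_cell (y : ι → EuclideanSpace ℝ (Fin d)) (ψ ψ' : ι → ℝ) (i : ι)
    {x x' : EuclideanSpace ℝ (Fin d)} (hx : x ∈ cell y ψ i) (hx' : x' ∈ cell y ψ' i) :
    (1 / 2 : ℝ) • (x + x') ∈ cell y (fun j => (ψ j + ψ' j) / 2) i := by
  intro j hj
  have h1 := hx j hj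
  have h2 := hx' j hj
  unfold sc at h1 h2 ⊢
  rw [inner_smul_left, inner_smul_left, inner_add_left, inner_add_left]
  simp only [conj_trivial]
  linarith

/-- sums of integrals over the cells -/
lemma sum_integral_cell (r : Measure (EuclideanSpace ℝ (Fin d)))
    (hr : r ≪ volume) (y : ι → EuclideanSpace ℝ (Fin d)) (hy : Function.Injective y) (ψ : ι → ℝ)
    (F : EuclideanSpace ℝ (Fin d) → ℝ) (hF : Integrable F r) :
    ∑ i, ∫ x in cell y ψ i, F x ∂r = ∫ x, F x ∂r := by
  rw [← integral_iUnion_fintype (fun i => measurableSet_cell y ψ i)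
    (fun i j hij => disjoint_cell y ψ hij) (fun i => hF.integrableOn)]
  refine (integral_eq_setIntegral (s := ⋃ i, cell y ψ i) ?_ F).symm
  filter_upwards [hr.ae_le (ae_mem_cell y hy ψ)] with x hx
  exact Set.mem_iUnion.mpr hx

lemma sum_real_cell (r : Measure (EuclideanSpace ℝ (Fin d))) [IsFiniteMeasure r]
    (hr : r ≪ volume) (y : ι → EuclideanSpace ℝ (Fin d)) (hy : Function.Injective y)
    (ψ : ι → ℝ) : ∑ i, r.real (cell y ψ i) = r.real Set.univ := by
  have h := sum_integral_cell r hr y hy ψ (fun _ => (1 : ℝ)) (integrable_const _)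
  simpa using h

/-- Value of the dual functional at a potential with the right masses. -/
theorem J_eq (r : Measure (EuclideanSpace ℝ (Fin d))) [IsFiniteMeasure r]
    (hr : r ≪ volume) (R : ℝ) (hR : r (Metric.closedBall 0 R)ᶜ = 0)
    (y : ι → EuclideanSpace ℝ (Fin d)) (hy : Function.Injective y) (m : ι → ℝ) (ψ : ι → ℝ)
    (hψ : ∀ i, r.real (cell y ψ i) = m i) :
    J r m y ψ = ∑ i, ∫ x in cell y ψ i, ⟪x, y i⟫ ∂r := by
  unfold J
  rw [← sum_integral_cell r hr y hy ψ _ (integrable_pot r R hR y ψ), ← Finset.sum_add_distrib]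
  refine Finset.sum_congr rfl fun i _ => ?_
  have h1 : ∫ x in cell y ψ i, pot y ψ x ∂r = ∫ x in cell y ψ i, (⟪x, y i⟫ - ψ i) ∂r :=
    setIntegral_congr_fun (measurableSet_cell y ψ i) fun x hx => pot_eq_of_mem y ψ i hx
  rw [h1, integral_sub (integrable_inner r R hR (y i)).integrableOn
    (integrable_const _).integrableOn, setIntegral_const, hψ i, smul_eq_mul]
  ring

/-- Weak duality for partitions with the right masses. -/
theorem weak_duality (r : Measure (EuclideanSpace ℝ (Fin d))) [IsFiniteMeasure r]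
    (R : ℝ) (hR : r (Metric.closedBall 0 R)ᶜ = 0)
    (y : ι → EuclideanSpace ℝ (Fin d)) (m : ι → ℝ) (ψ : ι → ℝ)
    (U : ι → Set (EuclideanSpace ℝ (Fin d))) (hU : ∀ i, MeasurableSet (U i))
    (hdisj : Pairwise (Function.onFun Disjoint U))
    (hcov : ∀ᵐ x ∂r, ∃ i, x ∈ U i) (hmass : ∀ i, r.real (U i) = m i) :
    ∑ i, ∫ x in U i, ⟪x, y i⟫ ∂r ≤ J r m y ψ := by
  have h0 : ∫ x, pot y ψ x ∂r = ∑ i, ∫ x in U i, pot y ψ x ∂r := by
    rw [← integral_iUnion_fintype hU hdisj
      (fun i => (integrable_pot r R hR y ψ).integrableOn)]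
    rw [integral_eq_setIntegral (s := ⋃ i, U i)]
    filter_upwards [hcov] with x hx
    exact Set.mem_iUnion.mpr hx
  unfold J
  rw [h0, ← Finset.sum_add_distrib]
  refine Finset.sum_le_sum fun i _ => ?_
  have h1 : ∫ x in U i, (pot y ψ x + ψ i) ∂r = ∫ x in U i, pot y ψ x ∂r + m i * ψ i := by
    rw [integral_add (integrable_pot r R hR y ψ).integrableOn (integrable_const _).integrableOn,
      setIntegral_const, hmass i, smul_eq_mul]
  rw [← h1]
  refine setIntegral_mono (integrable_inner r R hR (y i)).integrableOn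
    ((integrable_pot r R hR y ψ).add (integrable_const _)).integrableOn fun x => ?_
  have := sc_le_pot y ψ i x
  unfold sc at this
  show ⟪x, y i⟫ ≤ pot y ψ x + ψ i
  linarith

/-- The value is attained at a potential with the right masses (any sites, any masses
summing to the total mass; here for injective sites). -/
theorem val_eq (r : Measure (EuclideanSpace ℝ (Fin d))) [IsFiniteMeasure r]
    (hr : r ≪ volume) (R : ℝ) (hR : r (Metric.closedBall 0 R)ᶜ = 0)
    (y : ι → EuclideanSpace ℝ (Fin d)) (hy : Function.Injective y) (m : ι → ℝ) (ψ : ι → ℝ)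
    (hψ : ∀ i, r.real (cell y ψ i) = m i) :
    val r m y = ∑ i, ∫ x in cell y ψ i, ⟪x, y i⟫ ∂r := by
  have h1 : ∀ ψ' : ι → ℝ, ∑ i, ∫ x in cell y ψ i, ⟪x, y i⟫ ∂r ≤ J r m y ψ' := fun ψ' =>
    weak_duality r R hR y m ψ' (cell y ψ) (measurableSet_cell y ψ)
      (fun i j hij => disjoint_cell y ψ hij) (hr.ae_le (ae_mem_cell y hy ψ)) hψ
  refine le_antisymm ?_ (le_ciInf h1)
  rw [← J_eq r hr R hR y hy m ψ hψ]
  exact ciInf_le ⟨_, by rintro _ ⟨ψ', rfl⟩; exact h1 ψ'⟩ ψ

/-- The dual functional is bounded below (for arbitrary sites) provided the masses are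
nonnegative and sum to the total mass. -/
theorem bddBelow_J (r : Measure (EuclideanSpace ℝ (Fin d))) [IsFiniteMeasure r]
    (R : ℝ) (hR : r (Metric.closedBall 0 R)ᶜ = 0)
    (y : ι → EuclideanSpace ℝ (Fin d)) (m : ι → ℝ) (hm : ∀ i, 0 ≤ m i)
    (hsum : ∑ i, m i = r.real Set.univ) :
    BddBelow (Set.range fun ψ : ι → ℝ => J r m y ψ) := by
  rcases (measureReal_nonneg (μ := r) (s := Set.univ)).eq_or_lt with h0 | h0
  · -- zero mass
    have hr0 : r = 0 := by
      rw [← Measure.measure_univ_eq_zero]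
      exact (measureReal_eq_zero_iff).mp h0.symm
    have hm0 : ∀ i, m i = 0 := by
      intro i
      rw [← h0] at hsum
      exact (Finset.sum_eq_zero_iff_of_nonneg fun i _ => hm i).mp hsum i (Finset.mem_univ i)
    refine ⟨0, ?_⟩
    rintro _ ⟨ψ, rfl⟩
    simp [J, hr0, hm0]
  · refine ⟨∑ i, m i / r.real Set.univ * ∫ x, ⟪x, y i⟫ ∂r, ?_⟩
    rintro _ ⟨ψ, rfl⟩
    show _ ≤ J r m y ψ
    unfold J
    have h1 : ∀ x, ∑ i, m i / r.real Set.univ * sc y ψ i x ≤ pot y ψ x := by
      intro x
      calc ∑ i, m i / r.real Set.univ * sc y ψ i x ≤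
          ∑ i, m i / r.real Set.univ * pot y ψ x := by
            refine Finset.sum_le_sum fun i _ => ?_
            exact mul_le_mul_of_nonneg_left (sc_le_pot y ψ i x) (div_nonneg (hm i) h0.le)
        _ = pot y ψ x := by
            rw [← Finset.sum_mul, ← Finset.sum_div, hsum, div_self h0.ne', one_mul]
    have h2 := integral_mono (μ := r) (integrable_finsetSum _ fun i _ =>
      (integrable_sc r R hR y ψ i).const_mul (m i / r.real Set.univ))
      (integrable_pot r R hR y ψ) h1
    rw [integral_finsetSum _ fun i _ =>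
      (integrable_sc r R hR y ψ i).const_mul (m i / r.real Set.univ)] at h2
    have h3 : ∀ i, ∫ x, m i / r.real Set.univ * sc y ψ i x ∂r =
        m i / r.real Set.univ * ∫ x, ⟪x, y i⟫ ∂r - m i * ψ i := by
      intro i
      rw [integral_const_mul]
      unfold sc
      rw [integral_sub (integrable_inner r R hR (y i)) (integrable_const _), integral_const,
        smul_eq_mul]
      field_simp
    simp only [h3, Finset.sum_sub_distrib] at h2
    linarith

/-- The value is Lipschitz in the sites. -/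
theorem val_lipschitz (r : Measure (EuclideanSpace ℝ (Fin d))) [IsFiniteMeasure r]
    (R : ℝ) (hR0 : 0 ≤ R) (hR : r (Metric.closedBall 0 R)ᶜ = 0)
    (y y' : ι → EuclideanSpace ℝ (Fin d)) (m : ι → ℝ) (hm : ∀ i, 0 ≤ m i)
    (hsum : ∑ i, m i = r.real Set.univ) (ε : ℝ) (hε : ∀ i, ‖y i - y' i‖ ≤ ε) :
    |val r m y - val r m y'| ≤ R * ε * r.real Set.univ := by
  have key : ∀ y y' : ι → EuclideanSpace ℝ (Fin d), (∀ i, ‖y i - y' i‖ ≤ ε) →
      val r m y ≤ val r m y' + R * ε * r.real Set.univ := by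
    intro y y' hε
    have h1 : ∀ ψ : ι → ℝ, J r m y ψ ≤ J r m y' ψ + R * ε * r.real Set.univ := by
      intro ψ
      unfold J
      have h2 : ∀ᵐ x ∂r, pot y ψ x ≤ pot y' ψ x + R * ε := by
        filter_upwards [ae_norm_le r R hR] with x hx
        refine pot_le y ψ x _ fun i => ?_
        have h3 := sc_le_pot y' ψ i x
        have h4 : ⟪x, y i⟫ - ⟪x, y' i⟫ ≤ R * ε := by
          rw [← inner_sub_right]
          refine (le_abs_self _).trans ((abs_real_inner_le_norm _ _).trans ?_)
          exact mul_le_mul hx (hε i) (norm_nonneg _) hR0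
        unfold sc at h3 ⊢
        linarith
      have h5 := integral_mono_ae (integrable_pot r R hR y ψ)
        ((integrable_pot r R hR y' ψ).add (integrable_const (R * ε))) h2
      have h6 : ∫ x, (pot y' ψ x + R * ε) ∂r =
          ∫ x, pot y' ψ x ∂r + R * ε * r.real Set.univ := by
        rw [integral_add (integrable_pot r R hR y' ψ) (integrable_const (R * ε)),
          integral_const, smul_eq_mul]
        ring
      have h5' : ∫ x, pot y ψ x ∂r ≤ ∫ x, (pot y' ψ x + R * ε) ∂r := h5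
      rw [h6] at h5'
      linarith
    have h7 : val r m y - R * ε * r.real Set.univ ≤ val r m y' := by
      refine le_ciInf fun ψ => ?_
      have := ciInf_le (bddBelow_J r R hR y m hm hsum) ψ
      have h8 : val r m y ≤ J r m y ψ := this
      linarith [h1 ψ]
    linarith
  rw [abs_sub_le_iff]
  constructor
  · linarith [key y y' hε]
  · have := key y' y (fun i => by rw [norm_sub_rev]; exact hε i)
    linarith


/-- raising one weight: the cell masses are controlled -/
lemma up_ineq (r : Measure (EuclideanSpace ℝ (Fin d))) [IsFiniteMeasure r]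
    (R : ℝ) (hR : r (Metric.closedBall 0 R)ᶜ = 0)
    (y : ι → EuclideanSpace ℝ (Fin d)) (m : ι → ℝ) (ψ ψt : ι → ℝ) (i : ι) (t : ℝ) (ht : 0 < t)
    (hi : ψt i = ψ i + t) (hj : ∀ j, j ≠ i → ψt j = ψ j) (hJ : J r m y ψ ≤ J r m y ψt) :
    r.real (cell y ψt i) ≤ m i := by
  classical
  have h1 : ∀ x, (cell y ψt i).indicator (fun _ => t) x + pot y ψt x ≤ pot y ψ x := by
    intro x
    by_cases hx : x ∈ cell y ψt i
    · rw [Set.indicator_of_mem hx, pot_eq_of_mem y ψt i hx]
      have := sc_le_pot y ψ i x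
      unfold sc at this ⊢
      rw [hi]
      linarith
    · rw [Set.indicator_of_notMem hx, zero_add]
      refine pot_le y ψt x _ fun j => ?_
      have := sc_le_pot y ψ j x
      unfold sc at this ⊢
      by_cases hji : j = i
      · rw [hji] at this ⊢
        rw [hi]
        linarith
      · rw [hj j hji]
        exact this
  have h2 := integral_mono (((integrable_const t).indicator (measurableSet_cell y ψt i)).add
    (integrable_pot r R hR y ψt)) (integrable_pot r R hR y ψ) h1
  have h3 : ∫ x, ((cell y ψt i).indicator (fun _ => t) x + pot y ψt x) ∂r =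
      r.real (cell y ψt i) * t + ∫ x, pot y ψt x ∂r := by
    rw [integral_add ((integrable_const t).indicator (measurableSet_cell y ψt i))
      (integrable_pot r R hR y ψt), integral_indicator (measurableSet_cell y ψt i),
      setIntegral_const, smul_eq_mul]
  have h2' : ∫ x, ((cell y ψt i).indicator (fun _ => t) x + pot y ψt x) ∂r ≤
    ∫ x, pot y ψ x ∂r := h2
  rw [h3] at h2'
  have h4 : ∑ j, m j * ψt j = ∑ j, m j * ψ j + m i * t := by
    have h5 : ∀ j, m j * ψt j = m j * ψ j + if j = i then m i * t else 0 := by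
      intro j
      by_cases hji : j = i
      · rw [hji, if_pos rfl, hi]; ring
      · rw [if_neg hji, hj j hji]; ring
    simp only [h5, Finset.sum_add_distrib, Finset.sum_ite_eq', Finset.mem_univ, if_true]
  unfold J at hJ
  rw [h4] at hJ
  have h6 : r.real (cell y ψt i) * t ≤ m i * t := by linarith
  exact le_of_mul_le_mul_right h6 ht

lemma cell_le (r : Measure (EuclideanSpace ℝ (Fin d))) [IsFiniteMeasure r]
    (R : ℝ) (hR : r (Metric.closedBall 0 R)ᶜ = 0)
    (y : ι → EuclideanSpace ℝ (Fin d)) (m : ι → ℝ) (hm : ∀ i, 0 < m i) (ψ : ι → ℝ) (i : ι)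
    (t0 : ℝ) (ht0 : 0 < t0)
    (hJ : ∀ ψt : ι → ℝ, ∀ t, 0 < t → t ≤ t0 → ψt i = ψ i + t → (∀ j, j ≠ i → ψt j = ψ j) →
      J r m y ψ ≤ J r m y ψt) :
    r.real (cell y ψ i) ≤ m i := by
  classical
  obtain ⟨ψn, hψn⟩ : ∃ ψn : ℕ → ι → ℝ, ∀ n, ψn n = Function.update ψ i (ψ i + t0 / (n + 1)) :=
    ⟨_, fun n => rfl⟩
  have hni : ∀ n, ψn n i = ψ i + t0 / (n + 1) := fun n => by rw [hψn]; simp
  have hnj : ∀ n j, j ≠ i → ψn n j = ψ j := fun n j hj => by
    rw [hψn]; exact Function.update_of_ne hj _ _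
  have h1 : ∀ n, r (cell y (ψn n) i) ≤ ENNReal.ofReal (m i) := by
    intro n
    have hn : (0 : ℝ) < n + 1 := by positivity
    have hpos : 0 < t0 / ((n : ℝ) + 1) := by positivity
    have hle : t0 / ((n : ℝ) + 1) ≤ t0 := div_le_self ht0.le (by linarith [n.cast_nonneg (α := ℝ)])
    have h2 := up_ineq r R hR y m ψ (ψn n) i _ hpos (hni n) (hnj n)
      (hJ (ψn n) _ hpos hle (hni n) (hnj n))
    rw [← ENNReal.ofReal_toReal (measure_ne_top r (cell y (ψn n) i))]
    exact ENNReal.ofReal_le_ofReal h2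
  have hmono : Monotone fun n => cell y (ψn n) i := by
    intro a b hab x hx j hj
    have h3 := hx j hj
    unfold sc at h3 ⊢
    rw [hni, hnj _ _ hj] at h3 ⊢
    have h4 : t0 / ((b : ℝ) + 1) ≤ t0 / ((a : ℝ) + 1) := by
      have : (a : ℝ) ≤ b := by exact_mod_cast hab
      gcongr
    linarith
  have hsub : cell y ψ i ⊆ ⋃ n, cell y (ψn n) i := by
    intro x hx
    have h5 : ∀ j, ∀ᶠ n : ℕ in Filter.atTop, j ≠ i → sc y ψ j x < sc y ψ i x - t0 / (n + 1) := by
      intro j
      by_cases hj : j = i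
      · exact Filter.Eventually.of_forall fun n h => absurd hj h
      have h6 : Filter.Tendsto (fun n : ℕ => sc y ψ i x - t0 * (1 / ((n : ℝ) + 1))) Filter.atTop
          (nhds (sc y ψ i x - t0 * 0)) :=
        tendsto_const_nhds.sub (tendsto_const_nhds.mul tendsto_one_div_add_atTop_nhds_zero_nat)
      rw [mul_zero, sub_zero] at h6
      filter_upwards [h6.eventually (lt_mem_nhds (hx j hj))] with n hn _
      rw [mul_one_div] at hn
      exact hn
    obtain ⟨n, hn⟩ := (Filter.eventually_all.mpr h5).exists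
    refine Set.mem_iUnion.mpr ⟨n, fun j hj => ?_⟩
    have h7 := hn j hj
    unfold sc at h7 ⊢
    rw [hni, hnj _ _ hj]
    linarith
  have h8 : r (cell y ψ i) ≤ ENNReal.ofReal (m i) := by
    refine (measure_mono hsub).trans ?_
    rw [hmono.measure_iUnion]
    exact iSup_le h1
  exact ENNReal.toReal_le_of_le_ofReal (hm i).le h8

lemma continuous_J (r : Measure (EuclideanSpace ℝ (Fin d))) [IsFiniteMeasure r]
    (R : ℝ) (hR : r (Metric.closedBall 0 R)ᶜ = 0)
    (y : ι → EuclideanSpace ℝ (Fin d)) (m : ι → ℝ) : Continuous fun ψ : ι → ℝ => J r m y ψ := by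
  unfold J
  refine Continuous.add ?_ (by fun_prop)
  have h1 : ∀ ψ ψ' : ι → ℝ, ∫ x, pot y ψ x ∂r ≤ ∫ x, pot y ψ' x ∂r + r.real Set.univ * dist ψ ψ' := by
    intro ψ ψ'
    have h2 : ∀ x, pot y ψ x ≤ pot y ψ' x + dist ψ ψ' := by
      intro x
      refine pot_le y ψ x _ fun i => ?_
      have h3 := sc_le_pot y ψ' i x
      have h4 : dist (ψ i) (ψ' i) ≤ dist ψ ψ' := dist_le_pi_dist ψ ψ' i
      rw [Real.dist_eq] at h4
      have h5 := abs_le.mp h4
      unfold sc at h3 ⊢
      linarith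
    have h3 := integral_mono (integrable_pot r R hR y ψ)
      ((integrable_pot r R hR y ψ').add (integrable_const (dist ψ ψ'))) h2
    have h4 : ∫ x, (pot y ψ' x + dist ψ ψ') ∂r =
        ∫ x, pot y ψ' x ∂r + r.real Set.univ * dist ψ ψ' := by
      rw [integral_add (integrable_pot r R hR y ψ') (integrable_const (dist ψ ψ')),
        integral_const, smul_eq_mul]
    have h3' : ∫ x, pot y ψ x ∂r ≤ ∫ x, (pot y ψ' x + dist ψ ψ') ∂r := h3
    rw [h4] at h3'
    exact h3'
  refine LipschitzWith.continuous (K := ⟨r.real Set.univ, measureReal_nonneg⟩) ?_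
  refine LipschitzWith.of_dist_le_mul fun ψ ψ' => ?_
  rw [Real.dist_eq, abs_sub_le_iff]
  constructor
  · have := h1 ψ ψ'
    show _ ≤ r.real Set.univ * dist ψ ψ'
    linarith
  · have := h1 ψ' ψ
    rw [dist_comm] at this
    show _ ≤ r.real Set.univ * dist ψ ψ'
    linarith

lemma J_shift (r : Measure (EuclideanSpace ℝ (Fin d))) [IsFiniteMeasure r]
    (R : ℝ) (hR : r (Metric.closedBall 0 R)ᶜ = 0)
    (y : ι → EuclideanSpace ℝ (Fin d)) (m : ι → ℝ) (hsum : ∑ i, m i = r.real Set.univ)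
    (ψ : ι → ℝ) (c : ℝ) : J r m y (fun i => ψ i - c) = J r m y ψ := by
  have h1 : ∀ x, pot y (fun i => ψ i - c) x = pot y ψ x + c := by
    intro x
    refine le_antisymm (pot_le _ _ _ _ fun i => ?_) ?_
    · have := sc_le_pot y ψ i x
      unfold sc at this ⊢
      linarith
    · have h2 : pot y ψ x ≤ pot y (fun i => ψ i - c) x - c := by
        refine pot_le _ _ _ _ fun i => ?_
        have := sc_le_pot y (fun i => ψ i - c) i x
        unfold sc at this ⊢
        linarith
      linarith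
  unfold J
  simp only [h1]
  rw [integral_add (integrable_pot r R hR y ψ) (integrable_const c), integral_const, smul_eq_mul,
    ← hsum, Finset.sum_mul, add_assoc, ← Finset.sum_add_distrib]
  congr 1
  exact Finset.sum_congr rfl fun i _ => by ring

/-- Existence of a potential with prescribed cell masses (semidiscrete optimal transport). -/
theorem exists_pot (r : Measure (EuclideanSpace ℝ (Fin d))) [IsFiniteMeasure r]
    (hr : r ≪ volume) (R : ℝ) (hR : r (Metric.closedBall 0 R)ᶜ = 0)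
    (y : ι → EuclideanSpace ℝ (Fin d)) (hy : Function.Injective y) (m : ι → ℝ)
    (hm : ∀ i, 0 < m i) (hsum : ∑ i, m i = r.real Set.univ) :
    ∃ ψ : ι → ℝ, ∀ i, r.real (cell y ψ i) = m i := by
  classical
  obtain ⟨L, hL0, hL⟩ := exists_bound y
  obtain ⟨M, hM⟩ : ∃ M : ℝ, M = |R| * (2 * L) + 1 := ⟨_, rfl⟩
  have hM1 : 1 ≤ M := by rw [hM]; have := abs_nonneg R; nlinarith [mul_nonneg this hL0]
  obtain ⟨ψ, hψS, hψmin⟩ := (isCompact_Icc (a := (0 : ι → ℝ)) (b := fun _ => M)).exists_isMinOn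
    ⟨0, ⟨le_refl _, fun _ => by simp; linarith⟩⟩ (continuous_J r R hR y m).continuousOn
  have hmin : ∀ ψ' : ι → ℝ, (∀ i, 0 ≤ ψ' i) → (∀ i, ψ' i ≤ M) → J r m y ψ ≤ J r m y ψ' :=
    fun ψ' h0 h1 => hψmin ⟨h0, h1⟩
  have hψ0 : ∀ i, 0 ≤ ψ i := hψS.1
  have hψM : ∀ i, ψ i ≤ M := hψS.2
  -- the case where no weight is maximal
  have caseA : ∀ φ : ι → ℝ, (∀ i, 0 ≤ φ i) → (∀ i, φ i < M) →
      (∀ ψ' : ι → ℝ, (∀ i, 0 ≤ ψ' i) → (∀ i, ψ' i ≤ M) → J r m y φ ≤ J r m y ψ') →
      ∀ i, r.real (cell y φ i) = m i := by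
    intro φ hφ0 hφM hφmin
    have h1 : ∀ i ∈ Finset.univ, r.real (cell y φ i) ≤ m i := by
      intro i _
      refine cell_le r R hR y m hm φ i (M - φ i) (by linarith [hφM i]) ?_
      intro ψt t ht htM hti htj
      refine hφmin ψt (fun j => ?_) (fun j => ?_)
      · by_cases hj : j = i
        · rw [hj, hti]; linarith [hφ0 i]
        · rw [htj j hj]; exact hφ0 j
      · by_cases hj : j = i
        · rw [hj, hti]; linarith
        · rw [htj j hj]; exact (hφM j).le
    have h2 : ∑ i, r.real (cell y φ i) = ∑ i, m i := by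
      rw [sum_real_cell r hr y hy φ, hsum]
    have h3 := (Finset.sum_eq_sum_iff_of_le h1).mp h2
    exact fun i => h3 i (Finset.mem_univ i)
  by_cases hA : ∀ i, ψ i < M
  · exact ⟨ψ, caseA ψ hψ0 hA hmin⟩
  push Not at hA
  obtain ⟨i, hi⟩ := hA
  have hiM : ψ i = M := le_antisymm (hψM i) hi
  have hpos : ∀ j, 0 < ψ j := by
    intro j
    rcases (hψ0 j).eq_or_lt with h0 | h0
    swap
    · exact h0
    exfalso
    have hij : j ≠ i := by
      intro h
      rw [h, hiM] at h0
      linarith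
    -- lowering the weight of `i` decreases `J`
    have hup : ∀ k, (Function.update ψ i (M - 1 / 2)) k ≤ ψ k := by
      intro k
      by_cases hk : k = i
      · rw [hk, Function.update_self, hiM]; linarith
      · rw [Function.update_of_ne hk]
    have h1 : ∫ x, pot y (Function.update ψ i (M - 1 / 2)) x ∂r ≤ ∫ x, pot y ψ x ∂r := by
      refine integral_mono_ae (integrable_pot r R hR _ _) (integrable_pot r R hR _ _) ?_
      filter_upwards [ae_norm_le r R hR] with x hx
      refine pot_le _ _ _ _ fun k => ?_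
      by_cases hk : k = i
      · have h2 := sc_le_pot y ψ j x
        refine le_trans ?_ h2
        unfold sc
        rw [hk, Function.update_self, ← h0]
        have h3 : ⟪x, y i⟫ - ⟪x, y j⟫ ≤ |R| * (2 * L) := by
          rw [← inner_sub_right]
          refine (le_abs_self _).trans ((abs_real_inner_le_norm _ _).trans ?_)
          refine mul_le_mul (hx.trans (le_abs_self R)) ?_ (norm_nonneg _) (abs_nonneg _)
          exact (norm_sub_le _ _).trans (by linarith [hL i, hL j])
        linarith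
      · have h2 := sc_le_pot y ψ k x
        unfold sc at h2 ⊢
        rw [Function.update_of_ne hk]
        exact h2
    have h2 : ∑ k, m k * (Function.update ψ i (M - 1 / 2)) k < ∑ k, m k * ψ k := by
      refine Finset.sum_lt_sum (fun k _ => mul_le_mul_of_nonneg_left (hup k) (hm k).le)
        ⟨i, Finset.mem_univ i, ?_⟩
      rw [Function.update_self, hiM]
      exact mul_lt_mul_of_pos_left (by linarith) (hm i)
    have h3 := hmin (Function.update ψ i (M - 1 / 2)) (fun k => by
      by_cases hk : k = i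
      · rw [hk, Function.update_self]; linarith
      · rw [Function.update_of_ne hk]; exact hψ0 k) (fun k => (hup k).trans (hψM k))
    unfold J at h3
    linarith
  obtain ⟨j0, hj0⟩ := Finite.exists_min ψ
  refine ⟨fun k => ψ k - ψ j0, caseA _ (fun k => by linarith [hj0 k])
    (fun k => by linarith [hpos j0, hψM k]) fun ψ' h0 h1 => ?_⟩
  rw [J_shift r R hR y m hsum ψ (ψ j0)]
  exact hmin ψ' h0 h1

end P074
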